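import Mathlib

/-!
Core polynomial inequality for the three-state Potts reconstruction argument.
-/

namespace Vale.Agent.P154

/-- Bilinear function on a box is nonnegative if it is nonnegative at the four corners. -/
theorem bilinear_nonneg {c0 c1 c2 c3 U V u v : ℝ} (hU : 0 ≤ U) (hV : 0 ≤ V)
    (hu0 : 0 ≤ u) (huU : u ≤ U) (hv0 : 0 ≤ v) (hvV : v ≤ V)
    (h00 : 0 ≤ c0) (h10 : 0 ≤ c0 + c1 * U) (h01 : 0 ≤ c0 + c2 * V)
    (h11 : 0 ≤ c0 + c1 * U + c2 * V + c3 * U * V) :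
    0 ≤ c0 + c1 * u + c2 * v + c3 * u * v := by
  rcases eq_or_lt_of_le hU with hU0 | hU0
  · have hu : u = 0 := le_antisymm (by linarith) hu0
    subst hu
    rcases eq_or_lt_of_le hV with hV0 | hV0
    · have hv : v = 0 := le_antisymm (by linarith) hv0
      subst hv
      simpa using h00
    · have key : V * (c0 + c1 * 0 + c2 * v + c3 * 0 * v)
          = (V - v) * c0 + v * (c0 + c2 * V) := by ring
      have : 0 ≤ V * (c0 + c1 * 0 + c2 * v + c3 * 0 * v) := by
        rw [key]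
        have h1 : 0 ≤ V - v := by linarith
        positivity
      exact nonneg_of_mul_nonneg_right this hV0
  · rcases eq_or_lt_of_le hV with hV0 | hV0
    · have hv : v = 0 := le_antisymm (by linarith) hv0
      subst hv
      have key : U * (c0 + c1 * u + c2 * 0 + c3 * u * 0)
          = (U - u) * c0 + u * (c0 + c1 * U) := by ring
      have : 0 ≤ U * (c0 + c1 * u + c2 * 0 + c3 * u * 0) := by
        rw [key]
        have h1 : 0 ≤ U - u := by linarith
        positivity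
      exact nonneg_of_mul_nonneg_right this hU0
    · have key : (U * V) * (c0 + c1 * u + c2 * v + c3 * u * v)
          = (U - u) * (V - v) * c0 + u * (V - v) * (c0 + c1 * U)
            + (U - u) * v * (c0 + c2 * V) + u * v * (c0 + c1 * U + c2 * V + c3 * U * V) := by
        ring
      have : 0 ≤ (U * V) * (c0 + c1 * u + c2 * v + c3 * u * v) := by
        rw [key]
        have h1 : 0 ≤ U - u := by linarith
        have h2 : 0 ≤ V - v := by linarith
        positivity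
      exact nonneg_of_mul_nonneg_right this (mul_pos hU0 hV0)

/-- The corner value on the edge `v = 0`. -/
theorem corner10 {x z : ℝ} (hx : 0 < x) (hx2 : x ≤ 3 / 2) (hz : 0 < z) (hz2 : z ≤ 3 / 2) :
    0 ≤ (x + z) * (3 / 2) - 2 * x * z
      + ((x + z) * ((z + 1 / 2) ^ 2 / (2 * z) - 3 / 2) + 1 - z)
        * (4 * x * (3 / 2 - x) / (2 * x + 1)) := by
  have hy : 0 ≤ 3 / 2 - x := by linarith
  have ht : 0 ≤ 3 / 2 - z := by linarith
  set y := 3 / 2 - x with hydef
  set t := 3 / 2 - z with htdef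
  have hden : 0 < 2 * x + 1 := by linarith
  have key : (x + z) * (3 / 2) - 2 * x * z
      + ((x + z) * ((z + 1 / 2) ^ 2 / (2 * z) - 3 / 2) + 1 - z)
        * (4 * x * y / (2 * x + 1))
      = ((8/27)*y^3*z^2*t + (8/27)*y^3*z^3 + (44/27)*x*y^2*z*t^2 + (8/9)*x*y^2*z^2*t
          + (16/27)*x*y^2*z^3 + (4/27)*x^2*y*t^3 + (40/27)*x^2*y*z*t^2
          + (32/27)*x^3*z*t^2 + (32/27)*x^3*z^2*t) / (z * (2 * x + 1)) := by
    rw [hydef, htdef]
    field_simp
    ring
  rw [key]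
  positivity

/-- The corner value at `(U, V)`. -/
theorem corner11 {x z : ℝ} (hx : 0 < x) (hx2 : x ≤ 3 / 2) (hz : 0 < z) (hz2 : z ≤ 3 / 2) :
    0 ≤ (x + z) * (3 / 2) - 2 * x * z
      + ((x + z) * ((z + 1 / 2) ^ 2 / (2 * z) - 3 / 2) + 1 - z)
        * (4 * x * (3 / 2 - x) / (2 * x + 1))
      + ((x + z) * ((x + 1 / 2) ^ 2 / (2 * x) - 3 / 2) + 1 - x)
        * (4 * z * (3 / 2 - z) / (2 * z + 1))
      + ((x + z) / 2 - 1 / 2) * (4 * x * (3 / 2 - x) / (2 * x + 1))
        * (4 * z * (3 / 2 - z) / (2 * z + 1)) := by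
  have hy : 0 ≤ 3 / 2 - x := by linarith
  have ht : 0 ≤ 3 / 2 - z := by linarith
  have key : (x + z) * (3 / 2) - 2 * x * z
      + ((x + z) * ((z + 1 / 2) ^ 2 / (2 * z) - 3 / 2) + 1 - z)
        * (4 * x * (3 / 2 - x) / (2 * x + 1))
      + ((x + z) * ((x + 1 / 2) ^ 2 / (2 * x) - 3 / 2) + 1 - x)
        * (4 * z * (3 / 2 - z) / (2 * z + 1))
      + ((x + z) / 2 - 1 / 2) * (4 * x * (3 / 2 - x) / (2 * x + 1))
        * (4 * z * (3 / 2 - z) / (2 * z + 1))
      = (4 * (x + z) / ((2 * x + 1) * (2 * z + 1))) *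
        ((3 / 2 - x) * (3 / 2 - z) + (x - z) ^ 2 *
          ((4 / 9) * (3 * (3 / 2 - x) * (3 / 2 - z) + 24 * x * z)) / (16 * x * z)) := by
    field_simp
    ring
  rw [key]
  positivity

/-- The bilinear lower bound, nonnegative on the box. -/
theorem core_Y1 {x z u v : ℝ} (hx : 0 < x) (hx2 : x ≤ 3 / 2) (hz : 0 < z) (hz2 : z ≤ 3 / 2)
    (hu0 : 0 ≤ u) (hu : u * (2 * x + 1) ≤ 4 * x * (3 / 2 - x))
    (hv0 : 0 ≤ v) (hv : v * (2 * z + 1) ≤ 4 * z * (3 / 2 - z)) :
    0 ≤ (x + z) * (3 / 2) - 2 * x * z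
      + ((x + z) * ((z + 1 / 2) ^ 2 / (2 * z) - 3 / 2) + 1 - z) * u
      + ((x + z) * ((x + 1 / 2) ^ 2 / (2 * x) - 3 / 2) + 1 - x) * v
      + ((x + z) / 2 - 1 / 2) * u * v := by
  have hy : 0 ≤ 3 / 2 - x := by linarith
  have ht : 0 ≤ 3 / 2 - z := by linarith
  have hxd : 0 < 2 * x + 1 := by linarith
  have hzd : 0 < 2 * z + 1 := by linarith
  refine bilinear_nonneg (U := 4 * x * (3 / 2 - x) / (2 * x + 1))
    (V := 4 * z * (3 / 2 - z) / (2 * z + 1)) (by positivity) (by positivity) hu0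
    ((le_div_iff₀ hxd).2 hu) hv0 ((le_div_iff₀ hzd).2 hv) ?_ ?_ ?_ ?_
  · have : (x + z) * (3 / 2) - 2 * x * z = x * (3 / 2 - z) + z * (3 / 2 - x) := by ring
    rw [this]; positivity
  · exact corner10 hx hx2 hz hz2
  · have := corner10 hz hz2 hx hx2
    have e : (z + x) * (3 / 2) - 2 * z * x = (x + z) * (3 / 2) - 2 * x * z := by ring
    rw [e] at this
    have e2 : z + x = x + z := by ring
    rw [e2] at this
    exact this
  · exact corner11 hx hx2 hz hz2

/-- The main polynomial inequality. -/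
theorem core_Xi {a w b w' : ℝ} (ha0 : 0 < a) (ha1 : a ≤ 1) (hb0 : 0 < b) (hb1 : b ≤ 1)
    (hC : a * w ^ 2 ≤ 2 * w - 1) (hC' : b * w' ^ 2 ≤ 2 * w' - 1)
    (hU : 2 * (1 - a) * w ≤ 1) (hU' : 2 * (1 - b) * w' ≤ 1) :
    0 ≤ (w + w' - 1) * (1 - 3 * (1 - a) * (1 - b)
          + 2 * (1 - a) * (1 - b) * ((1 - a * w) * (1 - b * w')))
        + 2 * a * b * (2 - w - w' - (1 - a * w) * (1 - b * w')) := by
  -- basic bounds on `w`
  have hw : 1 / 2 < w := by
    have : 0 ≤ a * w ^ 2 := by positivity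
    by_contra h
    push Not at h
    have h0 : 2 * w - 1 ≥ 0 := by linarith
    have : w = 1 / 2 := by linarith
    subst this
    norm_num at hC
    linarith
  have hw' : 1 / 2 < w' := by
    have : 0 ≤ b * w' ^ 2 := by positivity
    by_contra h
    push Not at h
    have h0 : 2 * w' - 1 ≥ 0 := by linarith
    have : w' = 1 / 2 := by linarith
    subst this
    norm_num at hC'
    linarith
  have hw0 : 0 < w := by linarith
  have hw0' : 0 < w' := by linarith
  have hw2 : w ≤ 2 := by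
    -- `2 a w ≥ 2 w - 1`, so `(2w-1) w / 2 ≤ a w^2 ≤ 2 w - 1`
    have h1 : 2 * w - 1 ≤ 2 * a * w := by linarith
    have h2 : (2 * w - 1) * w ≤ 2 * (2 * w - 1) := by
      have : (2 * w - 1) * w ≤ (2 * a * w) * w := by
        exact mul_le_mul_of_nonneg_right h1 hw0.le
      nlinarith
    have h3 : 0 < 2 * w - 1 := by linarith
    by_contra h
    push Not at h
    nlinarith
  have hw2' : w' ≤ 2 := by
    have h1 : 2 * w' - 1 ≤ 2 * b * w' := by linarith
    have h2 : (2 * w' - 1) * w' ≤ 2 * (2 * w' - 1) := by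
      have : (2 * w' - 1) * w' ≤ (2 * b * w') * w' := by
        exact mul_le_mul_of_nonneg_right h1 hw0'.le
      nlinarith
    have h3 : 0 < 2 * w' - 1 := by linarith
    by_contra h
    push Not at h
    nlinarith
  -- the substitution
  obtain ⟨x, hx⟩ : ∃ x, x = w - 1 / 2 := ⟨_, rfl⟩
  obtain ⟨z, hz⟩ : ∃ z, z = w' - 1 / 2 := ⟨_, rfl⟩
  obtain ⟨u, hu⟩ : ∃ u, u = 1 - 2 * (1 - a) * w := ⟨_, rfl⟩
  obtain ⟨v, hv⟩ : ∃ v, v = 1 - 2 * (1 - b) * w' := ⟨_, rfl⟩
  have hx0 : 0 < x := by rw [hx]; linarith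
  have hz0 : 0 < z := by rw [hz]; linarith
  have hx2 : x ≤ 3 / 2 := by rw [hx]; linarith
  have hz2 : z ≤ 3 / 2 := by rw [hz]; linarith
  have hu0 : 0 ≤ u := by rw [hu]; linarith
  have hv0 : 0 ≤ v := by rw [hv]; linarith
  have hub : u * (2 * x + 1) ≤ 4 * x * (3 / 2 - x) := by
    rw [hu, hx]; nlinarith
  have hvb : v * (2 * z + 1) ≤ 4 * z * (3 / 2 - z) := by
    rw [hv, hz]; nlinarith
  have hY1 := core_Y1 hx0 hx2 hz0 hz2 hu0 hub hv0 hvb
  -- compare with `1/a`, `1/b`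
  have hia : (x + 1 / 2) ^ 2 / (2 * x) ≤ 1 / a := by
    rw [div_le_div_iff₀ (by positivity) ha0, hx]
    nlinarith
  have hib : (z + 1 / 2) ^ 2 / (2 * z) ≤ 1 / b := by
    rw [div_le_div_iff₀ (by positivity) hb0, hz]
    nlinarith
  have hk : 0 ≤ x + z := by positivity
  have hY : 0 ≤ (x + z) * (u / b + v / a + (3 - 3 * u - 3 * v + u * v) / 2) + u + v
      - 2 * (a * w) * (b * w') := by
    have e1 : a * w = x + u / 2 := by rw [hx, hu]; ring
    have e2 : b * w' = z + v / 2 := by rw [hz, hv]; ring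
    rw [e1, e2]
    have h1 : (x + z) * (u * ((z + 1 / 2) ^ 2 / (2 * z))) ≤ (x + z) * (u * (1 / b)) :=
      mul_le_mul_of_nonneg_left (mul_le_mul_of_nonneg_left hib hu0) hk
    have h2 : (x + z) * (v * ((x + 1 / 2) ^ 2 / (2 * x))) ≤ (x + z) * (v * (1 / a)) :=
      mul_le_mul_of_nonneg_left (mul_le_mul_of_nonneg_left hia hv0) hk
    have e3 : (x + z) * (u / b + v / a + (3 - 3 * u - 3 * v + u * v) / 2) + u + v
        - 2 * (x + u / 2) * (z + v / 2)
        = (x + z) * (u * (1 / b)) + (x + z) * (v * (1 / a))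
          + ((x + z) * (3 / 2) - 2 * x * z
          + ((x + z) * (- 3 / 2) + 1 - z) * u
          + ((x + z) * (- 3 / 2) + 1 - x) * v
          + ((x + z) / 2 - 1 / 2) * u * v) := by
      ring
    rw [e3]
    have e4 : (x + z) * (3 / 2) - 2 * x * z
      + ((x + z) * ((z + 1 / 2) ^ 2 / (2 * z) - 3 / 2) + 1 - z) * u
      + ((x + z) * ((x + 1 / 2) ^ 2 / (2 * x) - 3 / 2) + 1 - x) * v
      + ((x + z) / 2 - 1 / 2) * u * v
      = (x + z) * (u * ((z + 1 / 2) ^ 2 / (2 * z))) + (x + z) * (v * ((x + 1 / 2) ^ 2 / (2 * x)))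
          + ((x + z) * (3 / 2) - 2 * x * z
          + ((x + z) * (- 3 / 2) + 1 - z) * u
          + ((x + z) * (- 3 / 2) + 1 - x) * v
          + ((x + z) / 2 - 1 / 2) * u * v) := by
      ring
    rw [e4] at hY1
    linarith
  have hfinal : (w + w' - 1) * (1 - 3 * (1 - a) * (1 - b)
          + 2 * (1 - a) * (1 - b) * ((1 - a * w) * (1 - b * w')))
        + 2 * a * b * (2 - w - w' - (1 - a * w) * (1 - b * w'))
      = a * b * ((x + z) * (u / b + v / a + (3 - 3 * u - 3 * v + u * v) / 2) + u + v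
      - 2 * (a * w) * (b * w')) := by
    rw [hx, hz, hu, hv]
    field_simp
    ring
  rw [hfinal]
  positivity

end Vale.Agent.P154
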