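import Mathlib

/-!
Broadcasting on the `d`-ary tree through the `q`-state Potts channel.
-/

namespace Vale.Agent.P154

noncomputable section

open Finset

/-- The `q`-state Potts channel: `P(j | i) = lam * 1_{i = j} + (1 - lam) / q`. -/
def pottsChannel (q : ℕ) (lam : ℝ) (i j : Fin q) : ℝ :=
  lam * (if i = j then 1 else 0) + (1 - lam) / q

/-- The probability that the leaves of the depth `n` rooted `d`-ary tree carry the spins `τ`,
given that the root has spin `i`. The leaves at depth `n` are the words `Fin n → Fin d`; the
subtree below the child `c` of the root has the leaves `path ↦ τ (Fin.cons c path)`. -/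
def leafLik (q d : ℕ) (lam : ℝ) : (n : ℕ) → Fin q → ((Fin n → Fin d) → Fin q) → ℝ
  | 0, i, τ => if τ Fin.elim0 = i then 1 else 0
  | n + 1, i, τ => ∏ c : Fin d, ∑ j : Fin q,
      pottsChannel q lam i j * leafLik q d lam n j (fun path => τ (Fin.cons c path))

/-- The probability of the leaf spins `τ` when the root spin is uniform. -/
def leafProb (q d : ℕ) (lam : ℝ) (n : ℕ) (τ : (Fin n → Fin d) → Fin q) : ℝ :=
  ∑ i : Fin q, (1 / (q : ℝ)) * leafLik q d lam n i τ

/-- The quantity `a_n`: the expectation over the leaf spins at depth `n` of the total variation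
distance between the posterior law of the root spin and the uniform law. -/
def reconA (q d : ℕ) (lam : ℝ) (n : ℕ) : ℝ :=
  ∑ τ : (Fin n → Fin d) → Fin q, leafProb q d lam n τ *
    ((1 / 2) * ∑ i : Fin q,
      |(1 / (q : ℝ)) * leafLik q d lam n i τ / leafProb q d lam n τ - 1 / (q : ℝ)|)

end

end Vale.Agent.P154
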