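import Vale.Agent.P154.Defs

/-!
Broadcasting on Galton-Watson trees through the `q`-state Potts channel.
-/

namespace Vale.Agent.P154

noncomputable section

/-- Rooted trees truncated at depth `n`, the children of each vertex being listed in order.
A vertex of depth `n` is a `leaf`; a vertex of depth less than `n` is a `node` with `k` children,
and `k = 0` is allowed. -/
inductive DTree : ℕ → Type
  | leaf : DTree 0
  | node {n : ℕ} (k : ℕ) (child : Fin k → DTree n) : DTree (n + 1)

/-- The spin configurations on the vertices at depth exactly `n` of a truncated tree. -/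
def DTree.Config (q : ℕ) : {n : ℕ} → DTree n → Type
  | _, .leaf => Fin q
  | _, .node k child => ∀ c : Fin k, DTree.Config q (child c)

/-- There are finitely many spin configurations on the vertices at depth `n`. -/
instance DTree.configFintype (q : ℕ) : {n : ℕ} → (T : DTree n) → Fintype (DTree.Config q T)
  | _, .leaf => inferInstanceAs (Fintype (Fin q))
  | _, .node k child =>
      letI := fun c => DTree.configFintype q (child c)
      inferInstanceAs (Fintype (∀ c : Fin k, DTree.Config q (child c)))

/-- The probability of the spins `τ` at depth `n`, given the spin `i` of the root. -/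
def DTree.lik (q : ℕ) (lam : ℝ) : {n : ℕ} → (T : DTree n) → Fin q → DTree.Config q T → ℝ
  | _, .leaf, i, (τ : Fin q) => if τ = i then 1 else 0
  | _, .node k child, i, τ => ∏ c : Fin k, ∑ j : Fin q,
      pottsChannel q lam i j * DTree.lik q lam (child c) j (τ c)

/-- The probability of the spins `τ` at depth `n` when the root spin is uniform. -/
def DTree.spinProb (q : ℕ) (lam : ℝ) {n : ℕ} (T : DTree n) (τ : DTree.Config q T) : ℝ :=
  ∑ i : Fin q, (1 / (q : ℝ)) * DTree.lik q lam T i τ

/-- For a fixed tree, the expected total variation distance between the posterior law of the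
root spin, given the spins at depth `n`, and the uniform law. -/
def DTree.treeA (q : ℕ) (lam : ℝ) {n : ℕ} (T : DTree n) : ℝ :=
  ∑ τ : DTree.Config q T, DTree.spinProb q lam T τ *
    ((1 / 2) * ∑ i : Fin q,
      |(1 / (q : ℝ)) * DTree.lik q lam T i τ / DTree.spinProb q lam T τ - 1 / (q : ℝ)|)

/-- The probability of a truncated tree under the Galton-Watson law with offspring law `w`. -/
def DTree.prob (w : ℕ → ℝ) : {n : ℕ} → DTree n → ℝ
  | _, .leaf => 1
  | _, .node k child => w k * ∏ c : Fin k, DTree.prob w (child c)

/-- The quantity `a_n` for the Galton-Watson tree with offspring law `w`. -/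
def gwA (q : ℕ) (w : ℕ → ℝ) (lam : ℝ) (n : ℕ) : ℝ :=
  ∑' T : DTree n, T.prob w * T.treeA q lam

/-- The Poisson law with parameter `d`. -/
def poissonWeight (d : ℝ) (k : ℕ) : ℝ := Real.exp (-d) * d ^ k / (k.factorial : ℝ)

end

end Vale.Agent.P154
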