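import Mathlib

/-!
Expectations under product weights on countable sets.
-/

namespace Vale.Agent.P154

noncomputable section

open Finset

variable {X : Type*}

/-- Product weights on tuples. -/
def prodW (p : X → ℝ) (k : ℕ) (t : Fin k → X) : ℝ := ∏ c, p (t c)

theorem prodW_nonneg {p : X → ℝ} (hp0 : ∀ x, 0 ≤ p x) (k : ℕ) (t : Fin k → X) :
    0 ≤ prodW p k t := Finset.prod_nonneg fun c _ => hp0 _

theorem prodW_cons (p : X → ℝ) (k : ℕ) (x : X) (t : Fin k → X) :
    prodW p (k + 1) (Fin.cons x t) = p x * prodW p k t := by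
  simp [prodW, Fin.prod_univ_succ]

/-- A bounded multiple of a summable nonnegative family is summable. -/
theorem summable_mul_of_bdd {ι : Type*} {w g : ι → ℝ} {C : ℝ} (hw : Summable w) (h0 : ∀ i, 0 ≤ w i)
    (hg : ∀ i, |g i| ≤ C) : Summable fun i => w i * g i := by
  refine Summable.of_norm_bounded (g := fun i => w i * C) (hw.mul_right C) fun i => ?_
  rw [Real.norm_eq_abs, abs_mul, abs_of_nonneg (h0 i)]
  exact mul_le_mul_of_nonneg_left (hg i) (h0 i)

/-- The product weights have total mass one. -/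
theorem prodW_hasSum {p : X → ℝ} (hp0 : ∀ x, 0 ≤ p x) (hp : HasSum p 1) (k : ℕ) :
    HasSum (prodW p k) 1 := by
  induction k with
  | zero =>
    have : prodW p 0 = fun _ => 1 := by
      funext t
      simp [prodW]
    rw [this]
    exact hasSum_unique (fun _ : Fin 0 → X => (1 : ℝ))
  | succ k ih =>
    have hprod : HasSum (fun z : X × (Fin k → X) => p z.1 * prodW p k z.2) (1 * 1) := by
      have hs : Summable (fun z : X × (Fin k → X) => p z.1 * prodW p k z.2) :=
        hp.summable.mul_of_nonneg ih.summable hp0 (prodW_nonneg hp0 k)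
      have := hs.hasSum
      rw [hs.tsum_prod' (fun x => (ih.summable.mul_left (p x)))] at this
      simp only [tsum_mul_left, ih.tsum_eq, mul_one, hp.tsum_eq] at this
      simpa using this
    simp only [mul_one] at hprod
    have e := (Fin.consEquiv (fun _ : Fin (k + 1) => X))
    refine ((Fin.consEquiv (fun _ : Fin (k + 1) => X)).hasSum_iff).1 ?_
    convert hprod using 1
    funext z
    simp [Fin.consEquiv, prodW_cons]

/-- The expectation under product weights. -/
def Ek (p : X → ℝ) (k : ℕ) (g : (Fin k → X) → ℝ) : ℝ := ∑' t, prodW p k t * g t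

/-- The expectation on `X`. -/
def E1 (p : X → ℝ) (g : X → ℝ) : ℝ := ∑' x, p x * g x

theorem Ek_summable {p : X → ℝ} (hp0 : ∀ x, 0 ≤ p x) (hp : HasSum p 1) (k : ℕ)
    {g : (Fin k → X) → ℝ} {C : ℝ} (hg : ∀ t, |g t| ≤ C) :
    Summable fun t => prodW p k t * g t :=
  summable_mul_of_bdd (prodW_hasSum hp0 hp k).summable (prodW_nonneg hp0 k) hg

theorem E1_summable {p : X → ℝ} (hp0 : ∀ x, 0 ≤ p x) (hp : HasSum p 1)
    {g : X → ℝ} {C : ℝ} (hg : ∀ t, |g t| ≤ C) :
    Summable fun t => p t * g t :=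
  summable_mul_of_bdd hp.summable hp0 hg

theorem Ek_const {p : X → ℝ} (hp0 : ∀ x, 0 ≤ p x) (hp : HasSum p 1) (k : ℕ) (a : ℝ) :
    Ek p k (fun _ => a) = a := by
  unfold Ek
  rw [tsum_mul_right, (prodW_hasSum hp0 hp k).tsum_eq, one_mul]

theorem E1_const {p : X → ℝ} (hp : HasSum p 1) (a : ℝ) : E1 p (fun _ => a) = a := by
  unfold E1
  rw [tsum_mul_right, hp.tsum_eq, one_mul]

theorem Ek_add {p : X → ℝ} (hp0 : ∀ x, 0 ≤ p x) (hp : HasSum p 1) (k : ℕ)
    {g h : (Fin k → X) → ℝ} {C D : ℝ} (hg : ∀ t, |g t| ≤ C) (hh : ∀ t, |h t| ≤ D) :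
    Ek p k (fun t => g t + h t) = Ek p k g + Ek p k h := by
  unfold Ek
  rw [← (Ek_summable hp0 hp k hg).tsum_add (Ek_summable hp0 hp k hh)]
  refine tsum_congr fun t => ?_
  ring

theorem Ek_mono {p : X → ℝ} (hp0 : ∀ x, 0 ≤ p x) (hp : HasSum p 1) (k : ℕ)
    {g h : (Fin k → X) → ℝ} {C D : ℝ} (hg : ∀ t, |g t| ≤ C) (hh : ∀ t, |h t| ≤ D)
    (hle : ∀ t, g t ≤ h t) : Ek p k g ≤ Ek p k h :=
  (Ek_summable hp0 hp k hg).tsum_le_tsum
    (fun t => mul_le_mul_of_nonneg_left (hle t) (prodW_nonneg hp0 k t))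
    (Ek_summable hp0 hp k hh)

theorem E1_mono {p : X → ℝ} (hp0 : ∀ x, 0 ≤ p x) (hp : HasSum p 1)
    {g h : X → ℝ} {C D : ℝ} (hg : ∀ t, |g t| ≤ C) (hh : ∀ t, |h t| ≤ D)
    (hle : ∀ t, g t ≤ h t) : E1 p g ≤ E1 p h :=
  (E1_summable hp0 hp hg).tsum_le_tsum (fun t => mul_le_mul_of_nonneg_left (hle t) (hp0 t))
    (E1_summable hp0 hp hh)

theorem E1_add {p : X → ℝ} (hp0 : ∀ x, 0 ≤ p x) (hp : HasSum p 1)
    {g h : X → ℝ} {C D : ℝ} (hg : ∀ t, |g t| ≤ C) (hh : ∀ t, |h t| ≤ D) :
    E1 p (fun t => g t + h t) = E1 p g + E1 p h := by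
  unfold E1
  rw [← (E1_summable hp0 hp hg).tsum_add (E1_summable hp0 hp hh)]
  refine tsum_congr fun t => ?_
  ring

theorem E1_mul_const (p : X → ℝ) (g : X → ℝ) (a : ℝ) :
    E1 p (fun t => g t * a) = E1 p g * a := by
  unfold E1
  rw [← tsum_mul_right]
  refine tsum_congr fun t => ?_
  ring

theorem E1_const_mul (p : X → ℝ) (g : X → ℝ) (a : ℝ) :
    E1 p (fun t => a * g t) = a * E1 p g := by
  unfold E1
  rw [← tsum_mul_left]
  refine tsum_congr fun t => ?_
  ring

theorem Ek_const_mul (p : X → ℝ) (k : ℕ) (g : (Fin k → X) → ℝ) (a : ℝ) :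
    Ek p k (fun t => a * g t) = a * Ek p k g := by
  unfold Ek
  rw [← tsum_mul_left]
  refine tsum_congr fun t => ?_
  ring

/-- Integrating out the first coordinate. -/
theorem Ek_cons {p : X → ℝ} (hp0 : ∀ x, 0 ≤ p x) (hp : HasSum p 1) (k : ℕ)
    {g : (Fin (k + 1) → X) → ℝ} {C : ℝ} (hg : ∀ t, |g t| ≤ C) :
    Ek p (k + 1) g = E1 p fun x => Ek p k fun t => g (Fin.cons x t) := by
  unfold Ek E1
  have hC : 0 ≤ C := (abs_nonneg _).trans (hg (fun _ => Classical.choice (by
    by_contra hne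
    have hempty : IsEmpty X := not_nonempty_iff.1 hne
    have : HasSum p 0 := by
      have : p = fun _ => 0 := by funext x; exact (hempty.false x).elim
      rw [this]; exact hasSum_zero
    exact one_ne_zero (hp.unique this))))
  rw [← (Fin.consEquiv (fun _ : Fin (k + 1) => X)).tsum_eq]
  have hs : Summable (fun z : X × (Fin k → X) =>
      prodW p (k + 1) (Fin.cons z.1 z.2) * g (Fin.cons z.1 z.2)) := by
    have h1 : Summable (fun z : X × (Fin k → X) => p z.1 * prodW p k z.2) :=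
      hp.summable.mul_of_nonneg (prodW_hasSum hp0 hp k).summable hp0 (prodW_nonneg hp0 k)
    have h2 : ∀ z : X × (Fin k → X), |g (Fin.cons z.1 z.2)| ≤ C := fun z => hg _
    have := summable_mul_of_bdd h1 (fun z => mul_nonneg (hp0 _) (prodW_nonneg hp0 k _)) h2
    refine this.congr fun z => ?_
    rw [prodW_cons]
  have hs' : Summable (fun z : X × (Fin k → X) => (Fin.consEquiv (fun _ : Fin (k + 1) => X)) z
      |> fun t => prodW p (k + 1) t * g t) := hs
  show ∑' z : X × (Fin k → X), prodW p (k + 1) (Fin.cons z.1 z.2) * g (Fin.cons z.1 z.2) = _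
  rw [hs.tsum_prod' (fun x => by
    have h3 : ∀ t : Fin k → X, |g (Fin.cons x t)| ≤ C := fun t => hg _
    have := (Ek_summable hp0 hp k h3).mul_left (p x)
    refine this.congr fun t => ?_
    rw [prodW_cons]; ring)]
  refine tsum_congr fun x => ?_
  rw [← tsum_mul_left]
  refine tsum_congr fun t => ?_
  rw [prodW_cons]
  ring

theorem abs_Ek_le {p : X → ℝ} (hp0 : ∀ x, 0 ≤ p x) (hp : HasSum p 1) (k : ℕ)
    {g : (Fin k → X) → ℝ} {C : ℝ} (hg : ∀ t, |g t| ≤ C) : |Ek p k g| ≤ C := by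
  have h1 : Ek p k g ≤ Ek p k (fun _ => C) :=
    Ek_mono hp0 hp k (g := g) (h := fun _ => C) (C := C) (D := |C|) hg (fun _ => le_rfl)
      (fun t => (le_abs_self _).trans (hg t))
  have h2 : Ek p k (fun _ => -C) ≤ Ek p k g :=
    Ek_mono hp0 hp k (g := fun _ => -C) (h := g) (C := |C|) (D := C) (fun _ => (abs_neg C).le) hg
      (fun t => by have := (neg_abs_le (g t)); linarith [hg t])
  rw [Ek_const hp0 hp] at h1 h2
  exact abs_le.2 ⟨h2, h1⟩

theorem abs_E1_le {p : X → ℝ} (hp0 : ∀ x, 0 ≤ p x) (hp : HasSum p 1)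
    {g : X → ℝ} {C : ℝ} (hg : ∀ t, |g t| ≤ C) : |E1 p g| ≤ C := by
  have h1 : E1 p g ≤ E1 p (fun _ => C) :=
    E1_mono hp0 hp (g := g) (h := fun _ => C) (C := C) (D := |C|) hg (fun _ => le_rfl)
      (fun t => (le_abs_self _).trans (hg t))
  have h2 : E1 p (fun _ => -C) ≤ E1 p g :=
    E1_mono hp0 hp (g := fun _ => -C) (h := g) (C := |C|) (D := C) (fun _ => (abs_neg C).le) hg
      (fun t => by have := (neg_abs_le (g t)); linarith [hg t])
  rw [E1_const hp] at h1 h2
  exact abs_le.2 ⟨h2, h1⟩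

/-- Expectation of a sum over the coordinates. -/
theorem Ek_sum {p : X → ℝ} (hp0 : ∀ x, 0 ≤ p x) (hp : HasSum p 1) {h : X → ℝ} {C : ℝ}
    (hh : ∀ x, |h x| ≤ C) (k : ℕ) :
    Ek p k (fun t => ∑ c, h (t c)) = k * E1 p h := by
  have hbd : ∀ (j : ℕ) (t : Fin j → X), |∑ c, h (t c)| ≤ j * C := by
    intro j t
    refine (Finset.abs_sum_le_sum_abs _ _).trans ?_
    calc ∑ c, |h (t c)| ≤ ∑ _c : Fin j, C := Finset.sum_le_sum fun c _ => hh _
      _ = j * C := by simp
  induction k with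
  | zero =>
    simp only [Finset.univ_eq_empty, Finset.sum_empty, Nat.cast_zero, zero_mul]
    exact Ek_const hp0 hp 0 0
  | succ k ih =>
    rw [Ek_cons hp0 hp k (hbd (k + 1))]
    have e : ∀ x, Ek p k (fun t => ∑ c, h ((Fin.cons x t : Fin (k + 1) → X) c))
        = h x + k * E1 p h := by
      intro x
      have : (fun t : Fin k → X => ∑ c, h ((Fin.cons x t : Fin (k + 1) → X) c))
          = fun t => h x + ∑ c, h (t c) := by
        funext t
        simp [Fin.sum_univ_succ]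
      rw [this, Ek_add hp0 hp k (g := fun _ => h x) (C := C) (D := k * C)
        (fun _ => hh x) (hbd k), ih, Ek_const hp0 hp]
    simp only [e]
    rw [E1_add hp0 hp hh (g := h) (h := fun _ => (k : ℝ) * E1 p h) (D := |(k : ℝ) * E1 p h|)
      (fun _ => le_rfl), E1_const hp]
    push_cast
    ring

/-- Expectation of a function of the first two coordinates. -/
theorem Ek_two {p : X → ℝ} (hp0 : ∀ x, 0 ≤ p x) (hp : HasSum p 1) {g h : X → ℝ} {C D : ℝ}
    (hg : ∀ x, |g x| ≤ C) (hh : ∀ x, |h x| ≤ D) (k : ℕ) :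
    Ek p (k + 2) (fun t => g (t 0) * h (t 1)) = E1 p g * E1 p h := by
  have hD : ∀ (x y : X), |g x * h y| ≤ C * D := fun x y => by
    rw [abs_mul]
    exact mul_le_mul (hg x) (hh y) (abs_nonneg _) ((abs_nonneg _).trans (hg x))
  rw [Ek_cons hp0 hp (k + 1) (C := C * D) (fun t => hD _ _)]
  have e1 : ∀ x, Ek p (k + 1) (fun t => g ((Fin.cons x t : Fin (k + 2) → X) 0)
        * h ((Fin.cons x t : Fin (k + 2) → X) 1)) = g x * E1 p h := by
    intro x
    rw [Ek_cons hp0 hp k (C := C * D) (fun t => hD _ _)]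
    have e2 : ∀ y, Ek p k (fun t => g ((Fin.cons x (Fin.cons y t : Fin (k + 1) → X) : Fin (k + 2) → X) 0)
        * h ((Fin.cons x (Fin.cons y t : Fin (k + 1) → X) : Fin (k + 2) → X) 1)) = g x * h y := by
      intro y
      have : (fun t : Fin k → X =>
          g ((Fin.cons x (Fin.cons y t : Fin (k + 1) → X) : Fin (k + 2) → X) 0)
          * h ((Fin.cons x (Fin.cons y t : Fin (k + 1) → X) : Fin (k + 2) → X) 1))
          = fun _ => g x * h y := by
        funext t
        rfl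
      rw [this, Ek_const hp0 hp]
    simp only [e2]
    exact E1_const_mul p h (g x)
  simp only [e1]
  exact E1_mul_const p g (E1 p h)

/-- Expectation of a product over the coordinates. -/
theorem Ek_prod {p : X → ℝ} (hp0 : ∀ x, 0 ≤ p x) (hp : HasSum p 1) {h : X → ℝ}
    (hh : ∀ x, |h x| ≤ 1) (k : ℕ) :
    Ek p k (fun t => ∏ c, h (t c)) = (E1 p h) ^ k := by
  have hbd : ∀ (j : ℕ) (t : Fin j → X), |∏ c, h (t c)| ≤ 1 := by
    intro j t
    rw [Finset.abs_prod]
    exact Finset.prod_le_one (fun c _ => abs_nonneg _) (fun c _ => hh _)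
  induction k with
  | zero =>
    simp only [Finset.univ_eq_empty, Finset.prod_empty, pow_zero]
    exact Ek_const hp0 hp 0 1
  | succ k ih =>
    rw [Ek_cons hp0 hp k (hbd (k + 1))]
    have e : ∀ x, Ek p k (fun t => ∏ c, h ((Fin.cons x t : Fin (k + 1) → X) c))
        = h x * (E1 p h) ^ k := by
      intro x
      have : (fun t : Fin k → X => ∏ c, h ((Fin.cons x t : Fin (k + 1) → X) c))
          = fun t => h x * ∏ c, h (t c) := by
        funext t
        simp [Fin.prod_univ_succ]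
      rw [this, Ek_const_mul, ih]
    simp only [e]
    rw [E1_mul_const]
    ring

end

end Vale.Agent.P154
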