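import Vale.Agent.P154.Pointwise

/-!
Symmetric likelihood laws on finite sets, their products and the channel.
-/

namespace Vale.Agent.P154

noncomputable section

open Finset

variable {Ω Ω₁ Ω₂ Ω' : Type*} [Fintype Ω] [Fintype Ω₁] [Fintype Ω₂] [Fintype Ω']

/-- A positive normalised symmetric family of likelihood triples. -/
structure IsLaw (L : Ω → Fin 3 → ℝ) : Prop where
  pos : ∀ τ i, 0 < L τ i
  norm : ∀ i, ∑ τ, L τ i = 1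
  symm : ∀ g : Equiv.Perm (Fin 3), ∃ e : Ω ≃ Ω, ∀ τ i, L (e τ) i = L τ (g i)

/-- Sum of `yy` over a law. -/
def YY (L : Ω → Fin 3 → ℝ) : ℝ := ∑ τ, yy (L τ 0) (L τ 1) (L τ 2)

/-- Sum of `mm` over a law. -/
def MM (L : Ω → Fin 3 → ℝ) : ℝ := ∑ τ, mm (L τ 0) (L τ 1) (L τ 2)

/-- Sum of `hh` over a law. -/
def HH (L : Ω → Fin 3 → ℝ) : ℝ := ∑ τ, hh (L τ 0) (L τ 1) (L τ 2)

theorem sum_mass {L : Ω → Fin 3 → ℝ} (h : IsLaw L) : ∑ τ, (L τ 0 + L τ 1 + L τ 2) / 3 = 1 := by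
  rw [← Finset.sum_div, Finset.sum_add_distrib, Finset.sum_add_distrib, h.norm, h.norm, h.norm]
  norm_num

theorem HH_eq {L : Ω → Fin 3 → ℝ} (h : IsLaw L) : HH L = MM L - 1 + 2 * YY L := by
  unfold HH MM YY
  rw [← sum_mass h, Finset.mul_sum, ← Finset.sum_sub_distrib, ← Finset.sum_add_distrib]
  rfl

theorem YY_nonneg {L : Ω → Fin 3 → ℝ} (h : IsLaw L) : 0 ≤ YY L :=
  Finset.sum_nonneg fun τ _ => yy_nonneg (h.pos τ 0) (h.pos τ 1) (h.pos τ 2)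

theorem MM_nonneg {L : Ω → Fin 3 → ℝ} (h : IsLaw L) : 0 ≤ MM L :=
  Finset.sum_nonneg fun τ _ => mm_nonneg (h.pos τ 0) (h.pos τ 1) (h.pos τ 2)

/-- Sums are invariant under the symmetry of the law. -/
theorem symm_sum {L : Ω → Fin 3 → ℝ} (h : IsLaw L) (g : Equiv.Perm (Fin 3))
    (F : ℝ → ℝ → ℝ → ℝ) :
    ∑ τ, F (L τ (g 0)) (L τ (g 1)) (L τ (g 2)) = ∑ τ, F (L τ 0) (L τ 1) (L τ 2) := by
  obtain ⟨e, he⟩ := h.symm g
  rw [← Equiv.sum_comp e (fun τ => F (L τ 0) (L τ 1) (L τ 2))]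
  refine Finset.sum_congr rfl fun τ _ => ?_
  rw [he, he, he]

/-- The rotation of three points. -/
def rot1 : Equiv.Perm (Fin 3) := ⟨![1, 2, 0], ![2, 0, 1], by decide, by decide⟩

/-- The inverse rotation of three points. -/
def rot2 : Equiv.Perm (Fin 3) := ⟨![2, 0, 1], ![1, 2, 0], by decide, by decide⟩

/-- A transposition. -/
def swp0 : Equiv.Perm (Fin 3) := ⟨![0, 2, 1], ![0, 2, 1], by decide, by decide⟩

/-- A transposition. -/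
def swp1 : Equiv.Perm (Fin 3) := ⟨![2, 1, 0], ![2, 1, 0], by decide, by decide⟩

/-- A transposition. -/
def swp2 : Equiv.Perm (Fin 3) := ⟨![1, 0, 2], ![1, 0, 2], by decide, by decide⟩

/-- The sum of the six-fold expression over a symmetric law. -/
theorem sum_sym6 {L : Ω → Fin 3 → ℝ} (h : IsLaw L) (f : ℝ → ℝ → ℝ → ℝ) (a1 a2 a3 : ℝ) :
    ∑ σ, sym6 f a1 a2 a3 (L σ 0) (L σ 1) (L σ 2)
      = 6 * ∑ σ, f (a1 * L σ 0) (a2 * L σ 1) (a3 * L σ 2) := by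
  unfold sym6
  simp only [Finset.sum_add_distrib]
  have h1 := symm_sum h rot1 (fun x y z => f (a1 * x) (a2 * y) (a3 * z))
  have h2 := symm_sum h rot2 (fun x y z => f (a1 * x) (a2 * y) (a3 * z))
  have h3 := symm_sum h swp0 (fun x y z => f (a1 * x) (a2 * y) (a3 * z))
  have h4 := symm_sum h swp1 (fun x y z => f (a1 * x) (a2 * y) (a3 * z))
  have h5 := symm_sum h swp2 (fun x y z => f (a1 * x) (a2 * y) (a3 * z))
  have e1 : rot1 0 = 1 ∧ rot1 1 = 2 ∧ rot1 2 = 0 := by decide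
  have e2 : rot2 0 = 2 ∧ rot2 1 = 0 ∧ rot2 2 = 1 := by decide
  have e3 : swp0 0 = 0 ∧ swp0 1 = 2 ∧ swp0 2 = 1 := by decide
  have e4 : swp1 0 = 2 ∧ swp1 1 = 1 ∧ swp1 2 = 0 := by decide
  have e5 : swp2 0 = 1 ∧ swp2 1 = 0 ∧ swp2 2 = 2 := by decide
  simp only [e1.1, e1.2.1, e1.2.2] at h1
  simp only [e2.1, e2.2.1, e2.2.2] at h2
  simp only [e3.1, e3.2.1, e3.2.2] at h3
  simp only [e4.1, e4.2.1, e4.2.2] at h4
  simp only [e5.1, e5.2.1, e5.2.2] at h5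
  rw [h1, h2, h3, h4, h5]
  ring

/-- Product of two laws: independent observations. -/
def prodLaw (L₁ : Ω₁ → Fin 3 → ℝ) (L₂ : Ω₂ → Fin 3 → ℝ) : Ω₁ × Ω₂ → Fin 3 → ℝ :=
  fun p i => L₁ p.1 i * L₂ p.2 i

theorem IsLaw.prod {L₁ : Ω₁ → Fin 3 → ℝ} {L₂ : Ω₂ → Fin 3 → ℝ} (h₁ : IsLaw L₁) (h₂ : IsLaw L₂) :
    IsLaw (prodLaw L₁ L₂) where
  pos := fun p i => mul_pos (h₁.pos p.1 i) (h₂.pos p.2 i)
  norm := fun i => by
    unfold prodLaw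
    rw [Fintype.sum_prod_type]
    simp only [← Finset.mul_sum, h₂.norm, mul_one, h₁.norm]
  symm := fun g => by
    obtain ⟨e₁, he₁⟩ := h₁.symm g
    obtain ⟨e₂, he₂⟩ := h₂.symm g
    refine ⟨Equiv.prodCongr e₁ e₂, fun p i => ?_⟩
    simp [prodLaw, he₁, he₂]

/-- A functional on the product law as an iterated sum. -/
theorem prod_sum (f : ℝ → ℝ → ℝ → ℝ) (L₁ : Ω₁ → Fin 3 → ℝ) (L₂ : Ω₂ → Fin 3 → ℝ) :
    ∑ p, f (prodLaw L₁ L₂ p 0) (prodLaw L₁ L₂ p 1) (prodLaw L₁ L₂ p 2)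
      = ∑ τ, ∑ σ, f (L₁ τ 0 * L₂ σ 0) (L₁ τ 1 * L₂ σ 1) (L₁ τ 2 * L₂ σ 2) := by
  rw [Fintype.sum_prod_type]
  rfl

/-- Subadditivity with correction, for laws. -/
theorem YY_prod_le {L₁ : Ω₁ → Fin 3 → ℝ} {L₂ : Ω₂ → Fin 3 → ℝ} (h₁ : IsLaw L₁) (h₂ : IsLaw L₂) :
    YY (prodLaw L₁ L₂) ≤ YY L₁ + YY L₂ - (1 / 2) * (YY L₂ * HH L₁ + YY L₁ * HH L₂) := by
  have hin : ∀ τ, ∑ σ, yy (L₁ τ 0 * L₂ σ 0) (L₁ τ 1 * L₂ σ 1) (L₁ τ 2 * L₂ σ 2)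
      ≤ yy (L₁ τ 0) (L₁ τ 1) (L₁ τ 2) + (L₁ τ 0 + L₁ τ 1 + L₁ τ 2) / 3 * YY L₂
        - (1 / 2) * (YY L₂ * hh (L₁ τ 0) (L₁ τ 1) (L₁ τ 2)
          + yy (L₁ τ 0) (L₁ τ 1) (L₁ τ 2) * HH L₂) := by
    intro τ
    have hs := sum_sym6 h₂ yy (L₁ τ 0) (L₁ τ 1) (L₁ τ 2)
    have hp : ∀ σ, sym6 yy (L₁ τ 0) (L₁ τ 1) (L₁ τ 2) (L₂ σ 0) (L₂ σ 1) (L₂ σ 2) / 6
        ≤ (L₂ σ 0 + L₂ σ 1 + L₂ σ 2) / 3 * yy (L₁ τ 0) (L₁ τ 1) (L₁ τ 2)
          + (L₁ τ 0 + L₁ τ 1 + L₁ τ 2) / 3 * yy (L₂ σ 0) (L₂ σ 1) (L₂ σ 2)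
          - (1 / 2) * (yy (L₂ σ 0) (L₂ σ 1) (L₂ σ 2) * hh (L₁ τ 0) (L₁ τ 1) (L₁ τ 2)
            + yy (L₁ τ 0) (L₁ τ 1) (L₁ τ 2) * hh (L₂ σ 0) (L₂ σ 1) (L₂ σ 2)) :=
      fun σ => F1 (h₁.pos τ 0) (h₁.pos τ 1) (h₁.pos τ 2) (h₂.pos σ 0) (h₂.pos σ 1) (h₂.pos σ 2)
    have hsum := Finset.sum_le_sum fun σ (_ : σ ∈ (Finset.univ : Finset Ω₂)) => hp σ
    rw [← Finset.sum_div, hs] at hsum
    simp only [Finset.sum_sub_distrib, Finset.sum_add_distrib, ← Finset.sum_mul,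
      ← Finset.mul_sum, sum_mass h₂] at hsum
    unfold YY HH
    linarith
  unfold YY at *
  rw [prod_sum]
  have hsum := Finset.sum_le_sum fun τ (_ : τ ∈ (Finset.univ : Finset Ω₁)) => hin τ
  refine hsum.trans (le_of_eq ?_)
  simp only [Finset.sum_sub_distrib, Finset.sum_add_distrib, ← Finset.sum_mul, ← Finset.mul_sum,
    sum_mass h₁]
  unfold HH
  ring

/-- The product is at least as informative as its first factor. -/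
theorem YY_prod_ge {L₁ : Ω₁ → Fin 3 → ℝ} {L₂ : Ω₂ → Fin 3 → ℝ} (h₁ : IsLaw L₁) (h₂ : IsLaw L₂) :
    YY L₁ ≤ YY (prodLaw L₁ L₂) := by
  have hin : ∀ τ, yy (L₁ τ 0) (L₁ τ 1) (L₁ τ 2)
      ≤ ∑ σ, yy (L₁ τ 0 * L₂ σ 0) (L₁ τ 1 * L₂ σ 1) (L₁ τ 2 * L₂ σ 2) := by
    intro τ
    have hs := sum_sym6 h₂ yy (L₁ τ 0) (L₁ τ 1) (L₁ τ 2)
    have hp : ∀ σ, (L₂ σ 0 + L₂ σ 1 + L₂ σ 2) / 3 * yy (L₁ τ 0) (L₁ τ 1) (L₁ τ 2)
        ≤ sym6 yy (L₁ τ 0) (L₁ τ 1) (L₁ τ 2) (L₂ σ 0) (L₂ σ 1) (L₂ σ 2) / 6 :=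
      fun σ => F2a (h₁.pos τ 0) (h₁.pos τ 1) (h₁.pos τ 2) (h₂.pos σ 0) (h₂.pos σ 1) (h₂.pos σ 2)
    have hsum := Finset.sum_le_sum fun σ (_ : σ ∈ (Finset.univ : Finset Ω₂)) => hp σ
    rw [← Finset.sum_div, hs, ← Finset.sum_mul, sum_mass h₂] at hsum
    linarith
  unfold YY
  rw [prod_sum]
  exact Finset.sum_le_sum fun τ _ => hin τ

/-- Second order lower bound for laws. -/
theorem YY_prod_ge2 {L₁ : Ω₁ → Fin 3 → ℝ} {L₂ : Ω₂ → Fin 3 → ℝ} (h₁ : IsLaw L₁) (h₂ : IsLaw L₂) :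
    YY L₁ + YY L₂ - 2 * YY L₁ * YY L₂ ≤ YY (prodLaw L₁ L₂) := by
  have hin : ∀ τ, yy (L₁ τ 0) (L₁ τ 1) (L₁ τ 2) + (L₁ τ 0 + L₁ τ 1 + L₁ τ 2) / 3 * YY L₂
        - 2 * yy (L₁ τ 0) (L₁ τ 1) (L₁ τ 2) * YY L₂
      ≤ ∑ σ, yy (L₁ τ 0 * L₂ σ 0) (L₁ τ 1 * L₂ σ 1) (L₁ τ 2 * L₂ σ 2) := by
    intro τ
    have hs := sum_sym6 h₂ yy (L₁ τ 0) (L₁ τ 1) (L₁ τ 2)
    have hp : ∀ σ, (L₂ σ 0 + L₂ σ 1 + L₂ σ 2) / 3 * yy (L₁ τ 0) (L₁ τ 1) (L₁ τ 2)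
          + (L₁ τ 0 + L₁ τ 1 + L₁ τ 2) / 3 * yy (L₂ σ 0) (L₂ σ 1) (L₂ σ 2)
          - 2 * yy (L₁ τ 0) (L₁ τ 1) (L₁ τ 2) * yy (L₂ σ 0) (L₂ σ 1) (L₂ σ 2)
        ≤ sym6 yy (L₁ τ 0) (L₁ τ 1) (L₁ τ 2) (L₂ σ 0) (L₂ σ 1) (L₂ σ 2) / 6 :=
      fun σ => F2b (h₁.pos τ 0) (h₁.pos τ 1) (h₁.pos τ 2) (h₂.pos σ 0) (h₂.pos σ 1) (h₂.pos σ 2)
    have hsum := Finset.sum_le_sum fun σ (_ : σ ∈ (Finset.univ : Finset Ω₂)) => hp σ
    rw [← Finset.sum_div, hs] at hsum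
    simp only [Finset.sum_sub_distrib, Finset.sum_add_distrib, ← Finset.sum_mul,
      ← Finset.mul_sum, sum_mass h₂] at hsum
    unfold YY
    linarith
  unfold YY at *
  rw [prod_sum]
  have hsum := Finset.sum_le_sum fun τ (_ : τ ∈ (Finset.univ : Finset Ω₁)) => hin τ
  refine le_trans (le_of_eq ?_) hsum
  simp only [Finset.sum_sub_distrib, Finset.sum_add_distrib, ← Finset.sum_mul, ← Finset.mul_sum,
    sum_mass h₁]
  ring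

/-- Supermultiplicativity for laws. -/
theorem MM_prod_ge {L₁ : Ω₁ → Fin 3 → ℝ} {L₂ : Ω₂ → Fin 3 → ℝ} (h₁ : IsLaw L₁) (h₂ : IsLaw L₂) :
    MM L₁ * MM L₂ ≤ MM (prodLaw L₁ L₂) := by
  have hin : ∀ τ, mm (L₁ τ 0) (L₁ τ 1) (L₁ τ 2) * MM L₂
      ≤ ∑ σ, mm (L₁ τ 0 * L₂ σ 0) (L₁ τ 1 * L₂ σ 1) (L₁ τ 2 * L₂ σ 2) := by
    intro τ
    have hs := sum_sym6 h₂ mm (L₁ τ 0) (L₁ τ 1) (L₁ τ 2)
    have hp : ∀ σ, mm (L₁ τ 0) (L₁ τ 1) (L₁ τ 2) * mm (L₂ σ 0) (L₂ σ 1) (L₂ σ 2)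
        ≤ sym6 mm (L₁ τ 0) (L₁ τ 1) (L₁ τ 2) (L₂ σ 0) (L₂ σ 1) (L₂ σ 2) / 6 :=
      fun σ => F3 (h₁.pos τ 0) (h₁.pos τ 1) (h₁.pos τ 2) (h₂.pos σ 0) (h₂.pos σ 1) (h₂.pos σ 2)
    have hsum := Finset.sum_le_sum fun σ (_ : σ ∈ (Finset.univ : Finset Ω₂)) => hp σ
    rw [← Finset.sum_div, hs, ← Finset.mul_sum] at hsum
    unfold MM
    linarith
  unfold MM at *
  rw [prod_sum, Finset.sum_mul]
  exact Finset.sum_le_sum fun τ _ => hin τ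

/-- The law obtained by exchanging the factors has the same functional. -/
theorem YY_prod_comm (L₁ : Ω₁ → Fin 3 → ℝ) (L₂ : Ω₂ → Fin 3 → ℝ) :
    YY (prodLaw L₁ L₂) = YY (prodLaw L₂ L₁) := by
  unfold YY
  rw [← Equiv.sum_comp (Equiv.prodComm Ω₁ Ω₂)]
  refine Finset.sum_congr rfl fun p _ => ?_
  simp [prodLaw, mul_comm]

/-- Closure of the class under products. -/
theorem HH_prod_nonneg {L₁ : Ω₁ → Fin 3 → ℝ} {L₂ : Ω₂ → Fin 3 → ℝ} (h₁ : IsLaw L₁) (h₂ : IsLaw L₂)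
    (hη₁ : 0 ≤ HH L₁) (hη₂ : 0 ≤ HH L₂) : 0 ≤ HH (prodLaw L₁ L₂) := by
  rw [HH_eq (h₁.prod h₂)]
  rw [HH_eq h₁] at hη₁
  rw [HH_eq h₂] at hη₂
  have hY1 := YY_prod_ge h₁ h₂
  have hY2 : YY L₂ ≤ YY (prodLaw L₁ L₂) := by
    rw [YY_prod_comm]; exact YY_prod_ge h₂ h₁
  have hY3 := YY_prod_ge2 h₁ h₂
  have hM := MM_prod_ge h₁ h₂
  have hM0 := MM_nonneg (h₁.prod h₂)
  have hM1 := MM_nonneg h₁
  have hM2 := MM_nonneg h₂
  by_cases c1 : 1 ≤ 2 * YY L₁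
  · linarith
  by_cases c2 : 1 ≤ 2 * YY L₂
  · linarith
  push Not at c1 c2
  have h3 : (1 - 2 * YY L₁) * (1 - 2 * YY L₂) ≤ MM L₁ * MM L₂ :=
    mul_le_mul (by linarith) (by linarith) (by linarith) hM1
  nlinarith

/-- Transport of a law along an equivalence. -/
theorem IsLaw.comp_equiv {L : Ω → Fin 3 → ℝ} (h : IsLaw L) (E : Ω' ≃ Ω) :
    IsLaw (fun τ i => L (E τ) i) where
  pos := fun τ i => h.pos _ i
  norm := fun i => by rw [Equiv.sum_comp E (fun τ => L τ i)]; exact h.norm i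
  symm := fun g => by
    obtain ⟨e, he⟩ := h.symm g
    refine ⟨E.trans (e.trans E.symm), fun τ i => ?_⟩
    simp [he]

theorem YY_comp_equiv (L : Ω → Fin 3 → ℝ) (E : Ω' ≃ Ω) :
    YY (fun τ i => L (E τ) i) = YY L := by
  unfold YY
  exact Equiv.sum_comp E (fun τ => yy (L τ 0) (L τ 1) (L τ 2))

theorem HH_comp_equiv (L : Ω → Fin 3 → ℝ) (E : Ω' ≃ Ω) :
    HH (fun τ i => L (E τ) i) = HH L := by
  unfold HH
  exact Equiv.sum_comp E (fun τ => hh (L τ 0) (L τ 1) (L τ 2))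

/-- Independent product of `k` copies. -/
def powLaw (L : Ω → Fin 3 → ℝ) (k : ℕ) : (Fin k → Ω) → Fin 3 → ℝ :=
  fun f i => ∏ c, L (f c) i

theorem IsLaw.pow {L : Ω → Fin 3 → ℝ} (h : IsLaw L) (k : ℕ) : IsLaw (powLaw L k) where
  pos := fun f i => Finset.prod_pos fun c _ => h.pos _ i
  norm := fun i => by
    unfold powLaw
    have := (Finset.prod_univ_sum (fun _ : Fin k => (Finset.univ : Finset Ω))
      (fun _ τ => L τ i)).symm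
    simp only [Fintype.piFinset_univ] at this
    rw [this]
    simp [h.norm]
  symm := fun g => by
    obtain ⟨e, he⟩ := h.symm g
    refine ⟨Equiv.piCongrRight (fun _ => e), fun f i => ?_⟩
    simp [powLaw, he]

/-- The power law for `k + 1` copies as a product law. -/
theorem powLaw_succ (L : Ω → Fin 3 → ℝ) (k : ℕ) :
    powLaw L (k + 1) = fun f i =>
      prodLaw L (powLaw L k) ((Fin.consEquiv (fun _ : Fin (k + 1) => Ω)).symm f) i := by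
  funext f i
  simp [powLaw, prodLaw, Fin.prod_univ_succ, Fin.consEquiv, Fin.tail]

theorem YY_pow_zero (L : Ω → Fin 3 → ℝ) : YY (powLaw L 0) = 0 := by
  simp [YY, powLaw, yy]
  norm_num

theorem HH_pow_zero (L : Ω → Fin 3 → ℝ) : HH (powLaw L 0) = 0 := by
  simp [HH, powLaw, yy, mm, hh]
  norm_num

theorem HH_pow_nonneg {L : Ω → Fin 3 → ℝ} (h : IsLaw L) (hη : 0 ≤ HH L) (k : ℕ) :
    0 ≤ HH (powLaw L k) := by
  induction k with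
  | zero => rw [HH_pow_zero]
  | succ k ih =>
    rw [powLaw_succ, HH_comp_equiv]
    exact HH_prod_nonneg h (h.pow k) hη ih

theorem YY_pow_ge {L : Ω → Fin 3 → ℝ} (h : IsLaw L) (k : ℕ) : YY L ≤ YY (powLaw L (k + 1)) := by
  rw [powLaw_succ, YY_comp_equiv]
  exact YY_prod_ge h (h.pow k)

/-- The bound for powers: subadditive with a saving as soon as `k ≥ 2`. -/
theorem YY_pow_le {L : Ω → Fin 3 → ℝ} (h : IsLaw L) (hη : 0 ≤ HH L) (k : ℕ) :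
    YY (powLaw L (k + 2)) ≤ (k + 2) * YY L - (1 / 2) * (k + 1) * (YY L * HH L) := by
  have hY := YY_nonneg h
  have step : ∀ j, YY (powLaw L (j + 1)) ≤ YY L + YY (powLaw L j)
      - (1 / 2) * (YY (powLaw L j) * HH L + YY L * HH (powLaw L j)) := by
    intro j
    rw [powLaw_succ, YY_comp_equiv]
    exact YY_prod_le h (h.pow j)
  have base : YY (powLaw L 1) ≤ YY L := by
    have := step 0
    rw [YY_pow_zero, HH_pow_zero] at this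
    linarith
  induction k with
  | zero =>
    have h1 : YY (powLaw L (1 + 1)) ≤ YY L + YY (powLaw L 1)
      - (1 / 2) * (YY (powLaw L 1) * HH L + YY L * HH (powLaw L 1)) := step 1
    have h2 : YY L ≤ YY (powLaw L 1) := YY_pow_ge h 0
    have h3 := HH_pow_nonneg h hη 1
    have h4 : YY L * HH L ≤ YY (powLaw L 1) * HH L := mul_le_mul_of_nonneg_right h2 hη
    have h5 : 0 ≤ YY L * HH (powLaw L 1) := mul_nonneg hY h3
    have e : ((0 : ℕ) : ℝ) = 0 := Nat.cast_zero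
    rw [e]
    show YY (powLaw L (1 + 1)) ≤ _
    linarith
  | succ k ih =>
    have h1 : YY (powLaw L (k + 2 + 1)) ≤ YY L + YY (powLaw L (k + 2))
      - (1 / 2) * (YY (powLaw L (k + 2)) * HH L + YY L * HH (powLaw L (k + 2))) := step (k + 2)
    have h2 : YY L ≤ YY (powLaw L (k + 2)) := YY_pow_ge h (k + 1)
    have h3 := HH_pow_nonneg h hη (k + 2)
    have h4 : YY L * HH L ≤ YY (powLaw L (k + 2)) * HH L := mul_le_mul_of_nonneg_right h2 hη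
    have h5 : 0 ≤ YY L * HH (powLaw L (k + 2)) := mul_nonneg hY h3
    have e : ((k + 1 : ℕ) : ℝ) = (k : ℝ) + 1 := by push_cast; ring
    rw [e]
    show YY (powLaw L (k + 2 + 1)) ≤ _
    linarith

/-- The channel acting on a law. -/
def chanLaw (lam : ℝ) (L : Ω → Fin 3 → ℝ) : Ω → Fin 3 → ℝ :=
  fun τ i => Tl lam ((L τ 0 + L τ 1 + L τ 2) / 3) (L τ i)

theorem IsLaw.chan {L : Ω → Fin 3 → ℝ} (h : IsLaw L) {lam : ℝ} (h0 : 0 ≤ lam) (h1 : lam ≤ 1) :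
    IsLaw (chanLaw lam L) where
  pos := fun τ i => by
    unfold chanLaw Tl
    have a := h.pos τ i
    have b : 0 < (L τ 0 + L τ 1 + L τ 2) / 3 := by
      have := h.pos τ 0; have := h.pos τ 1; have := h.pos τ 2; positivity
    rcases eq_or_lt_of_le h0 with h00 | h00
    · rw [← h00]; simpa using b
    · have : 0 < lam * L τ i := by positivity
      have : 0 ≤ (1 - lam) * ((L τ 0 + L τ 1 + L τ 2) / 3) :=
        mul_nonneg (by linarith) b.le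
      linarith
  norm := fun i => by
    unfold chanLaw Tl
    rw [Finset.sum_add_distrib, ← Finset.mul_sum, ← Finset.mul_sum, h.norm, sum_mass h]
    ring
  symm := fun g => by
    obtain ⟨e, he⟩ := h.symm g
    refine ⟨e, fun τ i => ?_⟩
    unfold chanLaw Tl
    have hs : L (e τ) 0 + L (e τ) 1 + L (e τ) 2 = L τ 0 + L τ 1 + L τ 2 := by
      rw [he, he, he]
      have := Equiv.sum_comp g (fun j => L τ j)
      simpa [Fin.sum_univ_three] using this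
    rw [hs, he]

theorem YY_chan {L : Ω → Fin 3 → ℝ} (h : IsLaw L) {lam : ℝ} (h0 : 0 ≤ lam) (h1 : lam ≤ 1) :
    YY (chanLaw lam L) = lam ^ 2 * YY L := by
  unfold YY chanLaw
  rw [Finset.mul_sum]
  exact Finset.sum_congr rfl fun τ _ => yy_T (h.pos τ 0) (h.pos τ 1) (h.pos τ 2) h0 h1

theorem HH_chan {L : Ω → Fin 3 → ℝ} (h : IsLaw L) {lam : ℝ} (h0 : 0 ≤ lam) (h1 : lam ≤ 1) :
    lam ^ 3 * HH L + (1 / 2) * lam ^ 3 * (1 - lam) * (YY L) ^ 2 ≤ HH (chanLaw lam L) := by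
  have hC : (YY L) ^ 2 ≤ ∑ τ, (yy (L τ 0) (L τ 1) (L τ 2)) ^ 2 / ((L τ 0 + L τ 1 + L τ 2) / 3) := by
    have := Finset.sum_sq_le_sum_mul_sum_of_sq_le_mul (Finset.univ : Finset Ω)
      (r := fun τ => yy (L τ 0) (L τ 1) (L τ 2))
      (f := fun τ => (L τ 0 + L τ 1 + L τ 2) / 3)
      (g := fun τ => (yy (L τ 0) (L τ 1) (L τ 2)) ^ 2 / ((L τ 0 + L τ 1 + L τ 2) / 3))
      (fun τ _ => by
        have := h.pos τ 0; have := h.pos τ 1; have := h.pos τ 2; positivity)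
      (fun τ _ => by
        have := h.pos τ 0; have := h.pos τ 1; have := h.pos τ 2; positivity)
      (fun τ _ => le_of_eq (by
        have := h.pos τ 0; have := h.pos τ 1; have := h.pos τ 2
        field_simp))
    rw [sum_mass h, one_mul] at this
    exact this
  have hp : ∀ τ, lam ^ 3 * hh (L τ 0) (L τ 1) (L τ 2)
      + (1 / 2) * lam ^ 3 * (1 - lam)
        * ((yy (L τ 0) (L τ 1) (L τ 2)) ^ 2 / ((L τ 0 + L τ 1 + L τ 2) / 3))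
      ≤ hh (chanLaw lam L τ 0) (chanLaw lam L τ 1) (chanLaw lam L τ 2) :=
    fun τ => hh_T (h.pos τ 0) (h.pos τ 1) (h.pos τ 2) h0 h1
  have hsum := Finset.sum_le_sum fun τ (_ : τ ∈ (Finset.univ : Finset Ω)) => hp τ
  rw [Finset.sum_add_distrib, ← Finset.mul_sum, ← Finset.mul_sum] at hsum
  have hc : 0 ≤ (1 / 2) * lam ^ 3 * (1 - lam) := by
    have : 0 ≤ 1 - lam := by linarith
    positivity
  have := mul_le_mul_of_nonneg_left hC hc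
  unfold HH at *
  linarith

end

end Vale.Agent.P154
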