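import Vale.Agent.P154.Defs
import Vale.Agent.P154.Law

/-!
The recursion on the `d`-ary tree and the proof of nonreconstruction for `q = 3`, `lam ≥ 0`.
-/

namespace Vale.Agent.P154

noncomputable section

open Finset Filter Topology

variable {d : ℕ} {lam : ℝ}

/-- The law of the leaf spins at depth `n`. -/
def Lk (d : ℕ) (lam : ℝ) (n : ℕ) : ((Fin n → Fin d) → Fin 3) → Fin 3 → ℝ :=
  fun τ i => leafLik 3 d lam n i τ

/-- The channel as a mixture. -/
theorem sum_channel (lam : ℝ) (f : Fin 3 → ℝ) (i : Fin 3) :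
    ∑ j : Fin 3, pottsChannel 3 lam i j * f j
      = Tl lam ((f 0 + f 1 + f 2) / 3) (f i) := by
  unfold pottsChannel Tl
  rw [Fin.sum_univ_three]
  fin_cases i <;> simp <;> ring

/-- Words of length `n + 1`, split by the first letter. -/
def splitEquiv (d n : ℕ) :
    ((Fin (n + 1) → Fin d) → Fin 3) ≃ (Fin d → ((Fin n → Fin d) → Fin 3)) where
  toFun τ := fun c path => τ (Fin.cons c path)
  invFun f := fun path => f (path 0) (Fin.tail path)
  left_inv τ := by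
    funext path
    simp
  right_inv f := by
    funext c path
    simp

/-- The recursion for the law of the leaf spins. -/
theorem Lk_succ (d : ℕ) (lam : ℝ) (n : ℕ) :
    Lk d lam (n + 1) = fun τ i => powLaw (chanLaw lam (Lk d lam n)) d (splitEquiv d n τ) i := by
  funext τ i
  unfold Lk powLaw chanLaw
  simp only [leafLik, splitEquiv, Equiv.coe_fn_mk]
  refine Finset.prod_congr rfl fun c _ => ?_
  exact sum_channel lam (fun j => leafLik 3 d lam n j (fun path => τ (Fin.cons c path))) i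

/-- The atoms at the first level. -/
def firstLaw (lam : ℝ) : Fin 3 → Fin 3 → ℝ :=
  fun i₀ i => Tl lam (1 / 3) (if i₀ = i then 1 else 0)

theorem firstLaw_isLaw (h0 : 0 ≤ lam) (h1 : lam < 1) : IsLaw (firstLaw lam) where
  pos := fun i₀ i => by
    unfold firstLaw Tl
    split_ifs <;> nlinarith
  norm := fun i => by
    unfold firstLaw Tl
    rw [Fin.sum_univ_three]
    fin_cases i <;> simp <;> ring
  symm := fun g => by
    refine ⟨g.symm, fun i₀ i => ?_⟩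
    unfold firstLaw
    simp [Equiv.symm_apply_eq]

theorem hh_first {a : ℝ} (h0 : 0 ≤ a) (h1 : a < 1) :
    hh (a + (1 - a) / 3) ((1 - a) / 3) ((1 - a) / 3) = 2 * a ^ 3 / (3 * (1 + a)) := by
  have h2 : (1 - a) ≠ 0 := by linarith
  have h3 : (1 + a) ≠ 0 := by linarith
  have e1 : (a + (1 - a) / 3) + ((1 - a) / 3) + ((1 - a) / 3) = 1 := by ring
  have e2 : (a + (1 - a) / 3) * ((1 - a) / 3) + ((1 - a) / 3) * ((1 - a) / 3)
      + ((1 - a) / 3) * (a + (1 - a) / 3) = (1 - a) * (1 + a) / 3 := by ring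
  unfold hh mm yy
  rw [e1, e2]
  field_simp
  ring

theorem hh_sym1 (x y z : ℝ) : hh x y z = hh y x z := by
  unfold hh mm yy
  have e1 : x + y + z = y + x + z := by ring
  have e2 : x * y + y * z + z * x = y * x + x * z + z * y := by ring
  have e3 : x * y * z = y * x * z := by ring
  rw [e1, e2, e3]

theorem hh_sym2 (x y z : ℝ) : hh x y z = hh z y x := by
  unfold hh mm yy
  have e1 : x + y + z = z + y + x := by ring
  have e2 : x * y + y * z + z * x = z * y + y * x + x * z := by ring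
  have e3 : x * y * z = z * y * x := by ring
  rw [e1, e2, e3]

theorem firstLaw_HH (h0 : 0 ≤ lam) (h1 : lam < 1) : 0 ≤ HH (firstLaw lam) := by
  unfold HH
  refine Finset.sum_nonneg fun i₀ _ => ?_
  have hval : 0 ≤ hh (lam + (1 - lam) / 3) ((1 - lam) / 3) ((1 - lam) / 3) := by
    rw [hh_first h0 h1]
    positivity
  have ea : Tl lam 3⁻¹ 1 = lam + (1 - lam) / 3 := by unfold Tl; ring
  have eb : Tl lam 3⁻¹ 0 = (1 - lam) / 3 := by unfold Tl; ring
  unfold firstLaw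
  fin_cases i₀
  · simp
    rw [ea, eb]
    exact hval
  · simp
    rw [ea, eb, hh_sym1]
    exact hval
  · simp
    rw [ea, eb, hh_sym2]
    exact hval

/-- Spin configurations on a single leaf. -/
def zeroEquiv (d : ℕ) : ((Fin 0 → Fin d) → Fin 3) ≃ Fin 3 where
  toFun τ := τ Fin.elim0
  invFun i := fun _ => i
  left_inv τ := by
    funext path
    have : (Fin.elim0 : Fin 0 → Fin d) = path := Subsingleton.elim _ _
    show τ Fin.elim0 = τ path
    rw [this]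
  right_inv i := rfl

theorem chan_zero (d : ℕ) (lam : ℝ) :
    chanLaw lam (Lk d lam 0) = fun τ i => firstLaw lam (zeroEquiv d τ) i := by
  funext τ i
  unfold chanLaw Lk firstLaw zeroEquiv
  simp only [leafLik, Equiv.coe_fn_mk]
  have : ((if τ Fin.elim0 = 0 then (1 : ℝ) else 0) + (if τ Fin.elim0 = 1 then 1 else 0)
      + (if τ Fin.elim0 = 2 then 1 else 0)) / 3 = 1 / 3 := by
    generalize τ Fin.elim0 = t
    fin_cases t <;> simp
  rw [this]

/-- The law after the channel is good at every level. -/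
theorem mu_good (h0 : 0 ≤ lam) (h1 : lam < 1) (n : ℕ) :
    IsLaw (chanLaw lam (Lk d lam n)) ∧ 0 ≤ HH (chanLaw lam (Lk d lam n)) := by
  induction n with
  | zero =>
    rw [chan_zero]
    refine ⟨(firstLaw_isLaw h0 h1).comp_equiv (zeroEquiv d), ?_⟩
    rw [HH_comp_equiv]
    exact firstLaw_HH h0 h1
  | succ n ih =>
    have hL : IsLaw (Lk d lam (n + 1)) := by
      rw [Lk_succ]
      exact (ih.1.pow d).comp_equiv (splitEquiv d n)
    have hH : 0 ≤ HH (Lk d lam (n + 1)) := by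
      rw [Lk_succ, HH_comp_equiv]
      exact HH_pow_nonneg ih.1 ih.2 d
    refine ⟨hL.chan h0 h1.le, ?_⟩
    have := HH_chan hL h0 h1.le
    have h2 : 0 ≤ lam ^ 3 * HH (Lk d lam (n + 1)) := by positivity
    have h3 : 0 ≤ (1 / 2) * lam ^ 3 * (1 - lam) * (YY (Lk d lam (n + 1))) ^ 2 := by
      have : 0 ≤ 1 - lam := by linarith
      positivity
    linarith

theorem Lk_good (h0 : 0 ≤ lam) (h1 : lam < 1) (n : ℕ) : IsLaw (Lk d lam (n + 1)) := by
  rw [Lk_succ]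
  exact ((mu_good h0 h1 n).1.pow d).comp_equiv (splitEquiv d n)

/-- The one step recursion for the second moment functional. -/
theorem y_step (hd : 2 ≤ d) (h0 : 0 ≤ lam) (h1 : lam < 1) (hlam : (d : ℝ) * lam ^ 2 ≤ 1) (n : ℕ) :
    YY (Lk d lam (n + 2)) ≤ YY (Lk d lam (n + 1))
      - (1 / 4) * (lam ^ 5 * (1 - lam)) * (YY (Lk d lam (n + 1))) ^ 3 := by
  obtain ⟨k, rfl⟩ : ∃ k, d = k + 2 := ⟨d - 2, by omega⟩
  have hL := Lk_good (d := k + 2) h0 h1 n
  obtain ⟨hμ, hμη⟩ := mu_good (d := k + 2) h0 h1 (n + 1)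
  have hy0 := YY_nonneg hL
  have hrec : YY (Lk (k + 2) lam (n + 2)) ≤ (k + 2) * YY (chanLaw lam (Lk (k + 2) lam (n + 1)))
      - (1 / 2) * (k + 1) * (YY (chanLaw lam (Lk (k + 2) lam (n + 1)))
        * HH (chanLaw lam (Lk (k + 2) lam (n + 1)))) := by
    rw [Lk_succ (k + 2) lam (n + 1), YY_comp_equiv]
    exact YY_pow_le hμ hμη k
  rw [YY_chan hL h0 h1.le] at hrec
  obtain ⟨y, hy⟩ : ∃ y, y = YY (Lk (k + 2) lam (n + 1)) := ⟨_, rfl⟩
  obtain ⟨e, he⟩ : ∃ e, e = HH (chanLaw lam (Lk (k + 2) lam (n + 1))) := ⟨_, rfl⟩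
  have hH0 : 0 ≤ HH (Lk (k + 2) lam (n + 1)) := by
    rw [Lk_succ, HH_comp_equiv]
    exact HH_pow_nonneg (mu_good h0 h1 n).1 (mu_good h0 h1 n).2 _
  have hC := HH_chan hL h0 h1.le
  rw [← hy, ← he] at hC
  rw [← hy, ← he] at hrec
  rw [← hy] at hy0 ⊢
  have h2 : 0 ≤ lam ^ 3 * HH (Lk (k + 2) lam (n + 1)) := by positivity
  have h3 : (1 / 2) * lam ^ 3 * (1 - lam) * y ^ 2 ≤ e := by linarith
  have hlam' : ((k : ℝ) + 2) * lam ^ 2 ≤ 1 := by
    push_cast at hlam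
    exact hlam
  have h4 : (k + 2) * (lam ^ 2 * y) ≤ y := by
    have := mul_le_mul_of_nonneg_right hlam' hy0
    nlinarith
  have h5 : 0 ≤ lam ^ 2 * y := by positivity
  have hk : (0 : ℝ) ≤ k := Nat.cast_nonneg k
  have h6 : (lam ^ 2 * y) * ((1 / 2) * lam ^ 3 * (1 - lam) * y ^ 2) ≤ (lam ^ 2 * y) * e :=
    mul_le_mul_of_nonneg_left h3 h5
  have h7 : 0 ≤ (lam ^ 2 * y) * e := by
    have : 0 ≤ e := by rw [he]; exact hμη
    positivity
  have h8 : (1 / 2) * 1 * ((lam ^ 2 * y) * e) ≤ (1 / 2) * (k + 1) * ((lam ^ 2 * y) * e) := by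
    have : (1 / 2 : ℝ) * 1 ≤ (1 / 2) * (k + 1) := by nlinarith
    exact mul_le_mul_of_nonneg_right this h7
  have h9 : (1 / 4) * (lam ^ 5 * (1 - lam)) * y ^ 3
      = (1 / 2) * ((lam ^ 2 * y) * ((1 / 2) * lam ^ 3 * (1 - lam) * y ^ 2)) := by ring
  rw [h9]
  linarith

/-- A sequence with `y (n + 1) ≤ y n - c * (y n) ^ 3` goes to zero. -/
theorem tendsto_zero_of_cubic {y : ℕ → ℝ} {c : ℝ} (hc : 0 < c) (h0 : ∀ n, 0 ≤ y n)
    (hs : ∀ n, y (n + 1) ≤ y n - c * (y n) ^ 3) : Tendsto y atTop (𝓝 0) := by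
  have hanti : Antitone y := antitone_nat_of_succ_le fun n => by
    have : 0 ≤ c * (y n) ^ 3 := mul_nonneg hc.le (pow_nonneg (h0 n) 3)
    linarith [hs n]
  have hbdd : BddBelow (Set.range y) := ⟨0, by rintro _ ⟨n, rfl⟩; exact h0 n⟩
  have hlim := tendsto_atTop_ciInf hanti hbdd
  obtain ⟨l, hl⟩ : ∃ l, l = ⨅ i, y i := ⟨_, rfl⟩
  rw [← hl] at hlim
  have hl0 : 0 ≤ l := ge_of_tendsto' hlim h0
  have hlim2 : Tendsto (fun n => y n - c * (y n) ^ 3) atTop (𝓝 (l - c * l ^ 3)) :=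
    hlim.sub ((hlim.pow 3).const_mul c)
  have hlim3 : Tendsto (fun n => y (n + 1)) atTop (𝓝 l) := (tendsto_add_atTop_iff_nat 1).2 hlim
  have hle : l ≤ l - c * l ^ 3 := le_of_tendsto_of_tendsto' hlim3 hlim2 hs
  have hl3 : l ^ 3 ≤ 0 := by
    by_contra h
    push Not at h
    have := mul_pos hc h
    linarith
  have : l = 0 := by
    by_contra h
    have hp : 0 < l := lt_of_le_of_ne hl0 (Ne.symm h)
    have := pow_pos hp 3
    linarith
  rwa [this] at hlim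

/-- The functional at level `n + 1` goes to zero. -/
theorem y_tendsto (hd : 2 ≤ d) (h0 : 0 ≤ lam) (h1 : lam < 1) (hlam : (d : ℝ) * lam ^ 2 ≤ 1) :
    Tendsto (fun n => YY (Lk d lam (n + 1))) atTop (𝓝 0) := by
  rcases eq_or_lt_of_le h0 with h00 | h00
  · -- the case `lam = 0`
    subst h00
    refine (tendsto_add_atTop_iff_nat 1).1 ?_
    refine tendsto_const_nhds.congr fun n => ?_
    have h2 := y_step hd le_rfl h1 hlam (n + 1)
    have h3 := YY_nonneg (Lk_good (d := d) le_rfl h1 (n + 1))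
    have h4 := y_step hd le_rfl h1 hlam n
    have h5 := YY_nonneg (Lk_good (d := d) le_rfl h1 n)
    have h6 : YY (Lk d 0 (n + 1 + 1)) = 0 := by
      rw [Lk_succ d 0 (n + 1), YY_comp_equiv]
      have hzero : ∀ k, YY (powLaw (chanLaw (0 : ℝ) (Lk d 0 (n + 1))) k) = 0 := by
        have hμ := (mu_good (d := d) le_rfl h1 (n + 1))
        have hy : YY (chanLaw (0 : ℝ) (Lk d 0 (n + 1))) = 0 := by
          rw [YY_chan (Lk_good (d := d) le_rfl h1 n) le_rfl h1.le]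
          ring
        intro k
        induction k with
        | zero => exact YY_pow_zero _
        | succ k ih =>
          have h7 := YY_prod_le hμ.1 (hμ.1.pow k)
          have e7 : YY (powLaw (chanLaw (0 : ℝ) (Lk d 0 (n + 1))) (k + 1))
              = YY (prodLaw (chanLaw (0 : ℝ) (Lk d 0 (n + 1)))
                (powLaw (chanLaw (0 : ℝ) (Lk d 0 (n + 1))) k)) := by
            rw [powLaw_succ, YY_comp_equiv]
          rw [hy, ih] at h7
          rw [e7]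
          have h8 := YY_nonneg (hμ.1.prod (hμ.1.pow k))
          simp only [zero_add, zero_mul, add_zero, mul_zero] at h7
          linarith
      exact hzero d
    exact h6.symm
  · refine tendsto_zero_of_cubic (c := (1 / 4) * (lam ^ 5 * (1 - lam))) ?_
      (fun n => YY_nonneg (Lk_good h0 h1 n)) (fun n => y_step hd h0 h1 hlam n)
    have : 0 < 1 - lam := by linarith
    positivity

/-- The statistical quantity in terms of the law. -/
theorem reconA_eq (d : ℕ) (lam : ℝ) (h0 : 0 ≤ lam) (h1 : lam < 1) (n : ℕ) :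
    reconA 3 d lam (n + 1) = ∑ τ, (1 / 6) *
      (|Lk d lam (n + 1) τ 0 - (Lk d lam (n + 1) τ 0 + Lk d lam (n + 1) τ 1 + Lk d lam (n + 1) τ 2) / 3|
      + |Lk d lam (n + 1) τ 1 - (Lk d lam (n + 1) τ 0 + Lk d lam (n + 1) τ 1 + Lk d lam (n + 1) τ 2) / 3|
      + |Lk d lam (n + 1) τ 2 - (Lk d lam (n + 1) τ 0 + Lk d lam (n + 1) τ 1 + Lk d lam (n + 1) τ 2) / 3|) := by
  unfold reconA
  refine Finset.sum_congr rfl fun τ _ => ?_
  have hL := Lk_good (d := d) h0 h1 n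
  have p0 := hL.pos τ 0
  have p1 := hL.pos τ 1
  have p2 := hL.pos τ 2
  unfold Lk at p0 p1 p2 ⊢
  obtain ⟨x0, hx0⟩ : ∃ x, x = leafLik 3 d lam (n + 1) 0 τ := ⟨_, rfl⟩
  obtain ⟨x1, hx1⟩ : ∃ x, x = leafLik 3 d lam (n + 1) 1 τ := ⟨_, rfl⟩
  obtain ⟨x2, hx2⟩ : ∃ x, x = leafLik 3 d lam (n + 1) 2 τ := ⟨_, rfl⟩
  have hs : leafProb 3 d lam (n + 1) τ = (x0 + x1 + x2) / 3 := by
    unfold leafProb
    rw [Fin.sum_univ_three, ← hx0, ← hx1, ← hx2]
    push_cast
    ring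
  rw [hs, Fin.sum_univ_three, ← hx0, ← hx1, ← hx2]
  rw [← hx0] at p0
  rw [← hx1] at p1
  rw [← hx2] at p2
  obtain ⟨s, hss⟩ : ∃ s, s = (x0 + x1 + x2) / 3 := ⟨_, rfl⟩
  have hs0 : 0 < s := by rw [hss]; positivity
  rw [← hss]
  have key : ∀ x : ℝ, s * |(1 / ((3 : ℕ) : ℝ)) * x / s - 1 / ((3 : ℕ) : ℝ)| = (1 / 3) * |x - s| := by
    intro x
    have e : (1 / ((3 : ℕ) : ℝ)) * x / s - 1 / ((3 : ℕ) : ℝ) = (x - s) * (1 / (3 * s)) := by
      push_cast
      field_simp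
    rw [e, abs_mul, abs_of_pos (by positivity : 0 < 1 / (3 * s))]
    field_simp
  have e3 : s * ((1 / 2) * (|(1 / ((3 : ℕ) : ℝ)) * x0 / s - 1 / ((3 : ℕ) : ℝ)|
      + |(1 / ((3 : ℕ) : ℝ)) * x1 / s - 1 / ((3 : ℕ) : ℝ)|
      + |(1 / ((3 : ℕ) : ℝ)) * x2 / s - 1 / ((3 : ℕ) : ℝ)|))
      = (1 / 2) * (s * |(1 / ((3 : ℕ) : ℝ)) * x0 / s - 1 / ((3 : ℕ) : ℝ)|
      + s * |(1 / ((3 : ℕ) : ℝ)) * x1 / s - 1 / ((3 : ℕ) : ℝ)|
      + s * |(1 / ((3 : ℕ) : ℝ)) * x2 / s - 1 / ((3 : ℕ) : ℝ)|) := by ring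
  rw [e3, key, key, key]
  ring

/-- Bound of the statistical quantity. -/
theorem sq_sum_le {Ω : Type*} [Fintype Ω] {L : Ω → Fin 3 → ℝ} (h : IsLaw L) :
    (∑ τ, (1 / 6) * (|L τ 0 - (L τ 0 + L τ 1 + L τ 2) / 3| + |L τ 1 - (L τ 0 + L τ 1 + L τ 2) / 3|
        + |L τ 2 - (L τ 0 + L τ 1 + L τ 2) / 3|)) ^ 2 ≤ YY L / 2 := by
  have := Finset.sum_sq_le_sum_mul_sum_of_sq_le_mul (Finset.univ : Finset Ω)
    (r := fun τ => (1 / 6) * (|L τ 0 - (L τ 0 + L τ 1 + L τ 2) / 3|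
      + |L τ 1 - (L τ 0 + L τ 1 + L τ 2) / 3| + |L τ 2 - (L τ 0 + L τ 1 + L τ 2) / 3|))
    (f := fun τ => (L τ 0 + L τ 1 + L τ 2) / 3)
    (g := fun τ => yy (L τ 0) (L τ 1) (L τ 2) / 2)
    (fun τ _ => by
      have := h.pos τ 0; have := h.pos τ 1; have := h.pos τ 2; positivity)
    (fun τ _ => by
      have := yy_nonneg (h.pos τ 0) (h.pos τ 1) (h.pos τ 2); positivity)
    (fun τ _ => by
      have := dist_le_yy (h.pos τ 0) (h.pos τ 1) (h.pos τ 2)
      nlinarith)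
  rw [sum_mass h, one_mul, ← Finset.sum_div] at this
  exact this

/-- Nonreconstruction for the three-state ferromagnetic Potts channel on the `d`-ary tree,
whenever `d * lam ^ 2 ≤ 1`. -/
theorem reconA_tendsto_zero (hd : 2 ≤ d) (h0 : 0 ≤ lam) (hlam : (d : ℝ) * lam ^ 2 ≤ 1) :
    Tendsto (reconA 3 d lam) atTop (𝓝 0) := by
  have h1 : lam < 1 := by
    have hd' : (2 : ℝ) ≤ d := by exact_mod_cast hd
    have : 2 * lam ^ 2 ≤ 1 := by nlinarith [sq_nonneg lam]
    nlinarith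
  refine (tendsto_add_atTop_iff_nat 1).1 ?_
  have hy := y_tendsto hd h0 h1 hlam
  have hsq : Tendsto (fun n => Real.sqrt (YY (Lk d lam (n + 1)) / 2)) atTop (𝓝 0) := by
    have := (Real.continuous_sqrt.tendsto (0 / 2)).comp (hy.div_const 2)
    have e : Real.sqrt (0 / 2) = 0 := by simp
    rw [e] at this
    exact this
  refine squeeze_zero (fun n => ?_) (fun n => ?_) hsq
  · rw [reconA_eq d lam h0 h1 n]
    refine Finset.sum_nonneg fun τ _ => ?_
    positivity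
  · rw [reconA_eq d lam h0 h1 n]
    exact Real.le_sqrt_of_sq_le (sq_sum_le (Lk_good h0 h1 n))

end

end Vale.Agent.P154
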