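import Vale.Agent.P154.GWDefs
import Vale.Agent.P154.GWSum
import Vale.Agent.P154.Tree

/-!
Per-tree laws on truncated trees and the functional inequalities along the tree.
-/

namespace Vale.Agent.P154

noncomputable section

open Finset Filter Topology

/-- Independent product of finitely many different laws. -/
def piLaw {k : ℕ} {Ω : Fin k → Type} (L : ∀ c, Ω c → Fin 3 → ℝ) : (∀ c, Ω c) → Fin 3 → ℝ :=
  fun f i => ∏ c, L c (f c) i

theorem IsLaw.pi {k : ℕ} {Ω : Fin k → Type} [∀ c, Fintype (Ω c)] {L : ∀ c, Ω c → Fin 3 → ℝ}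
    (h : ∀ c, IsLaw (L c)) : IsLaw (piLaw L) where
  pos := fun f i => Finset.prod_pos fun c _ => (h c).pos _ i
  norm := fun i => by
    unfold piLaw
    have := (Finset.prod_univ_sum (fun c : Fin k => (Finset.univ : Finset (Ω c)))
      (fun c τ => L c τ i)).symm
    simp only [Fintype.piFinset_univ] at this
    rw [this]
    simp [(h _).norm]
  symm := fun g => by
    choose e he using fun c => (h c).symm g
    refine ⟨Equiv.piCongrRight e, fun f i => ?_⟩
    simp [piLaw, he]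

/-- The product over `k + 1` laws as a product law. -/
theorem piLaw_succ {k : ℕ} {Ω : Fin (k + 1) → Type} (L : ∀ c, Ω c → Fin 3 → ℝ) :
    piLaw L = fun f i =>
      prodLaw (L 0) (piLaw (fun c => L (Fin.succ c))) ((Fin.consEquiv Ω).symm f) i := by
  funext f i
  simp [piLaw, prodLaw, Fin.prod_univ_succ, Fin.consEquiv, Fin.tail]

theorem YY_pi_zero {Ω : Fin 0 → Type} [∀ c, Fintype (Ω c)] (L : ∀ c, Ω c → Fin 3 → ℝ) :
    YY (piLaw L) = 0 := by
  simp [YY, piLaw, yy]
  norm_num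

theorem HH_pi_zero {Ω : Fin 0 → Type} [∀ c, Fintype (Ω c)] (L : ∀ c, Ω c → Fin 3 → ℝ) :
    HH (piLaw L) = 0 := by
  simp [HH, piLaw, yy, mm, hh]
  norm_num

theorem HH_pi_nonneg {k : ℕ} {Ω : Fin k → Type} [∀ c, Fintype (Ω c)] {L : ∀ c, Ω c → Fin 3 → ℝ}
    (h : ∀ c, IsLaw (L c)) (hη : ∀ c, 0 ≤ HH (L c)) : 0 ≤ HH (piLaw L) := by
  induction k with
  | zero => rw [HH_pi_zero]
  | succ k ih =>
    rw [piLaw_succ, HH_comp_equiv]
    exact HH_prod_nonneg (h 0) (IsLaw.pi fun c => h _) (hη 0) (ih (fun c => h _) (fun c => hη _))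

theorem YY_pi_le {k : ℕ} {Ω : Fin k → Type} [∀ c, Fintype (Ω c)] {L : ∀ c, Ω c → Fin 3 → ℝ}
    (h : ∀ c, IsLaw (L c)) (hη : ∀ c, 0 ≤ HH (L c)) : YY (piLaw L) ≤ ∑ c, YY (L c) := by
  induction k with
  | zero => rw [YY_pi_zero]; simp
  | succ k ih =>
    rw [piLaw_succ, YY_comp_equiv, Fin.sum_univ_succ]
    have h1 := YY_prod_le (h 0) (IsLaw.pi fun c => h (Fin.succ c))
    have h2 := ih (L := fun c => L (Fin.succ c)) (fun c => h _) (fun c => hη _)
    have h3 := HH_pi_nonneg (L := fun c => L (Fin.succ c)) (fun c => h _) (fun c => hη _)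
    have h4 := YY_nonneg (IsLaw.pi fun c => h (Fin.succ c))
    have h5 := YY_nonneg (h 0)
    have h6 : 0 ≤ YY (piLaw fun c => L (Fin.succ c)) * HH (L 0) := mul_nonneg h4 (hη 0)
    have h7 : 0 ≤ YY (L 0) * HH (piLaw fun c => L (Fin.succ c)) := mul_nonneg h5 h3
    linarith

theorem YY_pi_ge {k : ℕ} {Ω : Fin (k + 1) → Type} [∀ c, Fintype (Ω c)] {L : ∀ c, Ω c → Fin 3 → ℝ}
    (h : ∀ c, IsLaw (L c)) : YY (L 0) ≤ YY (piLaw L) := by
  rw [piLaw_succ, YY_comp_equiv]
  exact YY_prod_ge (h 0) (IsLaw.pi fun c => h _)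

/-- The saving from the first two factors. -/
theorem YY_pi_le2 {k : ℕ} {Ω : Fin (k + 2) → Type} [∀ c, Fintype (Ω c)]
    {L : ∀ c, Ω c → Fin 3 → ℝ} (h : ∀ c, IsLaw (L c)) (hη : ∀ c, 0 ≤ HH (L c)) :
    YY (piLaw L) ≤ ∑ c, YY (L c) - (1 / 2) * (YY (L 1) * HH (L 0)) := by
  rw [piLaw_succ, YY_comp_equiv, Fin.sum_univ_succ]
  have h1 := YY_prod_le (h 0) (IsLaw.pi fun c => h (Fin.succ c))
  have h2 := YY_pi_le (L := fun c => L (Fin.succ c)) (fun c => h _) (fun c => hη _)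
  have h3 := HH_pi_nonneg (L := fun c => L (Fin.succ c)) (fun c => h _) (fun c => hη _)
  have h5 := YY_nonneg (h 0)
  have h7 : 0 ≤ YY (L 0) * HH (piLaw fun c => L (Fin.succ c)) := mul_nonneg h5 h3
  have h8 : YY (L 1) ≤ YY (piLaw fun c => L (Fin.succ c)) :=
    YY_pi_ge (L := fun c => L (Fin.succ c)) (fun c => h _)
  have h9 : YY (L 1) * HH (L 0) ≤ YY (piLaw fun c => L (Fin.succ c)) * HH (L 0) :=
    mul_le_mul_of_nonneg_right h8 (hη 0)
  linarith

/-- The law of the spins at depth `n` of a truncated tree. -/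
def Lt (lam : ℝ) {n : ℕ} (T : DTree n) : DTree.Config 3 T → Fin 3 → ℝ :=
  fun τ i => DTree.lik 3 lam T i τ

/-- The recursion for the law of the spins. -/
theorem Lt_node (lam : ℝ) {n : ℕ} (k : ℕ) (child : Fin k → DTree n) :
    Lt lam (DTree.node k child) = piLaw (fun c => chanLaw lam (Lt lam (child c))) := by
  funext τ i
  show DTree.lik 3 lam (DTree.node k child) i τ = _
  unfold piLaw chanLaw
  simp only [DTree.lik]
  refine Finset.prod_congr rfl fun c _ => ?_
  exact sum_channel lam (fun j => DTree.lik 3 lam (child c) j (τ c)) i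

theorem lik_leaf (lam : ℝ) (t i : Fin 3) :
    DTree.lik 3 lam DTree.leaf i t = if t = i then 1 else 0 := rfl

theorem chan_leaf (lam : ℝ) : chanLaw lam (Lt lam DTree.leaf) = firstLaw lam := by
  funext (τ : Fin 3) i
  have key : ((if τ = 0 then (1 : ℝ) else 0) + (if τ = 1 then 1 else 0)
      + (if τ = 2 then 1 else 0)) / 3 = 1 / 3 := by
    fin_cases τ <;> simp
  show Tl lam ((DTree.lik 3 lam DTree.leaf 0 τ + DTree.lik 3 lam DTree.leaf 1 τ
    + DTree.lik 3 lam DTree.leaf 2 τ) / 3) (DTree.lik 3 lam DTree.leaf i τ) = firstLaw lam τ i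
  rw [lik_leaf, lik_leaf, lik_leaf, lik_leaf, key]
  rfl

/-- After the channel the law of any truncated tree is in the class. -/
theorem Lt_good {lam : ℝ} (h0 : 0 ≤ lam) (h1 : lam < 1) {n : ℕ} (T : DTree n) :
    IsLaw (chanLaw lam (Lt lam T)) ∧ 0 ≤ HH (chanLaw lam (Lt lam T)) := by
  induction T with
  | leaf =>
    rw [chan_leaf]
    exact ⟨firstLaw_isLaw h0 h1, firstLaw_HH h0 h1⟩
  | node k child ih =>
    have hL : IsLaw (Lt lam (DTree.node k child)) := by
      rw [Lt_node]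
      exact IsLaw.pi fun c => (ih c).1
    have hH : 0 ≤ HH (Lt lam (DTree.node k child)) := by
      rw [Lt_node]
      exact HH_pi_nonneg (fun c => (ih c).1) (fun c => (ih c).2)
    refine ⟨hL.chan h0 h1.le, ?_⟩
    have := HH_chan hL h0 h1.le
    have h2 : 0 ≤ lam ^ 3 * HH (Lt lam (DTree.node k child)) := by positivity
    have h3 : 0 ≤ (1 / 2) * lam ^ 3 * (1 - lam) * (YY (Lt lam (DTree.node k child))) ^ 2 := by
      have : 0 ≤ 1 - lam := by linarith
      positivity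
    linarith

end

end Vale.Agent.P154
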