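import Vale.Agent.P154.GWLaw

/-!
The expectation recursion on Galton-Watson trees and nonreconstruction for `q = 3`, `lam ≥ 0`.
-/

namespace Vale.Agent.P154

noncomputable section

open Finset Filter Topology

theorem YY_le_one {Ω : Type*} [Fintype Ω] {L : Ω → Fin 3 → ℝ} (h : IsLaw L) : YY L ≤ 1 := by
  rw [← sum_mass h]
  unfold YY
  refine Finset.sum_le_sum fun τ _ => ?_
  unfold yy
  have := h.pos τ 0
  have := h.pos τ 1
  have := h.pos τ 2
  have : 0 ≤ (L τ 0 * L τ 1 + L τ 1 * L τ 2 + L τ 2 * L τ 0) / (L τ 0 + L τ 1 + L τ 2) := by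
    positivity
  linarith

theorem Lt_isLaw {lam : ℝ} (h0 : 0 ≤ lam) (h1 : lam < 1) {n : ℕ} (T : DTree (n + 1)) :
    IsLaw (Lt lam T) := by
  cases T with
  | node k child =>
    rw [Lt_node]
    exact IsLaw.pi fun c => (Lt_good h0 h1 (child c)).1

theorem Lt_HH {lam : ℝ} (h0 : 0 ≤ lam) (h1 : lam < 1) {n : ℕ} (T : DTree (n + 1)) :
    0 ≤ HH (Lt lam T) := by
  cases T with
  | node k child =>
    rw [Lt_node]
    exact HH_pi_nonneg (fun c => (Lt_good h0 h1 (child c)).1) (fun c => (Lt_good h0 h1 (child c)).2)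

/-- The plain recursive bound at a vertex. -/
theorem y_node_le {lam : ℝ} (h0 : 0 ≤ lam) (h1 : lam < 1) {n : ℕ} (k : ℕ)
    (child : Fin k → DTree (n + 1)) :
    YY (Lt lam (DTree.node k child)) ≤ lam ^ 2 * ∑ c, YY (Lt lam (child c)) := by
  rw [Lt_node]
  refine (YY_pi_le (fun c => (Lt_good h0 h1 (child c)).1)
    (fun c => (Lt_good h0 h1 (child c)).2)).trans (le_of_eq ?_)
  rw [Finset.mul_sum]
  exact Finset.sum_congr rfl fun c _ => YY_chan (Lt_isLaw h0 h1 (child c)) h0 h1.le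

/-- The recursive bound with saving at a vertex with at least two children. -/
theorem y_node_le2 {lam : ℝ} (h0 : 0 ≤ lam) (h1 : lam < 1) {n : ℕ} (k : ℕ)
    (child : Fin (k + 2) → DTree (n + 1)) :
    YY (Lt lam (DTree.node (k + 2) child)) ≤ lam ^ 2 * ∑ c, YY (Lt lam (child c))
      - (1 / 4) * (lam ^ 5 * (1 - lam)) * ((YY (Lt lam (child 0))) ^ 2 * YY (Lt lam (child 1))) := by
  rw [Lt_node]
  have h2 := YY_pi_le2 (L := fun c => chanLaw lam (Lt lam (child c)))
    (fun c => (Lt_good h0 h1 (child c)).1) (fun c => (Lt_good h0 h1 (child c)).2)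
  have e : ∑ c, YY (chanLaw lam (Lt lam (child c))) = lam ^ 2 * ∑ c, YY (Lt lam (child c)) := by
    rw [Finset.mul_sum]
    exact Finset.sum_congr rfl fun c _ => YY_chan (Lt_isLaw h0 h1 (child c)) h0 h1.le
  rw [e, YY_chan (Lt_isLaw h0 h1 (child 1)) h0 h1.le] at h2
  have h3 := HH_chan (Lt_isLaw h0 h1 (child 0)) h0 h1.le
  have h4 := Lt_HH h0 h1 (child 0)
  have h5 : 0 ≤ lam ^ 3 * HH (Lt lam (child 0)) := by positivity
  have h6 : (1 / 2) * lam ^ 3 * (1 - lam) * (YY (Lt lam (child 0))) ^ 2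
      ≤ HH (chanLaw lam (Lt lam (child 0))) := by linarith
  have h7 : 0 ≤ lam ^ 2 * YY (Lt lam (child 1)) :=
    mul_nonneg (by positivity) (YY_nonneg (Lt_isLaw h0 h1 (child 1)))
  have h8 := mul_le_mul_of_nonneg_left h6 h7
  refine h2.trans ?_
  have e2 : (1 / 4) * (lam ^ 5 * (1 - lam)) * ((YY (Lt lam (child 0))) ^ 2 * YY (Lt lam (child 1)))
      = (1 / 2) * (lam ^ 2 * YY (Lt lam (child 1))
        * ((1 / 2) * lam ^ 3 * (1 - lam) * (YY (Lt lam (child 0))) ^ 2)) := by ring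
  rw [e2]
  linarith

/-- The equivalence describing a tree by the number of children of the root and their subtrees. -/
def nodeEquiv (n : ℕ) : (Σ k : ℕ, (Fin k → DTree n)) ≃ DTree (n + 1) where
  toFun z := DTree.node z.1 z.2
  invFun T := match T with
    | DTree.node k child => ⟨k, child⟩
  left_inv z := rfl
  right_inv T := by cases T; rfl

theorem prob_nonneg {w : ℕ → ℝ} (hw0 : ∀ k, 0 ≤ w k) {n : ℕ} (T : DTree n) : 0 ≤ T.prob w := by
  induction T with
  | leaf => simp [DTree.prob]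
  | node k child ih =>
    simp only [DTree.prob]
    exact mul_nonneg (hw0 k) (Finset.prod_nonneg fun c _ => ih c)

/-- The expectation over a tree of height `n + 1`. -/
theorem gw_hasSum {w : ℕ → ℝ} (hw0 : ∀ k, 0 ≤ w k) (hw : HasSum w 1) {n : ℕ}
    (hp : HasSum (fun T : DTree n => T.prob w) 1) {F : DTree (n + 1) → ℝ} {C : ℝ}
    (hF : ∀ T, |F T| ≤ C) :
    HasSum (fun T : DTree (n + 1) => T.prob w * F T)
      (∑' k, w k * Ek (fun T : DTree n => T.prob w) k (fun t => F (DTree.node k t))) := by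
  obtain ⟨p, hpd⟩ : ∃ p : DTree n → ℝ, p = fun T => T.prob w := ⟨_, rfl⟩
  rw [← hpd] at hp ⊢
  have hp0 : ∀ T, 0 ≤ p T := fun T => by rw [hpd]; exact prob_nonneg hw0 T
  have hg0 : ∀ z : (Σ k : ℕ, (Fin k → DTree n)), 0 ≤ w z.1 * prodW p z.1 z.2 :=
    fun z => mul_nonneg (hw0 _) (prodW_nonneg hp0 _ _)
  have hs0 : Summable fun z : (Σ k : ℕ, (Fin k → DTree n)) => w z.1 * prodW p z.1 z.2 := by
    rw [summable_sigma_of_nonneg hg0]
    refine ⟨fun k => (prodW_hasSum hp0 hp k).summable.mul_left (w k), ?_⟩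
    have : (fun k => ∑' t : Fin k → DTree n, w k * prodW p k t) = w := by
      funext k
      rw [tsum_mul_left, (prodW_hasSum hp0 hp k).tsum_eq, mul_one]
    simp only [this]
    exact hw.summable
  have hs : Summable fun z : (Σ k : ℕ, (Fin k → DTree n)) =>
      w z.1 * prodW p z.1 z.2 * F (DTree.node z.1 z.2) :=
    summable_mul_of_bdd hs0 hg0 (fun z => hF _)
  have hfib : ∀ k, HasSum (fun t : Fin k → DTree n => w k * prodW p k t * F (DTree.node k t))
      (w k * Ek p k (fun t => F (DTree.node k t))) := by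
    intro k
    have := (Ek_summable hp0 hp k (fun t => hF (DTree.node k t))).hasSum.mul_left (w k)
    have e : (fun t : Fin k → DTree n => w k * prodW p k t * F (DTree.node k t))
        = fun t => w k * (prodW p k t * F (DTree.node k t)) := by
      funext t; ring
    rw [e]
    exact this
  have hall := hs.hasSum
  have hk := hall.sigma hfib
  rw [hk.tsum_eq.symm] at hall
  refine ((nodeEquiv n).hasSum_iff).1 ?_
  convert hall using 1
  funext z
  show (DTree.node z.1 z.2).prob w * F (DTree.node z.1 z.2) = _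
  simp only [DTree.prob, prodW, hpd]

/-- The total mass of the Galton-Watson law. -/
theorem prob_hasSum {w : ℕ → ℝ} (hw0 : ∀ k, 0 ≤ w k) (hw : HasSum w 1) (n : ℕ) :
    HasSum (fun T : DTree n => T.prob w) 1 := by
  induction n with
  | zero =>
    have hu : ∀ T : DTree 0, T = DTree.leaf := by
      intro T; cases T; rfl
    have : Unique (DTree 0) := ⟨⟨DTree.leaf⟩, hu⟩
    have h := hasSum_unique (fun T : DTree 0 => T.prob w)
    have e : (default : DTree 0).prob w = 1 := by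
      rw [hu default]; rfl
    rwa [e] at h
  | succ n ih =>
    have h := gw_hasSum hw0 hw ih (F := fun _ => 1) (C := 1) (by simp)
    simp only [mul_one] at h
    have hp0 : ∀ T : DTree n, 0 ≤ T.prob w := prob_nonneg hw0
    have e : ∀ k, w k * Ek (fun T : DTree n => T.prob w) k (fun _ => 1) = w k := by
      intro k
      rw [Ek_const hp0 ih, mul_one]
    simp only [e] at h
    rwa [hw.tsum_eq] at h

/-- The expectation over trees of height `n + 1`, in recursive form. -/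
theorem E1_succ {w : ℕ → ℝ} (hw0 : ∀ k, 0 ≤ w k) (hw : HasSum w 1) {n : ℕ}
    {F : DTree (n + 1) → ℝ} {C : ℝ} (hF : ∀ T, |F T| ≤ C) :
    E1 (fun T : DTree (n + 1) => T.prob w) F
      = ∑' k, w k * Ek (fun T : DTree n => T.prob w) k (fun t => F (DTree.node k t)) :=
  (gw_hasSum hw0 hw (prob_hasSum hw0 hw n) hF).tsum_eq

theorem abs_YY_le {lam : ℝ} (h0 : 0 ≤ lam) (h1 : lam < 1) {n : ℕ} (T : DTree (n + 1)) :
    |YY (Lt lam T)| ≤ 1 := by
  rw [abs_of_nonneg (YY_nonneg (Lt_isLaw h0 h1 T))]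
  exact YY_le_one (Lt_isLaw h0 h1 T)

/-- The mean of the functional. -/
def ybar (w : ℕ → ℝ) (lam : ℝ) (n : ℕ) : ℝ :=
  E1 (fun T : DTree (n + 1) => T.prob w) (fun T => YY (Lt lam T))

theorem ybar_nonneg {w : ℕ → ℝ} (hw0 : ∀ k, 0 ≤ w k) {lam : ℝ} (h0 : 0 ≤ lam)
    (h1 : lam < 1) (n : ℕ) : 0 ≤ ybar w lam n :=
  tsum_nonneg fun T => mul_nonneg (prob_nonneg hw0 T) (YY_nonneg (Lt_isLaw h0 h1 T))

/-- The second moment is at least the square of the mean. -/
theorem E1_sq_ge {X : Type*} {p : X → ℝ} (hp0 : ∀ x, 0 ≤ p x) (hp : HasSum p 1) {f : X → ℝ}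
    (hf : ∀ x, |f x| ≤ 1) : (E1 p f) ^ 2 ≤ E1 p (fun x => (f x) ^ 2) := by
  obtain ⟨t, ht⟩ : ∃ t, t = E1 p f := ⟨_, rfl⟩
  have hf2 : ∀ x, |(f x) ^ 2| ≤ 1 := fun x => by
    rw [abs_pow]
    exact pow_le_one₀ (abs_nonneg _) (hf x)
  have hb : ∀ x, |2 * t * f x| ≤ |2 * t| * 1 := fun x => by
    rw [abs_mul]
    exact mul_le_mul_of_nonneg_left (hf x) (abs_nonneg _)
  have hle : E1 p (fun x => 2 * t * f x + (- t ^ 2)) ≤ E1 p (fun x => (f x) ^ 2) := by
    refine E1_mono hp0 hp (C := |2 * t| * 1 + |(- t ^ 2)|) (D := 1) (fun x => ?_) hf2 (fun x => ?_)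
    · exact (abs_add_le _ _).trans (by linarith [hb x])
    · nlinarith [sq_nonneg (f x - t)]
  rw [E1_add hp0 hp (C := |2 * t| * 1) (D := |(- t ^ 2)|) hb (fun _ => le_rfl), E1_const hp,
    E1_const_mul, ← ht] at hle
  rw [← ht]
  have e : 2 * t * t + - t ^ 2 = t ^ 2 := by ring
  linarith

/-- The recursion for the mean of the functional. -/
theorem ybar_step {w : ℕ → ℝ} (hw0 : ∀ k, 0 ≤ w k) (hw : HasSum w 1) {m : ℝ}
    (hm : HasSum (fun k : ℕ => (k : ℝ) * w k) m) (k₂ : ℕ) {lam : ℝ} (h0 : 0 ≤ lam)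
    (h1 : lam < 1) (n : ℕ) :
    ybar w lam (n + 1) ≤ m * (lam ^ 2 * ybar w lam n)
      - w (k₂ + 2) * ((1 / 4) * (lam ^ 5 * (1 - lam)) * (ybar w lam n) ^ 3) := by
  obtain ⟨p, hpd⟩ : ∃ p : DTree (n + 1) → ℝ, p = fun T => T.prob w := ⟨_, rfl⟩
  have hp : HasSum p 1 := by rw [hpd]; exact prob_hasSum hw0 hw (n + 1)
  have hp0 : ∀ T, 0 ≤ p T := fun T => by rw [hpd]; exact prob_nonneg hw0 T
  obtain ⟨y, hyd⟩ : ∃ y : DTree (n + 1) → ℝ, y = fun T => YY (Lt lam T) := ⟨_, rfl⟩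
  have hy : ∀ T, |y T| ≤ 1 := fun T => by rw [hyd]; exact abs_YY_le h0 h1 T
  have hy0 : ∀ T, 0 ≤ y T := fun T => by rw [hyd]; exact YY_nonneg (Lt_isLaw h0 h1 T)
  obtain ⟨b, hb⟩ : ∃ b, b = E1 p y := ⟨_, rfl⟩
  have hbn : ybar w lam n = b := by rw [hb, hpd, hyd]; rfl
  have hb0 : 0 ≤ b := by rw [← hbn]; exact ybar_nonneg hw0 h0 h1 n
  obtain ⟨c₀, hc₀⟩ : ∃ c₀, c₀ = (1 / 4) * (lam ^ 5 * (1 - lam)) := ⟨_, rfl⟩
  have hc₀0 : 0 ≤ c₀ := by
    rw [hc₀]
    have : 0 ≤ 1 - lam := by linarith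
    positivity
  rw [← hc₀, hbn]
  have hF : ∀ T : DTree (n + 1 + 1), |YY (Lt lam T)| ≤ 1 := fun T => abs_YY_le h0 h1 T
  have hE := E1_succ hw0 hw hF
  show E1 (fun T : DTree (n + 1 + 1) => T.prob w) (fun T => YY (Lt lam T)) ≤ _
  rw [hE, ← hpd]
  -- the expectation of the bound at a vertex with `k` children
  have hbdk : ∀ (k : ℕ) (t : Fin k → DTree (n + 1)), |YY (Lt lam (DTree.node k t))| ≤ 1 :=
    fun k t => hF _
  have hsumb : ∀ (k : ℕ) (t : Fin k → DTree (n + 1)),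
      |lam ^ 2 * ∑ c, y (t c)| ≤ |lam ^ 2| * (k * 1) := by
    intro k t
    rw [abs_mul]
    refine mul_le_mul_of_nonneg_left ?_ (abs_nonneg _)
    refine (Finset.abs_sum_le_sum_abs _ _).trans ?_
    calc ∑ c, |y (t c)| ≤ ∑ _c : Fin k, (1 : ℝ) := Finset.sum_le_sum fun c _ => hy _
      _ = k * 1 := by simp
  have hsumE : ∀ k : ℕ, Ek p k (fun t => lam ^ 2 * ∑ c, y (t c)) = k * (lam ^ 2 * b) := by
    intro k
    rw [Ek_const_mul, Ek_sum hp0 hp hy k, ← hb]
    ring
  have hk_le : ∀ k : ℕ, Ek p k (fun t => YY (Lt lam (DTree.node k t))) ≤ k * (lam ^ 2 * b) := by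
    intro k
    rw [← hsumE k]
    refine Ek_mono hp0 hp k (hbdk k) (hsumb k) (fun t => ?_)
    rw [hyd]
    exact y_node_le h0 h1 k t
  -- the saving at `k₂ + 2`
  have hk_le2 : Ek p (k₂ + 2) (fun t => YY (Lt lam (DTree.node (k₂ + 2) t)))
      ≤ ((k₂ + 2 : ℕ) : ℝ) * (lam ^ 2 * b) - c₀ * b ^ 3 := by
    have hg : ∀ x, |(y x) ^ 2| ≤ 1 := fun x => by
      rw [abs_pow]; exact pow_le_one₀ (abs_nonneg _) (hy x)
    have hprod : ∀ t : Fin (k₂ + 2) → DTree (n + 1), |(y (t 0)) ^ 2 * y (t 1)| ≤ 1 := by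
      intro t
      rw [abs_mul]
      exact mul_le_one₀ (hg _) (abs_nonneg _) (hy _)
    have hneg : ∀ t : Fin (k₂ + 2) → DTree (n + 1),
        |(- c₀) * ((y (t 0)) ^ 2 * y (t 1))| ≤ |(- c₀)| * 1 := by
      intro t
      rw [abs_mul]
      exact mul_le_mul_of_nonneg_left (hprod t) (abs_nonneg _)
    have hle : Ek p (k₂ + 2) (fun t => YY (Lt lam (DTree.node (k₂ + 2) t)))
        ≤ Ek p (k₂ + 2) (fun t => lam ^ 2 * ∑ c, y (t c) + (- c₀) * ((y (t 0)) ^ 2 * y (t 1))) := by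
      refine Ek_mono hp0 hp (k₂ + 2) (hbdk (k₂ + 2))
        (D := |lam ^ 2| * (((k₂ + 2 : ℕ) : ℝ) * 1) + |(- c₀)| * 1)
        (fun t => (abs_add_le _ _).trans (add_le_add (hsumb _ t) (hneg t))) (fun t => ?_)
      have := y_node_le2 h0 h1 k₂ t
      rw [← hc₀] at this
      rw [hyd]
      linarith
    rw [Ek_add hp0 hp (k₂ + 2) (hsumb (k₂ + 2)) hneg, hsumE, Ek_const_mul,
      Ek_two hp0 hp hg hy k₂, ← hb] at hle
    have hq := E1_sq_ge hp0 hp hy
    rw [← hb] at hq
    have : c₀ * b ^ 3 ≤ c₀ * (E1 p (fun x => (y x) ^ 2) * b) := by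
      refine mul_le_mul_of_nonneg_left ?_ hc₀0
      have : b ^ 3 = b ^ 2 * b := by ring
      rw [this]
      exact mul_le_mul_of_nonneg_right hq hb0
    linarith
  -- summing over `k`
  have hS1 : HasSum (fun k : ℕ => w k * ((k : ℝ) * (lam ^ 2 * b))) (m * (lam ^ 2 * b)) := by
    have e : (fun k : ℕ => w k * ((k : ℝ) * (lam ^ 2 * b)))
        = fun k : ℕ => (k : ℝ) * w k * (lam ^ 2 * b) := by
      funext k; ring
    rw [e]
    exact hm.mul_right (lam ^ 2 * b)
  have hS2 : HasSum (fun k : ℕ => if k = k₂ + 2 then w (k₂ + 2) * (c₀ * b ^ 3) else 0)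
      (w (k₂ + 2) * (c₀ * b ^ 3)) := hasSum_ite_eq _ _
  have hS := hS1.sub hS2
  have hLs : Summable fun k => w k * Ek p k (fun t => YY (Lt lam (DTree.node k t))) := by
    refine Summable.of_norm_bounded (g := fun k => w k * 1) (hw.summable.mul_right 1) fun k => ?_
    rw [Real.norm_eq_abs, abs_mul, abs_of_nonneg (hw0 k)]
    exact mul_le_mul_of_nonneg_left (abs_Ek_le hp0 hp k (hbdk k)) (hw0 k)
  refine (hLs.tsum_le_tsum (fun k => ?_) hS.summable).trans (le_of_eq hS.tsum_eq)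
  by_cases hk : k = k₂ + 2
  · subst hk
    simp only [if_true]
    have := mul_le_mul_of_nonneg_left hk_le2 (hw0 (k₂ + 2))
    linarith
  · simp only [hk, if_false, sub_zero]
    exact mul_le_mul_of_nonneg_left (hk_le k) (hw0 k)

/-- The quantity `treeA` in terms of the law, for a positive law. -/
theorem treeA_eq {lam : ℝ} (h0 : 0 ≤ lam) (h1 : lam < 1) {n : ℕ} (T : DTree (n + 1)) :
    T.treeA 3 lam = ∑ τ, (1 / 6) *
      (|Lt lam T τ 0 - (Lt lam T τ 0 + Lt lam T τ 1 + Lt lam T τ 2) / 3|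
      + |Lt lam T τ 1 - (Lt lam T τ 0 + Lt lam T τ 1 + Lt lam T τ 2) / 3|
      + |Lt lam T τ 2 - (Lt lam T τ 0 + Lt lam T τ 1 + Lt lam T τ 2) / 3|) := by
  unfold DTree.treeA
  refine Finset.sum_congr rfl fun τ _ => ?_
  have hL := Lt_isLaw h0 h1 T
  have p0 := hL.pos τ 0
  have p1 := hL.pos τ 1
  have p2 := hL.pos τ 2
  unfold Lt at p0 p1 p2 ⊢
  obtain ⟨x0, hx0⟩ : ∃ x, x = DTree.lik 3 lam T 0 τ := ⟨_, rfl⟩
  obtain ⟨x1, hx1⟩ : ∃ x, x = DTree.lik 3 lam T 1 τ := ⟨_, rfl⟩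
  obtain ⟨x2, hx2⟩ : ∃ x, x = DTree.lik 3 lam T 2 τ := ⟨_, rfl⟩
  have hs : DTree.spinProb 3 lam T τ = (x0 + x1 + x2) / 3 := by
    unfold DTree.spinProb
    rw [Fin.sum_univ_three, ← hx0, ← hx1, ← hx2]
    push_cast
    ring
  rw [hs, Fin.sum_univ_three, ← hx0, ← hx1, ← hx2]
  rw [← hx0] at p0
  rw [← hx1] at p1
  rw [← hx2] at p2
  obtain ⟨s, hss⟩ : ∃ s, s = (x0 + x1 + x2) / 3 := ⟨_, rfl⟩
  have hs0 : 0 < s := by rw [hss]; positivity
  rw [← hss]
  have key : ∀ x : ℝ, s * |(1 / ((3 : ℕ) : ℝ)) * x / s - 1 / ((3 : ℕ) : ℝ)| = (1 / 3) * |x - s| := by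
    intro x
    have e : (1 / ((3 : ℕ) : ℝ)) * x / s - 1 / ((3 : ℕ) : ℝ) = (x - s) * (1 / (3 * s)) := by
      push_cast
      field_simp
    rw [e, abs_mul, abs_of_pos (by positivity : 0 < 1 / (3 * s))]
    field_simp
  have e3 : s * ((1 / 2) * (|(1 / ((3 : ℕ) : ℝ)) * x0 / s - 1 / ((3 : ℕ) : ℝ)|
      + |(1 / ((3 : ℕ) : ℝ)) * x1 / s - 1 / ((3 : ℕ) : ℝ)|
      + |(1 / ((3 : ℕ) : ℝ)) * x2 / s - 1 / ((3 : ℕ) : ℝ)|))
      = (1 / 2) * (s * |(1 / ((3 : ℕ) : ℝ)) * x0 / s - 1 / ((3 : ℕ) : ℝ)|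
      + s * |(1 / ((3 : ℕ) : ℝ)) * x1 / s - 1 / ((3 : ℕ) : ℝ)|
      + s * |(1 / ((3 : ℕ) : ℝ)) * x2 / s - 1 / ((3 : ℕ) : ℝ)|) := by ring
  rw [e3, key, key, key]
  ring

theorem treeA_nonneg {lam : ℝ} (h0 : 0 ≤ lam) (h1 : lam ≤ 1) {n : ℕ} (T : DTree n)
    (hlik : ∀ i τ, 0 ≤ DTree.lik 3 lam T i τ) : 0 ≤ T.treeA 3 lam := by
  unfold DTree.treeA
  refine Finset.sum_nonneg fun τ _ => mul_nonneg ?_ (by positivity)
  unfold DTree.spinProb
  refine Finset.sum_nonneg fun i _ => mul_nonneg (by positivity) (hlik i τ)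

theorem channel_nonneg {lam : ℝ} (h0 : 0 ≤ lam) (h1 : lam ≤ 1) (i j : Fin 3) :
    0 ≤ pottsChannel 3 lam i j := by
  unfold pottsChannel
  have : 0 ≤ 1 - lam := by linarith
  split_ifs <;> positivity

theorem channel_sum (lam : ℝ) (i : Fin 3) : ∑ j, pottsChannel 3 lam i j = 1 := by
  unfold pottsChannel
  rw [Fin.sum_univ_three]
  fin_cases i <;> simp <;> ring

theorem lik_nonneg {lam : ℝ} (h0 : 0 ≤ lam) (h1 : lam ≤ 1) {n : ℕ} (T : DTree n) :
    ∀ i τ, 0 ≤ DTree.lik 3 lam T i τ := by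
  induction T with
  | leaf =>
    intro i (τ : Fin 3)
    rw [lik_leaf]
    split_ifs <;> norm_num
  | node k child ih =>
    intro i τ
    simp only [DTree.lik]
    exact Finset.prod_nonneg fun c _ => Finset.sum_nonneg fun j _ =>
      mul_nonneg (channel_nonneg h0 h1 i j) (ih c j _)

theorem lik_norm (lam : ℝ) {n : ℕ} (T : DTree n) : ∀ i, ∑ τ, DTree.lik 3 lam T i τ = 1 := by
  induction T with
  | leaf =>
    intro i
    show ∑ τ : Fin 3, (if τ = i then (1 : ℝ) else 0) = 1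
    simp
  | node k child ih =>
    intro i
    show ∑ f : (∀ c, DTree.Config 3 (child c)), ∏ c, ∑ j, pottsChannel 3 lam i j
      * DTree.lik 3 lam (child c) j (f c) = 1
    have := (Finset.prod_univ_sum (fun c : Fin k => (Finset.univ : Finset (DTree.Config 3 (child c))))
      (fun c τ => ∑ j, pottsChannel 3 lam i j * DTree.lik 3 lam (child c) j τ)).symm
    simp only [Fintype.piFinset_univ] at this
    rw [this]
    refine Finset.prod_eq_one fun c _ => ?_
    rw [Finset.sum_comm]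
    have e : ∀ j, ∑ τ, pottsChannel 3 lam i j * DTree.lik 3 lam (child c) j τ
        = pottsChannel 3 lam i j := by
      intro j
      rw [← Finset.mul_sum, ih c j, mul_one]
    simp only [e]
    exact channel_sum lam i

theorem treeA_le_one {lam : ℝ} (h0 : 0 ≤ lam) (h1 : lam ≤ 1) {n : ℕ} (T : DTree n) :
    T.treeA 3 lam ≤ 1 := by
  have hl := lik_nonneg h0 h1 T
  have hterm : ∀ τ, DTree.spinProb 3 lam T τ *
      ((1 / 2) * ∑ i : Fin 3,
      |(1 / ((3 : ℕ) : ℝ)) * DTree.lik 3 lam T i τ / DTree.spinProb 3 lam T τ - 1 / ((3 : ℕ) : ℝ)|)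
      ≤ DTree.spinProb 3 lam T τ := by
    intro τ
    have hP0 : 0 ≤ DTree.spinProb 3 lam T τ :=
      Finset.sum_nonneg fun i _ => mul_nonneg (by positivity) (hl i τ)
    rcases eq_or_lt_of_le hP0 with hP | hP
    · rw [← hP]; simp
    · have hsum : ∑ i : Fin 3, ((1 / ((3 : ℕ) : ℝ)) * DTree.lik 3 lam T i τ
          / DTree.spinProb 3 lam T τ + 1 / ((3 : ℕ) : ℝ)) = 2 := by
        rw [Finset.sum_add_distrib, ← Finset.sum_div]
        have : ∑ i : Fin 3, (1 / ((3 : ℕ) : ℝ)) * DTree.lik 3 lam T i τ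
            = DTree.spinProb 3 lam T τ := rfl
        rw [this, div_self hP.ne']
        simp
        norm_num
      have hle : ∑ i : Fin 3,
          |(1 / ((3 : ℕ) : ℝ)) * DTree.lik 3 lam T i τ / DTree.spinProb 3 lam T τ - 1 / ((3 : ℕ) : ℝ)|
          ≤ 2 := by
        rw [← hsum]
        refine Finset.sum_le_sum fun i _ => ?_
        have a : 0 ≤ (1 / ((3 : ℕ) : ℝ)) * DTree.lik 3 lam T i τ / DTree.spinProb 3 lam T τ :=
          div_nonneg (mul_nonneg (by positivity) (hl i τ)) hP.le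
        have b : (0 : ℝ) ≤ 1 / ((3 : ℕ) : ℝ) := by positivity
        rw [abs_le]
        constructor <;> linarith
      nlinarith
  unfold DTree.treeA
  refine (Finset.sum_le_sum fun τ _ => hterm τ).trans (le_of_eq ?_)
  unfold DTree.spinProb
  rw [Finset.sum_comm]
  have e : ∀ i : Fin 3, ∑ τ, (1 / ((3 : ℕ) : ℝ)) * DTree.lik 3 lam T i τ = 1 / ((3 : ℕ) : ℝ) := by
    intro i
    rw [← Finset.mul_sum, lik_norm lam T i, mul_one]
  simp only [e]
  simp

theorem abs_treeA_le {lam : ℝ} (h0 : 0 ≤ lam) (h1 : lam ≤ 1) {n : ℕ} (T : DTree n) :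
    |T.treeA 3 lam| ≤ 1 := by
  rw [abs_of_nonneg (treeA_nonneg h0 h1 T (lik_nonneg h0 h1 T))]
  exact treeA_le_one h0 h1 T

/-- Summability of the series defining `a_n`. -/
theorem gwA_summable {w : ℕ → ℝ} (hw0 : ∀ k, 0 ≤ w k) (hw : HasSum w 1) {lam : ℝ} (h0 : 0 ≤ lam)
    (h1 : lam ≤ 1) (n : ℕ) : Summable fun T : DTree n => T.prob w * T.treeA 3 lam :=
  E1_summable (prob_nonneg hw0) (prob_hasSum hw0 hw n) (abs_treeA_le h0 h1)

/-- The bound of `a_n` by the functional. -/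
theorem gwA_sq_le {w : ℕ → ℝ} (hw0 : ∀ k, 0 ≤ w k) (hw : HasSum w 1) {lam : ℝ} (h0 : 0 ≤ lam)
    (h1 : lam < 1) (n : ℕ) : (gwA 3 w lam (n + 1)) ^ 2 ≤ ybar w lam n / 2 := by
  have hp := prob_hasSum hw0 hw (n + 1)
  have hp0 : ∀ T : DTree (n + 1), 0 ≤ T.prob w := prob_nonneg hw0
  have h2 := E1_sq_ge hp0 hp (f := fun T => T.treeA 3 lam) (abs_treeA_le h0 h1.le)
  have hle : E1 (fun T : DTree (n + 1) => T.prob w) (fun T => (T.treeA 3 lam) ^ 2)
      ≤ E1 (fun T : DTree (n + 1) => T.prob w) (fun T => (1 / 2) * YY (Lt lam T)) := by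
    refine E1_mono hp0 hp (C := 1) (D := 1) (fun T => ?_) (fun T => ?_) (fun T => ?_)
    · rw [abs_pow]
      exact pow_le_one₀ (abs_nonneg _) (abs_treeA_le h0 h1.le T)
    · rw [abs_mul, abs_of_nonneg (by norm_num : (0 : ℝ) ≤ 1 / 2)]
      have := abs_YY_le h0 h1 T
      linarith
    · rw [treeA_eq h0 h1 T]
      have := sq_sum_le (Lt_isLaw h0 h1 T)
      linarith
  rw [E1_const_mul] at hle
  show (E1 (fun T : DTree (n + 1) => T.prob w) (fun T => T.treeA 3 lam)) ^ 2 ≤ _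
  unfold ybar
  linarith

/-- Nonreconstruction for a general offspring law. -/
theorem gw_main {w : ℕ → ℝ} (hw0 : ∀ k, 0 ≤ w k) (hw : HasSum w 1) {m : ℝ}
    (hm : HasSum (fun k : ℕ => (k : ℝ) * w k) m) (k₂ : ℕ) (hk₂ : 0 < w (k₂ + 2)) {lam : ℝ}
    (h0 : 0 ≤ lam) (h1 : lam < 1) (hlam : m * lam ^ 2 ≤ 1) :
    Tendsto (gwA 3 w lam) atTop (𝓝 0) := by
  have hm0 : 0 ≤ m := hm.nonneg fun k => mul_nonneg (Nat.cast_nonneg k) (hw0 k)
  have hy0 := ybar_nonneg hw0 h0 h1
  have hstep := ybar_step hw0 hw hm k₂ h0 h1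
  have hylim : Tendsto (ybar w lam) atTop (𝓝 0) := by
    rcases eq_or_lt_of_le h0 with h00 | h00
    · subst h00
      refine (tendsto_add_atTop_iff_nat 1).1 ?_
      refine tendsto_const_nhds.congr fun n => ?_
      have := hstep n
      have h2 := hy0 (n + 1)
      norm_num at this
      linarith
    · refine tendsto_zero_of_cubic (c := w (k₂ + 2) * ((1 / 4) * (lam ^ 5 * (1 - lam)))) ?_ hy0
        (fun n => ?_)
      · have : 0 < 1 - lam := by linarith
        positivity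
      · have h2 := hstep n
        have h3 : m * (lam ^ 2 * ybar w lam n) ≤ ybar w lam n := by
          have := mul_le_mul_of_nonneg_right hlam (hy0 n)
          nlinarith
        nlinarith
  refine (tendsto_add_atTop_iff_nat 1).1 ?_
  have hsq : Tendsto (fun n => Real.sqrt (ybar w lam n / 2)) atTop (𝓝 0) := by
    have := (Real.continuous_sqrt.tendsto (0 / 2)).comp (hylim.div_const 2)
    have e : Real.sqrt (0 / 2) = 0 := by simp
    rw [e] at this
    exact this
  refine squeeze_zero (fun n => ?_) (fun n => ?_) hsq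
  · exact tsum_nonneg fun T => mul_nonneg (prob_nonneg hw0 T)
      (treeA_nonneg h0 h1.le T (lik_nonneg h0 h1.le T))
  · exact Real.le_sqrt_of_sq_le (gwA_sq_le hw0 hw h0 h1 n)

/-- Whether a truncated tree reaches its full depth, as a number. -/
def surv : {n : ℕ} → DTree n → ℝ
  | _, DTree.leaf => 1
  | _, DTree.node k child => 1 - ∏ c : Fin k, (1 - surv (child c))

theorem surv_values {n : ℕ} (T : DTree n) : surv T = 0 ∨ surv T = 1 := by
  induction T with
  | leaf => right; rfl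
  | node k child ih =>
    simp only [surv]
    by_cases h : ∀ c, surv (child c) = 0
    · left
      simp [h]
    · right
      push Not at h
      obtain ⟨c, hc⟩ := h
      have hc1 : surv (child c) = 1 := (ih c).resolve_left hc
      have : ∏ c : Fin k, (1 - surv (child c)) = 0 :=
        Finset.prod_eq_zero (Finset.mem_univ c) (by rw [hc1]; norm_num)
      rw [this]; norm_num

theorem abs_surv_le {n : ℕ} (T : DTree n) : |surv T| ≤ 1 := by
  rcases surv_values T with h | h <;> rw [h] <;> norm_num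

theorem abs_one_sub_surv_le {n : ℕ} (T : DTree n) : |1 - surv T| ≤ 1 := by
  rcases surv_values T with h | h <;> rw [h] <;> norm_num

/-- If no vertex of depth `n` exists then the spins do not depend on the spin of the root. -/
theorem lik_indep (lam : ℝ) {n : ℕ} (T : DTree n) :
    surv T = 0 → ∀ τ i i', DTree.lik 3 lam T i τ = DTree.lik 3 lam T i' τ := by
  induction T with
  | leaf =>
    intro h
    have : surv DTree.leaf = 1 := rfl
    rw [this] at h
    norm_num at h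
  | node k child ih =>
    intro h τ i i'
    simp only [surv] at h
    have hall : ∀ c, surv (child c) = 0 := by
      intro c
      by_contra hc
      have hc1 : surv (child c) = 1 := (surv_values _).resolve_left hc
      have : ∏ c : Fin k, (1 - surv (child c)) = 0 :=
        Finset.prod_eq_zero (Finset.mem_univ c) (by rw [hc1]; norm_num)
      rw [this] at h
      norm_num at h
    simp only [DTree.lik]
    refine Finset.prod_congr rfl fun c _ => ?_
    have e : ∀ i₁ : Fin 3, ∑ j, pottsChannel 3 lam i₁ j * DTree.lik 3 lam (child c) j (τ c)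
        = DTree.lik 3 lam (child c) 0 (τ c) := by
      intro i₁
      have : ∀ j, pottsChannel 3 lam i₁ j * DTree.lik 3 lam (child c) j (τ c)
          = pottsChannel 3 lam i₁ j * DTree.lik 3 lam (child c) 0 (τ c) := by
        intro j
        rw [ih c (hall c) (τ c) j 0]
      simp only [this]
      rw [← Finset.sum_mul, channel_sum, one_mul]
    rw [e, e]

theorem treeA_eq_zero (lam : ℝ) {n : ℕ} (T : DTree n) (h : surv T = 0) : T.treeA 3 lam = 0 := by
  unfold DTree.treeA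
  refine Finset.sum_eq_zero fun τ _ => ?_
  have hP : DTree.spinProb 3 lam T τ = DTree.lik 3 lam T 0 τ := by
    unfold DTree.spinProb
    have : ∀ i, (1 / ((3 : ℕ) : ℝ)) * DTree.lik 3 lam T i τ
        = (1 / ((3 : ℕ) : ℝ)) * DTree.lik 3 lam T 0 τ := by
      intro i
      rw [lik_indep lam T h τ i 0]
    simp only [this]
    simp
  by_cases hz : DTree.lik 3 lam T 0 τ = 0
  · rw [hP, hz, zero_mul]
  · have : ∀ i : Fin 3, |(1 / ((3 : ℕ) : ℝ)) * DTree.lik 3 lam T i τ / DTree.spinProb 3 lam T τ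
        - 1 / ((3 : ℕ) : ℝ)| = 0 := by
      intro i
      rw [lik_indep lam T h τ i 0, hP]
      field_simp
      simp
    have hs : ∑ i : Fin 3, |(1 / ((3 : ℕ) : ℝ)) * DTree.lik 3 lam T i τ
        / DTree.spinProb 3 lam T τ - 1 / ((3 : ℕ) : ℝ)| = 0 :=
      Finset.sum_eq_zero fun i _ => this i
    rw [hs]
    simp

theorem treeA_le_surv {lam : ℝ} (h0 : 0 ≤ lam) (h1 : lam ≤ 1) {n : ℕ} (T : DTree n) :
    T.treeA 3 lam ≤ surv T := by
  rcases surv_values T with h | h
  · rw [treeA_eq_zero lam T h, h]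
  · rw [h]; exact treeA_le_one h0 h1 T

/-- The survival probability. -/
def sbar (w : ℕ → ℝ) (n : ℕ) : ℝ := E1 (fun T : DTree n => T.prob w) surv

theorem sbar_nonneg {w : ℕ → ℝ} (hw0 : ∀ k, 0 ≤ w k) (n : ℕ) : 0 ≤ sbar w n :=
  tsum_nonneg fun T => mul_nonneg (prob_nonneg hw0 T)
    (by rcases surv_values T with h | h <;> rw [h] <;> norm_num)

theorem sbar_le_one {w : ℕ → ℝ} (hw0 : ∀ k, 0 ≤ w k) (hw : HasSum w 1) (n : ℕ) : sbar w n ≤ 1 :=
  (le_abs_self _).trans (abs_E1_le (prob_nonneg hw0) (prob_hasSum hw0 hw n) abs_surv_le)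

/-- The recursion for the survival probability. -/
theorem sbar_succ {w : ℕ → ℝ} (hw0 : ∀ k, 0 ≤ w k) (hw : HasSum w 1) (n : ℕ) :
    sbar w (n + 1) = ∑' k, w k * (1 - (1 - sbar w n) ^ k) := by
  have hp := prob_hasSum hw0 hw n
  have hp0 : ∀ T : DTree n, 0 ≤ T.prob w := prob_nonneg hw0
  have hE := E1_succ hw0 hw (n := n) (F := surv) abs_surv_le
  unfold sbar at *
  rw [hE]
  refine tsum_congr fun k => ?_
  congr 1
  have e1 : (fun t : Fin k → DTree n => surv (DTree.node k t))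
      = fun t => 1 + (-1) * ∏ c, (1 - surv (t c)) := by
    funext t
    simp only [surv]
    ring
  have hb : ∀ t : Fin k → DTree n, |∏ c, (1 - surv (t c))| ≤ 1 := by
    intro t
    rw [Finset.abs_prod]
    exact Finset.prod_le_one (fun c _ => abs_nonneg _) (fun c _ => abs_one_sub_surv_le _)
  have hb2 : ∀ t : Fin k → DTree n, |(-1 : ℝ) * ∏ c, (1 - surv (t c))| ≤ 1 := by
    intro t
    rw [abs_mul]
    simpa using hb t
  rw [e1, Ek_add hp0 hp k (g := fun _ => 1) (C := 1) (D := 1) (by simp) hb2, Ek_const hp0 hp,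
    Ek_const_mul, Ek_prod hp0 hp abs_one_sub_surv_le]
  have e2 : E1 (fun T : DTree n => T.prob w) (fun T => 1 - surv T)
      = 1 - E1 (fun T : DTree n => T.prob w) surv := by
    have : (fun T : DTree n => 1 - surv T) = fun T => 1 + (-1) * surv T := by
      funext T; ring
    rw [this, E1_add hp0 hp (g := fun _ => 1) (C := 1) (D := 1) (by simp)
      (fun T => by rw [abs_mul]; simpa using abs_surv_le T), E1_const hp, E1_const_mul]
    ring
  rw [e2]
  ring

/-- The elementary bound on the exponential used for critical branching. -/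
theorem exp_neg_ge {x : ℝ} (h0 : 0 ≤ x) (h1 : x ≤ 1) : 1 - x + x ^ 3 / 3 ≤ Real.exp (-x) := by
  have h := Real.abs_exp_sub_one_sub_id_le (x := x) (by rw [abs_of_nonneg h0]; exact h1)
  have h2 : Real.exp x ≤ 1 + x + x ^ 2 := by
    have := (abs_le.1 h).2
    linarith
  have hpos : 0 < Real.exp x := Real.exp_pos x
  rw [Real.exp_neg, ← one_div, le_div_iff₀ hpos]
  have hq : 0 ≤ 1 - x + x ^ 3 / 3 := by
    have : 0 ≤ x ^ 3 := by positivity
    linarith
  calc (1 - x + x ^ 3 / 3) * Real.exp x ≤ (1 - x + x ^ 3 / 3) * (1 + x + x ^ 2) :=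
        mul_le_mul_of_nonneg_left h2 hq
    _ ≤ 1 := by
        have e : (1 - x + x ^ 3 / 3) * (1 + x + x ^ 2)
            = 1 - x ^ 3 * (2 / 3 - x / 3 - x ^ 2 / 3) := by ring
        rw [e]
        have : 0 ≤ x ^ 3 * (2 / 3 - x / 3 - x ^ 2 / 3) := by
          have h3 : x ^ 2 ≤ 1 := by nlinarith
          have : 0 ≤ 2 / 3 - x / 3 - x ^ 2 / 3 := by linarith
          positivity
        linarith

/-- The Poisson law has total mass one. -/
theorem poisson_hasSum (d : ℝ) : HasSum (poissonWeight d) 1 := by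
  have h := (NormedSpace.expSeries_div_hasSum_exp (d : ℝ)).mul_left (Real.exp (-d))
  rw [← Real.exp_eq_exp_ℝ, ← Real.exp_add, neg_add_cancel, Real.exp_zero] at h
  have e : poissonWeight d = fun i : ℕ => Real.exp (-d) * (d ^ i / (i.factorial : ℝ)) := by
    funext k
    unfold poissonWeight
    ring
  rw [e]
  exact h

theorem poisson_nonneg {d : ℝ} (hd : 0 ≤ d) (k : ℕ) : 0 ≤ poissonWeight d k := by
  unfold poissonWeight
  positivity

/-- The mean of the Poisson law. -/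
theorem poisson_mean (d : ℝ) : HasSum (fun k : ℕ => (k : ℝ) * poissonWeight d k) d := by
  have h := (poisson_hasSum d).mul_left d
  rw [mul_one] at h
  have key : HasSum (fun n : ℕ => ((n + 1 : ℕ) : ℝ) * poissonWeight d (n + 1)) d := by
    have e : (fun n : ℕ => ((n + 1 : ℕ) : ℝ) * poissonWeight d (n + 1))
        = fun n : ℕ => d * poissonWeight d n := by
      funext n
      unfold poissonWeight
      rw [Nat.factorial_succ]
      push_cast
      field_simp
      ring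
    rw [e]
    exact h
  have := (hasSum_nat_add_iff (f := fun k : ℕ => (k : ℝ) * poissonWeight d k) (g := d) 1).1 key
  simpa using this

/-- The generating function of the Poisson law. -/
theorem poisson_gen (d x : ℝ) :
    HasSum (fun k : ℕ => poissonWeight d k * x ^ k) (Real.exp (-d) * Real.exp (d * x)) := by
  have h := (NormedSpace.expSeries_div_hasSum_exp (d * x : ℝ)).mul_left (Real.exp (-d))
  rw [← Real.exp_eq_exp_ℝ] at h
  have e : (fun k : ℕ => poissonWeight d k * x ^ k)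
      = fun i : ℕ => Real.exp (-d) * ((d * x) ^ i / (i.factorial : ℝ)) := by
    funext k
    unfold poissonWeight
    rw [mul_pow]
    ring
  rw [e]
  exact h

/-- The recursion for the survival probability of the Poisson tree. -/
theorem sbar_poisson {d : ℝ} (hd : 0 ≤ d) (n : ℕ) :
    sbar (poissonWeight d) (n + 1) = 1 - Real.exp (-(d * sbar (poissonWeight d) n)) := by
  rw [sbar_succ (poisson_nonneg hd) (poisson_hasSum d) n]
  obtain ⟨s, hs⟩ : ∃ s, s = sbar (poissonWeight d) n := ⟨_, rfl⟩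
  rw [← hs]
  have h1 := (poisson_hasSum d).sub (poisson_gen d (1 - s))
  have e : (fun k : ℕ => poissonWeight d k * (1 - (1 - s) ^ k))
      = fun k : ℕ => poissonWeight d k - poissonWeight d k * (1 - s) ^ k := by
    funext k; ring
  rw [e, h1.tsum_eq, ← Real.exp_add]
  congr 2
  ring

/-- A Poisson tree of mean at most one dies out, hence no information survives. -/
theorem gw_extinct {d : ℝ} (hd : 0 ≤ d) (hd1 : d ≤ 1) {lam : ℝ} (h0 : 0 ≤ lam) (h1 : lam ≤ 1) :
    Tendsto (gwA 3 (poissonWeight d) lam) atTop (𝓝 0) := by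
  have hw0 := poisson_nonneg hd
  have hw := poisson_hasSum d
  have hs0 := sbar_nonneg hw0
  have hs1 := sbar_le_one hw0 hw
  have hlim : Tendsto (sbar (poissonWeight d)) atTop (𝓝 0) := by
    refine tendsto_zero_of_cubic (c := 1 / 3) (by norm_num) hs0 (fun n => ?_)
    rw [sbar_poisson hd]
    obtain ⟨s, hs⟩ : ∃ s, s = sbar (poissonWeight d) n := ⟨_, rfl⟩
    rw [← hs]
    have h2 : 0 ≤ s := by rw [hs]; exact hs0 n
    have h3 : s ≤ 1 := by rw [hs]; exact hs1 n
    have h4 := exp_neg_ge h2 h3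
    have h5 : Real.exp (-s) ≤ Real.exp (-(d * s)) := by
      apply Real.exp_le_exp.2
      nlinarith
    have e : 1 / 3 * s ^ 3 = s ^ 3 / 3 := by ring
    rw [e]
    linarith
  refine squeeze_zero (fun n => ?_) (fun n => ?_) hlim
  · exact tsum_nonneg fun T => mul_nonneg (prob_nonneg hw0 T)
      (treeA_nonneg h0 h1 T (lik_nonneg h0 h1 T))
  · refine E1_mono (prob_nonneg hw0) (prob_hasSum hw0 hw n) (abs_treeA_le h0 h1) abs_surv_le
      (fun T => treeA_le_surv h0 h1 T)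

/-- Nonreconstruction on the Poisson Galton-Watson tree for the three-state ferromagnetic channel. -/
theorem gw_poisson {d : ℝ} (hd : 0 < d) {lam : ℝ} (h0 : 0 ≤ lam) (h1 : lam ≤ 1)
    (hlam : d * lam ^ 2 ≤ 1) :
    (∀ n, Summable fun T : DTree n => T.prob (poissonWeight d) * T.treeA 3 lam)
      ∧ Tendsto (gwA 3 (poissonWeight d) lam) atTop (𝓝 0) := by
  refine ⟨gwA_summable (poisson_nonneg hd.le) (poisson_hasSum d) h0 h1, ?_⟩
  rcases eq_or_lt_of_le h1 with h2 | h2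
  · subst h2
    exact gw_extinct hd.le (by simpa using hlam) h0 h1
  · refine gw_main (poisson_nonneg hd.le) (poisson_hasSum d) (poisson_mean d) 0 ?_ h0 h2 hlam
    unfold poissonWeight
    positivity

end

end Vale.Agent.P154
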