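import Vale.Agent.P154.Core

/-!
Pointwise inequalities for likelihood triples in the three-state Potts channel.
-/

namespace Vale.Agent.P154

noncomputable section

/-- Scaled second moment of a likelihood triple. -/
def yy (x y z : ℝ) : ℝ := (x + y + z) / 3 - (x * y + y * z + z * x) / (x + y + z)

/-- Harmonic mean of a likelihood triple. -/
def mm (x y z : ℝ) : ℝ := 3 * (x * y * z) / (x * y + y * z + z * x)

/-- The class function. -/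
def hh (x y z : ℝ) : ℝ := mm x y z - (x + y + z) / 3 + 2 * yy x y z

/-- Sum over the six permutations of the second triple. -/
def sym6 (f : ℝ → ℝ → ℝ → ℝ) (a1 a2 a3 b1 b2 b3 : ℝ) : ℝ :=
  f (a1 * b1) (a2 * b2) (a3 * b3) + f (a1 * b2) (a2 * b3) (a3 * b1)
    + f (a1 * b3) (a2 * b1) (a3 * b2) + f (a1 * b1) (a2 * b3) (a3 * b2)
    + f (a1 * b3) (a2 * b2) (a3 * b1) + f (a1 * b2) (a2 * b1) (a3 * b3)

theorem yy_smul {c x y z : ℝ} (hc : 0 < c) (hx : 0 < x) (hy : 0 < y) (hz : 0 < z) :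
    yy (c * x) (c * y) (c * z) = c * yy x y z := by
  unfold yy
  field_simp

theorem mm_smul {c x y z : ℝ} (hc : 0 < c) (hx : 0 < x) (hy : 0 < y) (hz : 0 < z) :
    mm (c * x) (c * y) (c * z) = c * mm x y z := by
  unfold mm
  field_simp

theorem hh_smul {c x y z : ℝ} (hc : 0 < c) (hx : 0 < x) (hy : 0 < y) (hz : 0 < z) :
    hh (c * x) (c * y) (c * z) = c * hh x y z := by
  unfold hh
  rw [mm_smul hc hx hy hz, yy_smul hc hx hy hz]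
  ring

theorem mm_nonneg {x y z : ℝ} (hx : 0 < x) (hy : 0 < y) (hz : 0 < z) : 0 ≤ mm x y z := by
  unfold mm; positivity

theorem yy_nonneg {x y z : ℝ} (hx : 0 < x) (hy : 0 < y) (hz : 0 < z) : 0 ≤ yy x y z := by
  unfold yy
  have hs : 0 < x + y + z := by positivity
  rw [sub_nonneg, div_le_div_iff₀ hs (by norm_num)]
  nlinarith [sq_nonneg (x - y), sq_nonneg (y - z), sq_nonneg (z - x)]

/-- Normalised triples: value of `yy`. -/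
theorem yy_norm {x y z : ℝ} (hs : x + y + z = 3) :
    yy x y z = 1 - (x * y + y * z + z * x) / 3 := by
  unfold yy; rw [hs]; norm_num

theorem exists_param {v1 v2 v3 a : ℝ} (h1 : 0 < v1) (h2 : 0 < v2) (h3 : 0 < v3)
    (hs : v1 + v2 + v3 = 3) (ha : a = (v1 * v2 + v2 * v3 + v3 * v1) / 3) :
    0 < a ∧ a ≤ 1 ∧ ∃ p : ℝ, v1 * v2 * v3 = a * (1 - 2 * (1 - a) * p)
      ∧ a * p ^ 2 ≤ 2 * p - 1 ∧ 2 * (1 - a) * p ≤ 1 := by
  have ha0 : 0 < a := by rw [ha]; positivity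
  have hv3 : v3 = 3 - v1 - v2 := by linarith
  have ha1 : a ≤ 1 := by
    rw [ha, hv3]
    nlinarith [sq_nonneg (v1 - 1), sq_nonneg (v2 - 1), sq_nonneg (v1 + v2 - 2)]
  refine ⟨ha0, ha1, ?_⟩
  obtain ⟨A, hA⟩ : ∃ A, A = 1 - a := ⟨_, rfl⟩
  obtain ⟨R, hR⟩ : ∃ R, R = (v1 * v2 * v3 - 1 + 3 * A) / 2 := ⟨_, rfl⟩
  have hA0 : 0 ≤ A := by rw [hA]; linarith
  have hRA : A ^ 3 - R ^ 2 = (1 / 108) * ((v1 - v2) * (v2 - v3) * (v3 - v1)) ^ 2 := by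
    rw [hR, hA, ha, hv3]
    ring
  have hRA' : R ^ 2 ≤ A ^ 3 := by
    have : 0 ≤ (1 / 108) * ((v1 - v2) * (v2 - v3) * (v3 - v1)) ^ 2 := by positivity
    linarith
  have hpsi : v1 * v2 * v3 = 1 - 3 * A + 2 * R := by rw [hR]; ring
  have hpsi0 : 0 < v1 * v2 * v3 := by positivity
  rcases eq_or_lt_of_le hA0 with hA00 | hA00
  · -- center
    refine ⟨1, ?_, ?_, ?_⟩
    · have hR0 : R = 0 := by
        have : R ^ 2 ≤ 0 := by rw [← hA00] at hRA'; simpa using hRA'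
        nlinarith [sq_nonneg R]
      have ha' : a = 1 := by linarith
      rw [hpsi, hR0, ← hA00, ha']; norm_num
    · have ha' : a = 1 := by linarith
      rw [ha']; norm_num
    · have ha' : a = 1 := by linarith
      rw [ha']; norm_num
  · obtain ⟨x, hx⟩ : ∃ x, x = R / A := ⟨_, rfl⟩
    have hRx : R = A * x := by rw [hx]; field_simp
    have hx2 : x ^ 2 ≤ A := by
      have : A ^ 2 * x ^ 2 ≤ A ^ 2 * A := by
        have e1 : R ^ 2 = A ^ 2 * x ^ 2 := by rw [hRx]; ring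
        have e2 : A ^ 3 = A ^ 2 * A := by ring
        linarith
      exact le_of_mul_le_mul_left this (by positivity)
    refine ⟨(1 - x) / a, ?_, ?_, ?_⟩
    · rw [hpsi, hRx, hA]
      field_simp
      rw [hA] at *
      ring
    · have e : a * ((1 - x) / a) ^ 2 = (1 - x) ^ 2 / a := by
        field_simp
      rw [e, div_le_iff₀ ha0]
      have e3 : (2 * ((1 - x) / a) - 1) * a = 2 * (1 - x) - a := by
        field_simp
      rw [e3]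
      nlinarith
    · have hk : v1 * v2 * v3 = a * (1 - 2 * (1 - a) * ((1 - x) / a)) := by
        rw [hpsi, hRx, hA]
        field_simp
        rw [hA] at *
        ring
      have : 0 ≤ 1 - 2 * (1 - a) * ((1 - x) / a) := by
        by_contra h
        push Not at h
        have : a * (1 - 2 * (1 - a) * ((1 - x) / a)) < 0 := mul_neg_of_pos_of_neg ha0 h
        linarith
      linarith

/-- Sum of six fractions with cyclic numerators. -/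
theorem sum6_bound {Z0 Z1 Z2 Z3 Z4 Z5 W0 W1 W2 W3 W4 W5 N D : ℝ}
    (h0 : 0 < Z0) (h1 : 0 < Z1) (h2 : 0 < Z2) (h3 : 0 < Z3) (h4 : 0 < Z4) (h5 : 0 < Z5)
    (hc1 : W0 * Z1 * Z2 + W1 * Z2 * Z0 + W2 * Z0 * Z1 = 3 * N)
    (hc2 : W3 * Z4 * Z5 + W4 * Z5 * Z3 + W5 * Z3 * Z4 = 3 * N)
    (hD : Z0 * Z1 * Z2 + Z3 * Z4 * Z5 = 2 * D) (hN : 0 ≤ N) :
    6 * N / D ≤ W0 / Z0 + W1 / Z1 + W2 / Z2 + W3 / Z3 + W4 / Z4 + W5 / Z5 := by
  have hP : 0 < Z0 * Z1 * Z2 := by positivity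
  have hQ : 0 < Z3 * Z4 * Z5 := by positivity
  obtain ⟨P, hPd⟩ : ∃ P, P = Z0 * Z1 * Z2 := ⟨_, rfl⟩
  obtain ⟨Q, hQd⟩ : ∃ Q, Q = Z3 * Z4 * Z5 := ⟨_, rfl⟩
  have e1 : W0 / Z0 + W1 / Z1 + W2 / Z2 = 3 * N / P := by
    rw [← hc1, hPd]; field_simp
  have e2 : W3 / Z3 + W4 / Z4 + W5 / Z5 = 3 * N / Q := by
    rw [← hc2, hQd]; field_simp
  rw [← hPd] at hP hD
  rw [← hQd] at hQ hD
  have hD0 : 0 < D := by linarith
  have e3 : W0 / Z0 + W1 / Z1 + W2 / Z2 + W3 / Z3 + W4 / Z4 + W5 / Z5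
      = 3 * N / P + 3 * N / Q := by rw [← e1, ← e2]; ring
  rw [e3]
  have hDe : D = (P + Q) / 2 := by linarith
  rw [hDe]
  have key : 6 * N / ((P + Q) / 2) ≤ 3 * N / P + 3 * N / Q := by
    have : 3 * N / P + 3 * N / Q - 6 * N / ((P + Q) / 2)
        = 3 * N * (P - Q) ^ 2 / (P * Q * (P + Q)) := by
      field_simp
      ring
    have h' : 0 ≤ 3 * N * (P - Q) ^ 2 / (P * Q * (P + Q)) := by positivity
    linarith
  exact key

/-- First cyclic identity. -/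
theorem id_cyc1 {v1 v2 v3 w1 w2 w3 : ℝ} (hv : v3 = 3 - v1 - v2) (hw : w3 = 3 - w1 - w2) :
    ((v1 * w1) * (v2 * w2) + (v2 * w2) * (v3 * w3) + (v3 * w3) * (v1 * w1)) / 3
        * ((v1 * w2 + v2 * w3 + v3 * w1) / 3) * ((v1 * w3 + v2 * w1 + v3 * w2) / 3)
      + ((v1 * w2) * (v2 * w3) + (v2 * w3) * (v3 * w1) + (v3 * w1) * (v1 * w2)) / 3
        * ((v1 * w3 + v2 * w1 + v3 * w2) / 3) * ((v1 * w1 + v2 * w2 + v3 * w3) / 3)
      + ((v1 * w3) * (v2 * w1) + (v2 * w1) * (v3 * w2) + (v3 * w2) * (v1 * w3)) / 3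
        * ((v1 * w1 + v2 * w2 + v3 * w3) / 3) * ((v1 * w2 + v2 * w3 + v3 * w1) / 3)
      = 3 * (((v1 * v2 + v2 * v3 + v3 * v1) / 3) ^ 2 * ((w1 * w2 + w2 * w3 + w3 * w1) / 3) ^ 2
        + ((w1 * w2 + w2 * w3 + w3 * w1) / 3) * (1 - (w1 * w2 + w2 * w3 + w3 * w1) / 3)
            * (v1 * v2 * v3)
        + ((v1 * v2 + v2 * v3 + v3 * v1) / 3) * (1 - (v1 * v2 + v2 * v3 + v3 * v1) / 3)
            * (w1 * w2 * w3)) := by
  subst hv hw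
  ring

/-- The denominators add up to a symmetric expression. -/
theorem id_den {v1 v2 v3 w1 w2 w3 : ℝ} (hv : v3 = 3 - v1 - v2) (hw : w3 = 3 - w1 - w2) :
    ((v1 * w1 + v2 * w2 + v3 * w3) / 3) * ((v1 * w2 + v2 * w3 + v3 * w1) / 3)
        * ((v1 * w3 + v2 * w1 + v3 * w2) / 3)
      + ((v1 * w1 + v2 * w3 + v3 * w2) / 3) * ((v1 * w3 + v2 * w2 + v3 * w1) / 3)
        * ((v1 * w2 + v2 * w1 + v3 * w3) / 3)
      = 2 * (1 - 3 * (1 - (v1 * v2 + v2 * v3 + v3 * v1) / 3) * (1 - (w1 * w2 + w2 * w3 + w3 * w1) / 3)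
        + 2 * ((v1 * v2 * v3 - 1 + 3 * (1 - (v1 * v2 + v2 * v3 + v3 * v1) / 3)) / 2)
          * ((w1 * w2 * w3 - 1 + 3 * (1 - (w1 * w2 + w2 * w3 + w3 * w1) / 3)) / 2)) := by
  subst hv hw
  ring

/-- The expression of the numerator and the denominator in the parameters, and the main inequality. -/
theorem main_param {a b p p' P1 P2 : ℝ} (ha0 : 0 < a) (ha1 : a ≤ 1) (hb0 : 0 < b) (hb1 : b ≤ 1)
    (hp : P1 = a * (1 - 2 * (1 - a) * p)) (hp' : P2 = b * (1 - 2 * (1 - b) * p'))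
    (hpC : a * p ^ 2 ≤ 2 * p - 1) (hpC' : b * p' ^ 2 ≤ 2 * p' - 1)
    (hpU : 2 * (1 - a) * p ≤ 1) (hpU' : 2 * (1 - b) * p' ≤ 1) :
    (a * b + (1 - a) * (1 - b) * (1 - p - p'))
        * (1 - 3 * (1 - a) * (1 - b) + 2 * ((P1 - 1 + 3 * (1 - a)) / 2) * ((P2 - 1 + 3 * (1 - b)) / 2))
      ≤ a ^ 2 * b ^ 2 + b * (1 - b) * P1 + a * (1 - a) * P2 := by
  have hXi := core_Xi ha0 ha1 hb0 hb1 hpC hpC' hpU hpU'
  subst hp hp'
  have hid : a ^ 2 * b ^ 2 + b * (1 - b) * (a * (1 - 2 * (1 - a) * p))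
        + a * (1 - a) * (b * (1 - 2 * (1 - b) * p'))
      - (a * b + (1 - a) * (1 - b) * (1 - p - p'))
        * (1 - 3 * (1 - a) * (1 - b) + 2 * ((a * (1 - 2 * (1 - a) * p) - 1 + 3 * (1 - a)) / 2)
            * ((b * (1 - 2 * (1 - b) * p') - 1 + 3 * (1 - b)) / 2))
      = (1 - a) * (1 - b) * ((p + p' - 1) * (1 - 3 * (1 - a) * (1 - b)
          + 2 * (1 - a) * (1 - b) * ((1 - a * p) * (1 - b * p')))
        + 2 * a * b * (2 - p - p' - (1 - a * p) * (1 - b * p'))) := by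
    ring
  have h1 : 0 ≤ 1 - b := by linarith
  have h2 : 0 ≤ 1 - a := by linarith
  have : 0 ≤ (1 - a) * (1 - b) * ((p + p' - 1) * (1 - 3 * (1 - a) * (1 - b)
          + 2 * (1 - a) * (1 - b) * ((1 - a * p) * (1 - b * p')))
        + 2 * a * b * (2 - p - p' - (1 - a * p) * (1 - b * p'))) := by positivity
  linarith

/-- Value of `yy` as `Z - W / Z`. -/
theorem yy_eq_ZW {x y z Z W : ℝ} (hZ : 0 < Z) (h1 : Z = (x + y + z) / 3)
    (h2 : W = (x * y + y * z + z * x) / 3) : yy x y z = Z - W / Z := by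
  unfold yy
  have hs : x + y + z = 3 * Z := by rw [h1]; ring
  have he : x * y + y * z + z * x = 3 * W := by rw [h2]; ring
  rw [hs, he]
  have : (3 * Z) / 3 = Z := by ring
  rw [this]
  field_simp

/-- The six `Z` add up to six. -/
theorem id_Zsum {v1 v2 v3 w1 w2 w3 : ℝ} (hv : v1 + v2 + v3 = 3) (hw : w1 + w2 + w3 = 3) :
    (v1 * w1 + v2 * w2 + v3 * w3) / 3 + (v1 * w2 + v2 * w3 + v3 * w1) / 3
      + (v1 * w3 + v2 * w1 + v3 * w2) / 3 + (v1 * w1 + v2 * w3 + v3 * w2) / 3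
      + (v1 * w3 + v2 * w2 + v3 * w1) / 3 + (v1 * w2 + v2 * w1 + v3 * w3) / 3 = 6 := by
  have hv3' : v3 = 3 - v1 - v2 := by linarith
  have hw3' : w3 = 3 - w1 - w2 := by linarith
  subst hv3' hw3'
  ring

/-- Abstract assembling step for the subadditivity inequality. -/
theorem F1_abstract {Z0 Z1 Z2 Z3 Z4 Z5 W0 W1 W2 W3 W4 W5 N D a b p p' : ℝ}
    (pZ0 : 0 < Z0) (pZ1 : 0 < Z1) (pZ2 : 0 < Z2) (pZ3 : 0 < Z3) (pZ4 : 0 < Z4) (pZ5 : 0 < Z5)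
    (hc1 : W0 * Z1 * Z2 + W1 * Z2 * Z0 + W2 * Z0 * Z1 = 3 * N)
    (hc2 : W3 * Z4 * Z5 + W4 * Z5 * Z3 + W5 * Z3 * Z4 = 3 * N)
    (hDD : Z0 * Z1 * Z2 + Z3 * Z4 * Z5 = 2 * D) (hZsum : Z0 + Z1 + Z2 + Z3 + Z4 + Z5 = 6)
    (hN0 : 0 ≤ N) (hmain : (a * b + (1 - a) * (1 - b) * (1 - p - p')) * D ≤ N) :
    ((Z0 + Z1 + Z2 + Z3 + Z4 + Z5)
        - (W0 / Z0 + W1 / Z1 + W2 / Z2 + W3 / Z3 + W4 / Z4 + W5 / Z5)) / 6
      ≤ 1 - a + (1 - b) - (1 / 2) * ((1 - b) * (2 * (1 - a) * (1 - p))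
        + (1 - a) * (2 * (1 - b) * (1 - p'))) := by
  have hD0 : 0 < D := by
    have : 0 < Z0 * Z1 * Z2 + Z3 * Z4 * Z5 := by positivity
    linarith
  have hsum := sum6_bound pZ0 pZ1 pZ2 pZ3 pZ4 pZ5 hc1 hc2 hDD hN0
  have hfr : a * b + (1 - a) * (1 - b) * (1 - p - p') ≤ N / D := by
    rw [le_div_iff₀ hD0]; exact hmain
  have h6 : 6 * N / D = 6 * (N / D) := by ring
  rw [h6] at hsum
  rw [hZsum]
  have e : 1 - a + (1 - b) - (1 / 2) * ((1 - b) * (2 * (1 - a) * (1 - p))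
        + (1 - a) * (2 * (1 - b) * (1 - p'))) = 1 - (a * b + (1 - a) * (1 - b) * (1 - p - p')) := by
    ring
  rw [e]
  linarith

/-- Value of the six-fold sum of `yy` through `Z` and `W`. -/
theorem sym6_yy_eq {v1 v2 v3 w1 w2 w3 : ℝ} (hv1 : 0 < v1) (hv2 : 0 < v2) (hv3 : 0 < v3)
    (hw1 : 0 < w1) (hw2 : 0 < w2) (hw3 : 0 < w3) :
    sym6 yy v1 v2 v3 w1 w2 w3
      = (((v1 * w1 + v2 * w2 + v3 * w3) / 3) + ((v1 * w2 + v2 * w3 + v3 * w1) / 3)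
          + ((v1 * w3 + v2 * w1 + v3 * w2) / 3) + ((v1 * w1 + v2 * w3 + v3 * w2) / 3)
          + ((v1 * w3 + v2 * w2 + v3 * w1) / 3) + ((v1 * w2 + v2 * w1 + v3 * w3) / 3))
        - (((v1 * w1) * (v2 * w2) + (v2 * w2) * (v3 * w3) + (v3 * w3) * (v1 * w1)) / 3
              / ((v1 * w1 + v2 * w2 + v3 * w3) / 3)
          + ((v1 * w2) * (v2 * w3) + (v2 * w3) * (v3 * w1) + (v3 * w1) * (v1 * w2)) / 3
              / ((v1 * w2 + v2 * w3 + v3 * w1) / 3)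
          + ((v1 * w3) * (v2 * w1) + (v2 * w1) * (v3 * w2) + (v3 * w2) * (v1 * w3)) / 3
              / ((v1 * w3 + v2 * w1 + v3 * w2) / 3)
          + ((v1 * w1) * (v2 * w3) + (v2 * w3) * (v3 * w2) + (v3 * w2) * (v1 * w1)) / 3
              / ((v1 * w1 + v2 * w3 + v3 * w2) / 3)
          + ((v1 * w3) * (v2 * w2) + (v2 * w2) * (v3 * w1) + (v3 * w1) * (v1 * w3)) / 3
              / ((v1 * w3 + v2 * w2 + v3 * w1) / 3)
          + ((v1 * w2) * (v2 * w1) + (v2 * w1) * (v3 * w3) + (v3 * w3) * (v1 * w2)) / 3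
              / ((v1 * w2 + v2 * w1 + v3 * w3) / 3)) := by
  unfold sym6
  rw [yy_eq_ZW (by positivity) rfl rfl, yy_eq_ZW (by positivity) rfl rfl,
    yy_eq_ZW (by positivity) rfl rfl, yy_eq_ZW (by positivity) rfl rfl,
    yy_eq_ZW (by positivity) rfl rfl, yy_eq_ZW (by positivity) rfl rfl]
  ring

/-- The normalised form of the subadditivity inequality. -/
theorem F1_norm {v1 v2 v3 w1 w2 w3 : ℝ} (hv1 : 0 < v1) (hv2 : 0 < v2) (hv3 : 0 < v3)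
    (hw1 : 0 < w1) (hw2 : 0 < w2) (hw3 : 0 < w3) (hv : v1 + v2 + v3 = 3) (hw : w1 + w2 + w3 = 3) :
    sym6 yy v1 v2 v3 w1 w2 w3 / 6 ≤ yy v1 v2 v3 + yy w1 w2 w3
      - (1 / 2) * (yy w1 w2 w3 * hh v1 v2 v3 + yy v1 v2 v3 * hh w1 w2 w3) := by
  obtain ⟨a, ha⟩ : ∃ a, a = (v1 * v2 + v2 * v3 + v3 * v1) / 3 := ⟨_, rfl⟩
  obtain ⟨b, hb⟩ : ∃ b, b = (w1 * w2 + w2 * w3 + w3 * w1) / 3 := ⟨_, rfl⟩
  obtain ⟨ha0, ha1, p, hp, hpC, hpU⟩ := exists_param hv1 hv2 hv3 hv ha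
  obtain ⟨hb0, hb1, p', hp', hpC', hpU'⟩ := exists_param hw1 hw2 hw3 hw hb
  -- values of the forms
  have yv : yy v1 v2 v3 = 1 - a := by rw [yy_norm hv, ha]
  have yw : yy w1 w2 w3 = 1 - b := by rw [yy_norm hw, hb]
  have mv : mm v1 v2 v3 = 1 - 2 * (1 - a) * p := by
    unfold mm
    have : v1 * v2 + v2 * v3 + v3 * v1 = 3 * a := by rw [ha]; ring
    rw [this, hp]
    field_simp
  have mw : mm w1 w2 w3 = 1 - 2 * (1 - b) * p' := by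
    unfold mm
    have : w1 * w2 + w2 * w3 + w3 * w1 = 3 * b := by rw [hb]; ring
    rw [this, hp']
    field_simp
  have hv_ : hh v1 v2 v3 = 2 * (1 - a) * (1 - p) := by
    unfold hh; rw [mv, yv, hv]; ring
  have hw_ : hh w1 w2 w3 = 2 * (1 - b) * (1 - p') := by
    unfold hh; rw [mw, yw, hw]; ring
  rw [yv, yw, hv_, hw_, sym6_yy_eq hv1 hv2 hv3 hw1 hw2 hw3]
  have hv3' : v3 = 3 - v1 - v2 := by linarith
  have hw3' : w3 = 3 - w1 - w2 := by linarith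
  have hc1 := id_cyc1 hv3' hw3'
  have hDD := id_den hv3' hw3'
  have hZsum := id_Zsum hv hw
  have hc2 := id_cyc1 (v1 := v1) (v2 := v2) (v3 := v3) (w1 := w1) (w2 := w3) (w3 := w2) hv3'
    (by linarith)
  have eb2 : (w1 * w3 + w3 * w2 + w2 * w1) / 3 = b := by rw [hb]; ring
  have ep2 : w1 * w3 * w2 = w1 * w2 * w3 := by ring
  rw [← ha, ← hb] at hc1 hDD
  rw [← ha, eb2, ep2] at hc2
  refine F1_abstract (N := a ^ 2 * b ^ 2 + b * (1 - b) * (v1 * v2 * v3)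
      + a * (1 - a) * (w1 * w2 * w3)) (D := 1 - 3 * (1 - a) * (1 - b)
      + 2 * ((v1 * v2 * v3 - 1 + 3 * (1 - a)) / 2) * ((w1 * w2 * w3 - 1 + 3 * (1 - b)) / 2))
      (by positivity) (by positivity) (by positivity) (by positivity) (by positivity)
      (by positivity) hc1 ?_ hDD hZsum ?_ ?_
  · rw [← hc2]
  · have h1 : 0 ≤ 1 - b := by linarith
    have h2 : 0 ≤ 1 - a := by linarith
    positivity
  · exact main_param ha0 ha1 hb0 hb1 hp hp' hpC hpC' hpU hpU'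

/-- Tangent lower bound for `yy`. -/
theorem yy_lower (p1 p2 p3 t1 t2 t3 : ℝ) (h1 : 0 < p1) (h2 : 0 < p2) (h3 : 0 < p3) :
    (t1 * (p1 - (p1 + p2 + p3) / 3) + t2 * (p2 - (p1 + p2 + p3) / 3)
        + t3 * (p3 - (p1 + p2 + p3) / 3)) / 3
      - (1 / 2) * ((t1 ^ 2 + t2 ^ 2 + t3 ^ 2) / 3) * ((p1 + p2 + p3) / 3) ≤ yy p1 p2 p3 := by
  have hs : 0 < p1 + p2 + p3 := by positivity
  have key : yy p1 p2 p3 - ((t1 * (p1 - (p1 + p2 + p3) / 3) + t2 * (p2 - (p1 + p2 + p3) / 3)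
        + t3 * (p3 - (p1 + p2 + p3) / 3)) / 3
      - (1 / 2) * ((t1 ^ 2 + t2 ^ 2 + t3 ^ 2) / 3) * ((p1 + p2 + p3) / 3))
      = ((p1 - (p1 + p2 + p3) / 3 * (1 + t1)) ^ 2 + (p2 - (p1 + p2 + p3) / 3 * (1 + t2)) ^ 2
          + (p3 - (p1 + p2 + p3) / 3 * (1 + t3)) ^ 2) / (2 * (p1 + p2 + p3)) := by
    unfold yy
    field_simp
    ring
  have : 0 ≤ ((p1 - (p1 + p2 + p3) / 3 * (1 + t1)) ^ 2 + (p2 - (p1 + p2 + p3) / 3 * (1 + t2)) ^ 2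
          + (p3 - (p1 + p2 + p3) / 3 * (1 + t3)) ^ 2) / (2 * (p1 + p2 + p3)) := by positivity
  linarith

/-- The right side of the tangent bound, abbreviated. -/
def tanb (p1 p2 p3 t1 t2 t3 : ℝ) : ℝ :=
  (t1 * (p1 - (p1 + p2 + p3) / 3) + t2 * (p2 - (p1 + p2 + p3) / 3)
        + t3 * (p3 - (p1 + p2 + p3) / 3)) / 3
      - (1 / 2) * ((t1 ^ 2 + t2 ^ 2 + t3 ^ 2) / 3) * ((p1 + p2 + p3) / 3)

theorem id_F2a {v1 v2 v3 w1 w2 w3 : ℝ} (hv : v3 = 3 - v1 - v2) (hw : w3 = 3 - w1 - w2) :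
    tanb (v1 * w1) (v2 * w2) (v3 * w3) (v1 - 1) (v2 - 1) (v3 - 1)
      + tanb (v1 * w2) (v2 * w3) (v3 * w1) (v1 - 1) (v2 - 1) (v3 - 1)
      + tanb (v1 * w3) (v2 * w1) (v3 * w2) (v1 - 1) (v2 - 1) (v3 - 1)
      + tanb (v1 * w1) (v2 * w3) (v3 * w2) (v1 - 1) (v2 - 1) (v3 - 1)
      + tanb (v1 * w3) (v2 * w2) (v3 * w1) (v1 - 1) (v2 - 1) (v3 - 1)
      + tanb (v1 * w2) (v2 * w1) (v3 * w3) (v1 - 1) (v2 - 1) (v3 - 1)
      = 6 * (1 - (v1 * v2 + v2 * v3 + v3 * v1) / 3) := by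
  subst hv hw
  unfold tanb
  ring

theorem id_F2b {v1 v2 v3 w1 w2 w3 : ℝ} (hv : v3 = 3 - v1 - v2) (hw : w3 = 3 - w1 - w2) :
    tanb (v1 * w1) (v2 * w2) (v3 * w3) (v1 + w1 - 2) (v2 + w2 - 2) (v3 + w3 - 2)
      + tanb (v1 * w2) (v2 * w3) (v3 * w1) (v1 + w2 - 2) (v2 + w3 - 2) (v3 + w1 - 2)
      + tanb (v1 * w3) (v2 * w1) (v3 * w2) (v1 + w3 - 2) (v2 + w1 - 2) (v3 + w2 - 2)
      + tanb (v1 * w1) (v2 * w3) (v3 * w2) (v1 + w1 - 2) (v2 + w3 - 2) (v3 + w2 - 2)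
      + tanb (v1 * w3) (v2 * w2) (v3 * w1) (v1 + w3 - 2) (v2 + w2 - 2) (v3 + w1 - 2)
      + tanb (v1 * w2) (v2 * w1) (v3 * w3) (v1 + w2 - 2) (v2 + w1 - 2) (v3 + w3 - 2)
      = 6 * ((1 - (v1 * v2 + v2 * v3 + v3 * v1) / 3) + (1 - (w1 * w2 + w2 * w3 + w3 * w1) / 3)
        - 2 * (1 - (v1 * v2 + v2 * v3 + v3 * v1) / 3) * (1 - (w1 * w2 + w2 * w3 + w3 * w1) / 3)) := by
  subst hv hw
  unfold tanb
  ring

/-- Averaged lower bound: a product observation is at least as informative as one factor. -/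
theorem F2a_norm {v1 v2 v3 w1 w2 w3 : ℝ} (hv1 : 0 < v1) (hv2 : 0 < v2) (hv3 : 0 < v3)
    (hw1 : 0 < w1) (hw2 : 0 < w2) (hw3 : 0 < w3) (hv : v1 + v2 + v3 = 3) (hw : w1 + w2 + w3 = 3) :
    yy v1 v2 v3 ≤ sym6 yy v1 v2 v3 w1 w2 w3 / 6 := by
  have h0 := yy_lower (v1 * w1) (v2 * w2) (v3 * w3) (v1 - 1) (v2 - 1) (v3 - 1)
    (by positivity) (by positivity) (by positivity)
  have h1 := yy_lower (v1 * w2) (v2 * w3) (v3 * w1) (v1 - 1) (v2 - 1) (v3 - 1)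
    (by positivity) (by positivity) (by positivity)
  have h2 := yy_lower (v1 * w3) (v2 * w1) (v3 * w2) (v1 - 1) (v2 - 1) (v3 - 1)
    (by positivity) (by positivity) (by positivity)
  have h3 := yy_lower (v1 * w1) (v2 * w3) (v3 * w2) (v1 - 1) (v2 - 1) (v3 - 1)
    (by positivity) (by positivity) (by positivity)
  have h4 := yy_lower (v1 * w3) (v2 * w2) (v3 * w1) (v1 - 1) (v2 - 1) (v3 - 1)
    (by positivity) (by positivity) (by positivity)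
  have h5 := yy_lower (v1 * w2) (v2 * w1) (v3 * w3) (v1 - 1) (v2 - 1) (v3 - 1)
    (by positivity) (by positivity) (by positivity)
  have hv3' : v3 = 3 - v1 - v2 := by linarith
  have hw3' : w3 = 3 - w1 - w2 := by linarith
  have hid := id_F2a hv3' hw3'
  rw [yy_norm hv]
  unfold tanb at hid
  unfold sym6
  linarith

/-- Averaged lower bound with the second order term. -/
theorem F2b_norm {v1 v2 v3 w1 w2 w3 : ℝ} (hv1 : 0 < v1) (hv2 : 0 < v2) (hv3 : 0 < v3)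
    (hw1 : 0 < w1) (hw2 : 0 < w2) (hw3 : 0 < w3) (hv : v1 + v2 + v3 = 3) (hw : w1 + w2 + w3 = 3) :
    yy v1 v2 v3 + yy w1 w2 w3 - 2 * yy v1 v2 v3 * yy w1 w2 w3 ≤ sym6 yy v1 v2 v3 w1 w2 w3 / 6 := by
  have h0 := yy_lower (v1 * w1) (v2 * w2) (v3 * w3) (v1 + w1 - 2) (v2 + w2 - 2) (v3 + w3 - 2)
    (by positivity) (by positivity) (by positivity)
  have h1 := yy_lower (v1 * w2) (v2 * w3) (v3 * w1) (v1 + w2 - 2) (v2 + w3 - 2) (v3 + w1 - 2)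
    (by positivity) (by positivity) (by positivity)
  have h2 := yy_lower (v1 * w3) (v2 * w1) (v3 * w2) (v1 + w3 - 2) (v2 + w1 - 2) (v3 + w2 - 2)
    (by positivity) (by positivity) (by positivity)
  have h3 := yy_lower (v1 * w1) (v2 * w3) (v3 * w2) (v1 + w1 - 2) (v2 + w3 - 2) (v3 + w2 - 2)
    (by positivity) (by positivity) (by positivity)
  have h4 := yy_lower (v1 * w3) (v2 * w2) (v3 * w1) (v1 + w3 - 2) (v2 + w2 - 2) (v3 + w1 - 2)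
    (by positivity) (by positivity) (by positivity)
  have h5 := yy_lower (v1 * w2) (v2 * w1) (v3 * w3) (v1 + w2 - 2) (v2 + w1 - 2) (v3 + w3 - 2)
    (by positivity) (by positivity) (by positivity)
  have hv3' : v3 = 3 - v1 - v2 := by linarith
  have hw3' : w3 = 3 - w1 - w2 := by linarith
  have hid := id_F2b hv3' hw3'
  rw [yy_norm hv, yy_norm hw]
  unfold tanb at hid
  unfold sym6
  linarith

/-- The polynomial identity for the average of the pairwise products. -/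
theorem id_Wsum {v1 v2 v3 w1 w2 w3 : ℝ} (hv : v3 = 3 - v1 - v2) (hw : w3 = 3 - w1 - w2) :
    ((v1 * w1) * (v2 * w2) + (v2 * w2) * (v3 * w3) + (v3 * w3) * (v1 * w1))
      + ((v1 * w2) * (v2 * w3) + (v2 * w3) * (v3 * w1) + (v3 * w1) * (v1 * w2))
      + ((v1 * w3) * (v2 * w1) + (v2 * w1) * (v3 * w2) + (v3 * w2) * (v1 * w3))
      + ((v1 * w1) * (v2 * w3) + (v2 * w3) * (v3 * w2) + (v3 * w2) * (v1 * w1))
      + ((v1 * w3) * (v2 * w2) + (v2 * w2) * (v3 * w1) + (v3 * w1) * (v1 * w3))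
      + ((v1 * w2) * (v2 * w1) + (v2 * w1) * (v3 * w3) + (v3 * w3) * (v1 * w2))
      = 2 * (v1 * v2 + v2 * v3 + v3 * v1) * (w1 * w2 + w2 * w3 + w3 * w1) := by
  subst hv hw
  ring

/-- Tangent bound for `mm` of a product. -/
theorem mm_prod_lower {v1 v2 v3 w1 w2 w3 c W : ℝ} (hv1 : 0 < v1) (hv2 : 0 < v2) (hv3 : 0 < v3)
    (hw1 : 0 < w1) (hw2 : 0 < w2) (hw3 : 0 < w3) (hc : 0 < c) (hW0 : 0 < W)
    (hW : W = (v1 * w1) * (v2 * w2) + (v2 * w2) * (v3 * w3) + (v3 * w3) * (v1 * w1)) :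
    3 * (v1 * v2 * v3) * (w1 * w2 * w3) * (2 * c - W) / c ^ 2
      ≤ mm (v1 * w1) (v2 * w2) (v3 * w3) := by
  unfold mm
  rw [← hW]
  have e : 3 * ((v1 * w1) * (v2 * w2) * (v3 * w3)) = 3 * (v1 * v2 * v3) * (w1 * w2 * w3) := by ring
  rw [e, div_le_div_iff₀ (by positivity) hW0]
  have hP : 0 < 3 * (v1 * v2 * v3) * (w1 * w2 * w3) := by positivity
  have : (2 * c - W) * W ≤ c ^ 2 := by nlinarith [sq_nonneg (W - c)]
  calc 3 * (v1 * v2 * v3) * (w1 * w2 * w3) * (2 * c - W) * W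
      = 3 * (v1 * v2 * v3) * (w1 * w2 * w3) * ((2 * c - W) * W) := by ring
    _ ≤ 3 * (v1 * v2 * v3) * (w1 * w2 * w3) * c ^ 2 :=
        mul_le_mul_of_nonneg_left this hP.le

/-- The harmonic mean is supermultiplicative after averaging over the permutations. -/
theorem F3_raw {v1 v2 v3 w1 w2 w3 : ℝ} (hv1 : 0 < v1) (hv2 : 0 < v2) (hv3 : 0 < v3)
    (hw1 : 0 < w1) (hw2 : 0 < w2) (hw3 : 0 < w3) (hv : v1 + v2 + v3 = 3) (hw : w1 + w2 + w3 = 3) :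
    mm v1 v2 v3 * mm w1 w2 w3 ≤ sym6 mm v1 v2 v3 w1 w2 w3 / 6 := by
  have hv3' : v3 = 3 - v1 - v2 := by linarith
  have hw3' : w3 = 3 - w1 - w2 := by linarith
  have hid := id_Wsum hv3' hw3'
  obtain ⟨E, hE⟩ : ∃ E, E = v1 * v2 + v2 * v3 + v3 * v1 := ⟨_, rfl⟩
  obtain ⟨F, hF⟩ : ∃ F, F = w1 * w2 + w2 * w3 + w3 * w1 := ⟨_, rfl⟩
  have hE0 : 0 < E := by rw [hE]; positivity
  have hF0 : 0 < F := by rw [hF]; positivity
  rw [← hE, ← hF] at hid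
  obtain ⟨c, hc⟩ : ∃ c, c = E * F / 3 := ⟨_, rfl⟩
  have hc0 : 0 < c := by rw [hc]; positivity
  have t0 := mm_prod_lower (v1 := v1) (v2 := v2) (v3 := v3) (w1 := w1) (w2 := w2) (w3 := w3) hv1 hv2 hv3 hw1 hw2 hw3 hc0 (by positivity) rfl
  have t1 := mm_prod_lower (v1 := v1) (v2 := v2) (v3 := v3) (w1 := w2) (w2 := w3) (w3 := w1) hv1 hv2 hv3 hw2 hw3 hw1 hc0 (by positivity) rfl
  have t2 := mm_prod_lower (v1 := v1) (v2 := v2) (v3 := v3) (w1 := w3) (w2 := w1) (w3 := w2) hv1 hv2 hv3 hw3 hw1 hw2 hc0 (by positivity) rfl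
  have t3 := mm_prod_lower (v1 := v1) (v2 := v2) (v3 := v3) (w1 := w1) (w2 := w3) (w3 := w2) hv1 hv2 hv3 hw1 hw3 hw2 hc0 (by positivity) rfl
  have t4 := mm_prod_lower (v1 := v1) (v2 := v2) (v3 := v3) (w1 := w3) (w2 := w2) (w3 := w1) hv1 hv2 hv3 hw3 hw2 hw1 hc0 (by positivity) rfl
  have t5 := mm_prod_lower (v1 := v1) (v2 := v2) (v3 := v3) (w1 := w2) (w2 := w1) (w3 := w3) hv1 hv2 hv3 hw2 hw1 hw3 hc0 (by positivity) rfl
  have e1 : w2 * w3 * w1 = w1 * w2 * w3 := by ring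
  have e2 : w3 * w1 * w2 = w1 * w2 * w3 := by ring
  have e3 : w1 * w3 * w2 = w1 * w2 * w3 := by ring
  have e4 : w3 * w2 * w1 = w1 * w2 * w3 := by ring
  have e5 : w2 * w1 * w3 = w1 * w2 * w3 := by ring
  rw [e1] at t1
  rw [e2] at t2
  rw [e3] at t3
  rw [e4] at t4
  rw [e5] at t5
  obtain ⟨P, hP⟩ : ∃ P, P = 3 * (v1 * v2 * v3) * (w1 * w2 * w3) := ⟨_, rfl⟩
  rw [← hP] at t0 t1 t2 t3 t4 t5
  obtain ⟨W0, hW0⟩ : ∃ W, W = (v1 * w1) * (v2 * w2) + (v2 * w2) * (v3 * w3) + (v3 * w3) * (v1 * w1) := ⟨_, rfl⟩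
  obtain ⟨W1, hW1⟩ : ∃ W, W = (v1 * w2) * (v2 * w3) + (v2 * w3) * (v3 * w1) + (v3 * w1) * (v1 * w2) := ⟨_, rfl⟩
  obtain ⟨W2, hW2⟩ : ∃ W, W = (v1 * w3) * (v2 * w1) + (v2 * w1) * (v3 * w2) + (v3 * w2) * (v1 * w3) := ⟨_, rfl⟩
  obtain ⟨W3, hW3⟩ : ∃ W, W = (v1 * w1) * (v2 * w3) + (v2 * w3) * (v3 * w2) + (v3 * w2) * (v1 * w1) := ⟨_, rfl⟩
  obtain ⟨W4, hW4⟩ : ∃ W, W = (v1 * w3) * (v2 * w2) + (v2 * w2) * (v3 * w1) + (v3 * w1) * (v1 * w3) := ⟨_, rfl⟩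
  obtain ⟨W5, hW5⟩ : ∃ W, W = (v1 * w2) * (v2 * w1) + (v2 * w1) * (v3 * w3) + (v3 * w3) * (v1 * w2) := ⟨_, rfl⟩
  rw [← hW0] at t0
  rw [← hW1] at t1
  rw [← hW2] at t2
  rw [← hW3] at t3
  rw [← hW4] at t4
  rw [← hW5] at t5
  rw [← hW0, ← hW1, ← hW2, ← hW3, ← hW4, ← hW5] at hid
  have hsum : P * (2 * c - W0) / c ^ 2 + P * (2 * c - W1) / c ^ 2 + P * (2 * c - W2) / c ^ 2
      + P * (2 * c - W3) / c ^ 2 + P * (2 * c - W4) / c ^ 2 + P * (2 * c - W5) / c ^ 2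
      = 6 * (P / c) := by
    have : W0 + W1 + W2 + W3 + W4 + W5 = 6 * c := by rw [hid, hc]; ring
    have hW5' : W5 = 6 * c - W0 - W1 - W2 - W3 - W4 := by linarith
    rw [hW5']
    field_simp
    ring
  have hL : mm v1 v2 v3 * mm w1 w2 w3 = P / c := by
    unfold mm
    rw [← hE, ← hF, hP, hc]
    field_simp
  rw [hL]
  unfold sym6
  linarith

/-- Core real inequality behind the contraction step. -/
theorem F4_core {A R lam : ℝ} (hA0 : 0 ≤ A) (hA1 : A < 1) (hR : R ^ 2 ≤ A ^ 3)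
    (h0 : 0 ≤ lam) (h1 : lam ≤ 1) :
    lam ^ 3 * ((1 - 3 * A + 2 * R) / (1 - A) - 1 + 2 * A)
        + (1 / 2) * lam ^ 3 * (1 - lam) * A ^ 2
      ≤ (1 - 3 * (lam ^ 2 * A) + 2 * (lam ^ 3 * R)) / (1 - lam ^ 2 * A) - 1 + 2 * (lam ^ 2 * A) := by
  obtain ⟨s, hs⟩ : ∃ s, s = Real.sqrt A := ⟨_, rfl⟩
  have hs0 : 0 ≤ s := by rw [hs]; exact Real.sqrt_nonneg A
  have hs2 : s ^ 2 = A := by rw [hs]; exact Real.sq_sqrt hA0
  have hs1 : s < 1 := by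
    by_contra h
    push Not at h
    nlinarith
  have hRs : R ≤ s ^ 3 := by
    have h3 : R ^ 2 ≤ (s ^ 3) ^ 2 := by
      have : (s ^ 3) ^ 2 = A ^ 3 := by rw [← hs2]; ring
      rw [this]; exact hR
    exact le_of_abs_le (abs_le_of_sq_le_sq h3 (by positivity))
  have hl : 1 - lam ^ 2 * A > 0 := by
    have : lam ^ 2 ≤ 1 := by nlinarith
    have : lam ^ 2 * A ≤ 1 * A := mul_le_mul_of_nonneg_right this hA0
    linarith
  have hA' : 0 < 1 - A := by linarith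
  have hN : s ^ 2 * (1 - s) * (1 - lam * s) ≤ A + lam * A ^ 2 - (1 + lam) * R := by
    have : (1 + lam) * R ≤ (1 + lam) * s ^ 3 := mul_le_mul_of_nonneg_left hRs (by linarith)
    rw [← hs2]
    have e : s ^ 2 * (1 - s) * (1 - lam * s) = s ^ 2 + lam * (s ^ 2) ^ 2 - (1 + lam) * s ^ 3 := by
      ring
    linarith
  have hls : lam * s ≤ 1 := by nlinarith
  have hB : A * (1 - A) * (1 - lam ^ 2 * A) ≤ 4 * (A + lam * A ^ 2 - (1 + lam) * R) := by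
    have e : A * (1 - A) * (1 - lam ^ 2 * A)
        = ((1 + s) * (1 + lam * s)) * (s ^ 2 * (1 - s) * (1 - lam * s)) := by
      rw [← hs2]; ring
    rw [e]
    have hnn : 0 ≤ s ^ 2 * (1 - s) * (1 - lam * s) := by
      have h2 : 0 ≤ 1 - s := by linarith
      have h3 : 0 ≤ 1 - lam * s := by linarith
      positivity
    have h4 : (1 + s) * (1 + lam * s) ≤ 4 := by nlinarith
    have : ((1 + s) * (1 + lam * s)) * (s ^ 2 * (1 - s) * (1 - lam * s))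
        ≤ 4 * (s ^ 2 * (1 - s) * (1 - lam * s)) := mul_le_mul_of_nonneg_right h4 hnn
    linarith
  have key : ((1 - 3 * (lam ^ 2 * A) + 2 * (lam ^ 3 * R)) / (1 - lam ^ 2 * A) - 1 + 2 * (lam ^ 2 * A))
      - (lam ^ 3 * ((1 - 3 * A + 2 * R) / (1 - A) - 1 + 2 * A)
        + (1 / 2) * lam ^ 3 * (1 - lam) * A ^ 2)
      = lam ^ 3 * (1 - lam) * A * (4 * (A + lam * A ^ 2 - (1 + lam) * R)
          - A * (1 - A) * (1 - lam ^ 2 * A)) / (2 * (1 - A) * (1 - lam ^ 2 * A)) := by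
    field_simp
    ring
  have h1' : 0 ≤ 1 - lam := by linarith
  have h2' : 0 ≤ 4 * (A + lam * A ^ 2 - (1 + lam) * R) - A * (1 - A) * (1 - lam ^ 2 * A) := by
    linarith
  have : 0 ≤ lam ^ 3 * (1 - lam) * A * (4 * (A + lam * A ^ 2 - (1 + lam) * R)
          - A * (1 - A) * (1 - lam ^ 2 * A)) / (2 * (1 - A) * (1 - lam ^ 2 * A)) := by
    positivity
  linarith

/-- `yy` under the channel, normalised. -/
theorem yy_T_norm {v1 v2 v3 lam : ℝ} (hv : v1 + v2 + v3 = 3) :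
    yy (lam * v1 + (1 - lam)) (lam * v2 + (1 - lam)) (lam * v3 + (1 - lam))
      = lam ^ 2 * yy v1 v2 v3 := by
  have hv3' : v3 = 3 - v1 - v2 := by linarith
  have hs : (lam * v1 + (1 - lam)) + (lam * v2 + (1 - lam)) + (lam * v3 + (1 - lam)) = 3 := by
    rw [hv3']; ring
  rw [yy_norm hs, yy_norm hv, hv3']
  ring

/-- The class function under the channel, normalised. -/
theorem hh_T_norm {v1 v2 v3 lam : ℝ} (hv1 : 0 < v1) (hv2 : 0 < v2) (hv3 : 0 < v3)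
    (hv : v1 + v2 + v3 = 3) (h0 : 0 ≤ lam) (h1 : lam ≤ 1) :
    lam ^ 3 * hh v1 v2 v3 + (1 / 2) * lam ^ 3 * (1 - lam) * (yy v1 v2 v3) ^ 2
      ≤ hh (lam * v1 + (1 - lam)) (lam * v2 + (1 - lam)) (lam * v3 + (1 - lam)) := by
  have hv3' : v3 = 3 - v1 - v2 := by linarith
  obtain ⟨a, ha⟩ : ∃ a, a = (v1 * v2 + v2 * v3 + v3 * v1) / 3 := ⟨_, rfl⟩
  have ha0 : 0 < a := by rw [ha]; positivity
  obtain ⟨A, hA⟩ : ∃ A, A = 1 - a := ⟨_, rfl⟩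
  obtain ⟨R, hR⟩ : ∃ R, R = (v1 * v2 * v3 - 1 + 3 * A) / 2 := ⟨_, rfl⟩
  have hA0 : 0 ≤ A := by
    rw [hA, ha, hv3']
    nlinarith [sq_nonneg (v1 - 1), sq_nonneg (v2 - 1), sq_nonneg (v1 + v2 - 2)]
  have hA1 : A < 1 := by rw [hA]; linarith
  have hRA : A ^ 3 - R ^ 2 = (1 / 108) * ((v1 - v2) * (v2 - v3) * (v3 - v1)) ^ 2 := by
    rw [hR, hA, ha, hv3']
    ring
  have hRA' : R ^ 2 ≤ A ^ 3 := by
    have : 0 ≤ (1 / 108) * ((v1 - v2) * (v2 - v3) * (v3 - v1)) ^ 2 := by positivity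
    linarith
  have hF := F4_core hA0 hA1 hRA' h0 h1
  have hs : (lam * v1 + (1 - lam)) + (lam * v2 + (1 - lam)) + (lam * v3 + (1 - lam)) = 3 := by
    rw [hv3']; ring
  have yv : yy v1 v2 v3 = A := by rw [yy_norm hv, hA, ha]
  have yT : yy (lam * v1 + (1 - lam)) (lam * v2 + (1 - lam)) (lam * v3 + (1 - lam))
      = lam ^ 2 * A := by rw [yy_T_norm hv, yv]
  have e2 : v1 * v2 + v2 * v3 + v3 * v1 = 3 * (1 - A) := by rw [hA, ha]; ring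
  have e3 : v1 * v2 * v3 = 1 - 3 * A + 2 * R := by rw [hR]; ring
  have mv : mm v1 v2 v3 = (1 - 3 * A + 2 * R) / (1 - A) := by
    unfold mm
    rw [e2, e3]
    have : 1 - A ≠ 0 := by linarith
    field_simp
  have e2T : (lam * v1 + (1 - lam)) * (lam * v2 + (1 - lam))
      + (lam * v2 + (1 - lam)) * (lam * v3 + (1 - lam))
      + (lam * v3 + (1 - lam)) * (lam * v1 + (1 - lam)) = 3 * (1 - lam ^ 2 * A) := by
    rw [hA, ha, hv3']; ring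
  have e3T : (lam * v1 + (1 - lam)) * (lam * v2 + (1 - lam)) * (lam * v3 + (1 - lam))
      = 1 - 3 * (lam ^ 2 * A) + 2 * (lam ^ 3 * R) := by
    rw [hR, hA, ha, hv3']; ring
  have hl : 1 - lam ^ 2 * A ≠ 0 := by
    have : lam ^ 2 ≤ 1 := by nlinarith
    have : lam ^ 2 * A ≤ 1 * A := mul_le_mul_of_nonneg_right this hA0
    intro h
    linarith
  have mT : mm (lam * v1 + (1 - lam)) (lam * v2 + (1 - lam)) (lam * v3 + (1 - lam))
      = (1 - 3 * (lam ^ 2 * A) + 2 * (lam ^ 3 * R)) / (1 - lam ^ 2 * A) := by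
    unfold mm
    rw [e2T, e3T]
    field_simp
  have hT : hh (lam * v1 + (1 - lam)) (lam * v2 + (1 - lam)) (lam * v3 + (1 - lam))
      = (1 - 3 * (lam ^ 2 * A) + 2 * (lam ^ 3 * R)) / (1 - lam ^ 2 * A) - 1 + 2 * (lam ^ 2 * A) := by
    unfold hh
    rw [mT, yT, hs]
    ring
  have hv_ : hh v1 v2 v3 = (1 - 3 * A + 2 * R) / (1 - A) - 1 + 2 * A := by
    unfold hh
    rw [mv, yv, hv]
    ring
  rw [hT, hv_, yv]
  exact hF

/-- Normalising a positive triple. -/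
theorem exists_normal {a1 a2 a3 : ℝ} (h1 : 0 < a1) (h2 : 0 < a2) (h3 : 0 < a3) :
    ∃ s v1 v2 v3 : ℝ, 0 < s ∧ 0 < v1 ∧ 0 < v2 ∧ 0 < v3 ∧ v1 + v2 + v3 = 3 ∧ a1 = s * v1 ∧ a2 = s * v2
      ∧ a3 = s * v3 ∧ (a1 + a2 + a3) / 3 = s := by
  have hs : 0 < (a1 + a2 + a3) / 3 := by positivity
  refine ⟨(a1 + a2 + a3) / 3, a1 / ((a1 + a2 + a3) / 3), a2 / ((a1 + a2 + a3) / 3),
    a3 / ((a1 + a2 + a3) / 3), hs, by positivity, by positivity, by positivity, ?_, ?_, ?_, ?_, rfl⟩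
  · field_simp
  · field_simp
  · field_simp
  · field_simp

/-- Homogeneity of the six-fold sum. -/
theorem sym6_smul {f : ℝ → ℝ → ℝ → ℝ}
    (hf : ∀ {c x y z : ℝ}, 0 < c → 0 < x → 0 < y → 0 < z → f (c * x) (c * y) (c * z) = c * f x y z)
    {s t v1 v2 v3 w1 w2 w3 : ℝ} (hs : 0 < s) (ht : 0 < t) (hv1 : 0 < v1) (hv2 : 0 < v2)
    (hv3 : 0 < v3) (hw1 : 0 < w1) (hw2 : 0 < w2) (hw3 : 0 < w3) :
    sym6 f (s * v1) (s * v2) (s * v3) (t * w1) (t * w2) (t * w3)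
      = s * t * sym6 f v1 v2 v3 w1 w2 w3 := by
  have key : ∀ {x1 x2 x3 y1 y2 y3 : ℝ}, 0 < x1 → 0 < x2 → 0 < x3 → 0 < y1 → 0 < y2 → 0 < y3 →
      f ((s * x1) * (t * y1)) ((s * x2) * (t * y2)) ((s * x3) * (t * y3))
        = (s * t) * f (x1 * y1) (x2 * y2) (x3 * y3) := by
    intro x1 x2 x3 y1 y2 y3 h1 h2 h3 h4 h5 h6
    rw [← hf (mul_pos hs ht) (mul_pos h1 h4) (mul_pos h2 h5) (mul_pos h3 h6)]
    congr 1 <;> ring
  unfold sym6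
  rw [key hv1 hv2 hv3 hw1 hw2 hw3, key hv1 hv2 hv3 hw2 hw3 hw1, key hv1 hv2 hv3 hw3 hw1 hw2,
    key hv1 hv2 hv3 hw1 hw3 hw2, key hv1 hv2 hv3 hw3 hw2 hw1, key hv1 hv2 hv3 hw2 hw1 hw3]
  ring

/-- Subadditivity with correction, general scale. -/
theorem F1 {a1 a2 a3 b1 b2 b3 : ℝ} (h1 : 0 < a1) (h2 : 0 < a2) (h3 : 0 < a3)
    (h4 : 0 < b1) (h5 : 0 < b2) (h6 : 0 < b3) :
    sym6 yy a1 a2 a3 b1 b2 b3 / 6
      ≤ (b1 + b2 + b3) / 3 * yy a1 a2 a3 + (a1 + a2 + a3) / 3 * yy b1 b2 b3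
        - (1 / 2) * (yy b1 b2 b3 * hh a1 a2 a3 + yy a1 a2 a3 * hh b1 b2 b3) := by
  obtain ⟨s, v1, v2, v3, hs, hv1, hv2, hv3, hv, rfl, rfl, rfl, hss⟩ := exists_normal h1 h2 h3
  obtain ⟨t, w1, w2, w3, ht, hw1, hw2, hw3, hw, rfl, rfl, rfl, htt⟩ := exists_normal h4 h5 h6
  rw [hss, htt, sym6_smul yy_smul hs ht hv1 hv2 hv3 hw1 hw2 hw3, yy_smul hs hv1 hv2 hv3,
    yy_smul ht hw1 hw2 hw3, hh_smul hs hv1 hv2 hv3, hh_smul ht hw1 hw2 hw3]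
  have := F1_norm hv1 hv2 hv3 hw1 hw2 hw3 hv hw
  have hst : 0 < s * t := by positivity
  have := mul_le_mul_of_nonneg_left this hst.le
  nlinarith

/-- Lower bound by one factor, general scale. -/
theorem F2a {a1 a2 a3 b1 b2 b3 : ℝ} (h1 : 0 < a1) (h2 : 0 < a2) (h3 : 0 < a3)
    (h4 : 0 < b1) (h5 : 0 < b2) (h6 : 0 < b3) :
    (b1 + b2 + b3) / 3 * yy a1 a2 a3 ≤ sym6 yy a1 a2 a3 b1 b2 b3 / 6 := by
  obtain ⟨s, v1, v2, v3, hs, hv1, hv2, hv3, hv, rfl, rfl, rfl, hss⟩ := exists_normal h1 h2 h3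
  obtain ⟨t, w1, w2, w3, ht, hw1, hw2, hw3, hw, rfl, rfl, rfl, htt⟩ := exists_normal h4 h5 h6
  rw [htt, sym6_smul yy_smul hs ht hv1 hv2 hv3 hw1 hw2 hw3, yy_smul hs hv1 hv2 hv3]
  have := F2a_norm hv1 hv2 hv3 hw1 hw2 hw3 hv hw
  have hst : 0 < s * t := by positivity
  have := mul_le_mul_of_nonneg_left this hst.le
  nlinarith

/-- Second order lower bound, general scale. -/
theorem F2b {a1 a2 a3 b1 b2 b3 : ℝ} (h1 : 0 < a1) (h2 : 0 < a2) (h3 : 0 < a3)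
    (h4 : 0 < b1) (h5 : 0 < b2) (h6 : 0 < b3) :
    (b1 + b2 + b3) / 3 * yy a1 a2 a3 + (a1 + a2 + a3) / 3 * yy b1 b2 b3
        - 2 * yy a1 a2 a3 * yy b1 b2 b3 ≤ sym6 yy a1 a2 a3 b1 b2 b3 / 6 := by
  obtain ⟨s, v1, v2, v3, hs, hv1, hv2, hv3, hv, rfl, rfl, rfl, hss⟩ := exists_normal h1 h2 h3
  obtain ⟨t, w1, w2, w3, ht, hw1, hw2, hw3, hw, rfl, rfl, rfl, htt⟩ := exists_normal h4 h5 h6
  rw [hss, htt, sym6_smul yy_smul hs ht hv1 hv2 hv3 hw1 hw2 hw3, yy_smul hs hv1 hv2 hv3,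
    yy_smul ht hw1 hw2 hw3]
  have := F2b_norm hv1 hv2 hv3 hw1 hw2 hw3 hv hw
  have hst : 0 < s * t := by positivity
  have := mul_le_mul_of_nonneg_left this hst.le
  nlinarith

/-- Supermultiplicativity of the harmonic mean, general scale. -/
theorem F3 {a1 a2 a3 b1 b2 b3 : ℝ} (h1 : 0 < a1) (h2 : 0 < a2) (h3 : 0 < a3)
    (h4 : 0 < b1) (h5 : 0 < b2) (h6 : 0 < b3) :
    mm a1 a2 a3 * mm b1 b2 b3 ≤ sym6 mm a1 a2 a3 b1 b2 b3 / 6 := by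
  obtain ⟨s, v1, v2, v3, hs, hv1, hv2, hv3, hv, rfl, rfl, rfl, hss⟩ := exists_normal h1 h2 h3
  obtain ⟨t, w1, w2, w3, ht, hw1, hw2, hw3, hw, rfl, rfl, rfl, htt⟩ := exists_normal h4 h5 h6
  rw [sym6_smul mm_smul hs ht hv1 hv2 hv3 hw1 hw2 hw3, mm_smul hs hv1 hv2 hv3,
    mm_smul ht hw1 hw2 hw3]
  have := F3_raw hv1 hv2 hv3 hw1 hw2 hw3 hv hw
  have hst : 0 < s * t := by positivity
  have := mul_le_mul_of_nonneg_left this hst.le
  nlinarith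

/-- The channel acting on a triple. -/
def Tl (lam s x : ℝ) : ℝ := lam * x + (1 - lam) * s

/-- `yy` under the channel. -/
theorem yy_T {x1 x2 x3 lam : ℝ} (h1 : 0 < x1) (h2 : 0 < x2) (h3 : 0 < x3) (h0 : 0 ≤ lam)
    (hl : lam ≤ 1) :
    yy (Tl lam ((x1 + x2 + x3) / 3) x1) (Tl lam ((x1 + x2 + x3) / 3) x2)
        (Tl lam ((x1 + x2 + x3) / 3) x3) = lam ^ 2 * yy x1 x2 x3 := by
  obtain ⟨s, v1, v2, v3, hs, hv1, hv2, hv3, hv, rfl, rfl, rfl, hss⟩ := exists_normal h1 h2 h3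
  rw [hss]
  have e : ∀ v, Tl lam s (s * v) = s * (lam * v + (1 - lam)) := by
    intro v; unfold Tl; ring
  have hpos : ∀ v, 0 < v → 0 < lam * v + (1 - lam) := by
    intro v hv0
    rcases eq_or_lt_of_le h0 with h00 | h00
    · rw [← h00]; norm_num
    · have : 0 < lam * v := by positivity
      linarith
  rw [e, e, e, yy_smul hs (hpos _ hv1) (hpos _ hv2) (hpos _ hv3), yy_T_norm hv,
    yy_smul hs hv1 hv2 hv3]
  ring

/-- The class function under the channel. -/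
theorem hh_T {x1 x2 x3 lam : ℝ} (h1 : 0 < x1) (h2 : 0 < x2) (h3 : 0 < x3) (h0 : 0 ≤ lam)
    (hl : lam ≤ 1) :
    lam ^ 3 * hh x1 x2 x3
        + (1 / 2) * lam ^ 3 * (1 - lam) * ((yy x1 x2 x3) ^ 2 / ((x1 + x2 + x3) / 3))
      ≤ hh (Tl lam ((x1 + x2 + x3) / 3) x1) (Tl lam ((x1 + x2 + x3) / 3) x2)
        (Tl lam ((x1 + x2 + x3) / 3) x3) := by
  obtain ⟨s, v1, v2, v3, hs, hv1, hv2, hv3, hv, rfl, rfl, rfl, hss⟩ := exists_normal h1 h2 h3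
  rw [hss]
  have e : ∀ v, Tl lam s (s * v) = s * (lam * v + (1 - lam)) := by
    intro v; unfold Tl; ring
  have hpos : ∀ v, 0 < v → 0 < lam * v + (1 - lam) := by
    intro v hv0
    rcases eq_or_lt_of_le h0 with h00 | h00
    · rw [← h00]; norm_num
    · have : 0 < lam * v := by positivity
      linarith
  rw [e, e, e, hh_smul hs (hpos _ hv1) (hpos _ hv2) (hpos _ hv3), hh_smul hs hv1 hv2 hv3,
    yy_smul hs hv1 hv2 hv3]
  have := hh_T_norm hv1 hv2 hv3 hv h0 hl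
  have h' := mul_le_mul_of_nonneg_left this hs.le
  have e2 : (s * yy v1 v2 v3) ^ 2 / s = s * (yy v1 v2 v3) ^ 2 := by
    field_simp
  rw [e2]
  nlinarith

/-- The bound for the statistical distance by `yy`. -/
theorem dist_le_yy {x1 x2 x3 : ℝ} (h1 : 0 < x1) (h2 : 0 < x2) (h3 : 0 < x3) :
    (|x1 - (x1 + x2 + x3) / 3| + |x2 - (x1 + x2 + x3) / 3| + |x3 - (x1 + x2 + x3) / 3|) ^ 2
      ≤ 18 * ((x1 + x2 + x3) / 3) * yy x1 x2 x3 := by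
  have hs : 0 < x1 + x2 + x3 := by positivity
  have key : 18 * ((x1 + x2 + x3) / 3) * yy x1 x2 x3
      = 3 * ((x1 - (x1 + x2 + x3) / 3) ^ 2 + (x2 - (x1 + x2 + x3) / 3) ^ 2
        + (x3 - (x1 + x2 + x3) / 3) ^ 2) := by
    unfold yy
    field_simp
    ring
  rw [key, ← sq_abs (x1 - _), ← sq_abs (x2 - _), ← sq_abs (x3 - _)]
  nlinarith [sq_nonneg (|x1 - (x1 + x2 + x3) / 3| - |x2 - (x1 + x2 + x3) / 3|),
    sq_nonneg (|x2 - (x1 + x2 + x3) / 3| - |x3 - (x1 + x2 + x3) / 3|),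
    sq_nonneg (|x3 - (x1 + x2 + x3) / 3| - |x1 - (x1 + x2 + x3) / 3|)]

end

end Vale.Agent.P154
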